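import Vale.Agent.P111.Lifts

/-! Cotype of the dual gives lifts in the space. -/

noncomputable section

namespace Vale.Agent.P111

open Finset Matrix

variable {X : Type*} [NormedAddCommGroup X] [NormedSpace ℝ X]

theorem liftb_gen {Z : Type*} [SeminormedAddCommGroup Z] [NormedSpace ℝ Z] (K : Submodule ℝ Z)
    (p₀ : Z) : ∃ g : Z →L[ℝ] ℝ, (∀ p ∈ K, g p = 0) ∧ (∀ p, g p ≤ ‖p‖) ∧
      ∀ ε > (0 : ℝ), ∃ p, p - p₀ ∈ K ∧ ‖p‖ < g p₀ + ε := by
  obtain ⟨g, h1, h2⟩ := exists_dual_vector'' ℝ (Submodule.Quotient.mk p₀ : Z ⧸ K)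
  refine ⟨g.comp K.mkQL, fun p hp => ?_, fun p => ?_, fun ε hε => ?_⟩
  · show g (Submodule.Quotient.mk p) = 0
    rw [(Submodule.Quotient.mk_eq_zero K).2 hp, map_zero]
  · exact ((le_abs_self _).trans (g.le_of_opNorm_le h1 (Submodule.Quotient.mk p))).trans
      ((one_mul _).trans_le (Submodule.Quotient.norm_mk_le K p))
  · obtain ⟨p, h3, h4⟩ := Submodule.Quotient.norm_mk_lt (Submodule.Quotient.mk p₀ : Z ⧸ K) hε
    refine ⟨p, (Submodule.Quotient.eq K).1 h3, ?_⟩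
    show ‖p‖ < g (Submodule.Quotient.mk p₀) + ε
    rw [h2]
    exact h4

theorem liftb_orth {N : ℕ} (i j : Fin N) :
    av (fun w : Fin N → F2 => sg (w i) * sg (w j)) = if j = i then 1 else 0 := by
  split_ifs with h
  · simp only [h, sg_mul_self, av_const]
  · simp only [← sg_add]
    exact av_sg_hom (fun w : Fin N → F2 => w i + w j) (fun a b => add_add_add_comm _ _ _ _)
      (g := Pi.single i 1) (by simp [h])

theorem liftb_rad {N : ℕ} (x : Fin N → X) (i : Fin N) :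
    av (fun w : Fin N → F2 => sg (w i) • ∑ j, sg (w j) • x j) = x i := by
  simp only [smul_sum, smul_smul, av_sum, av_smul_const, liftb_orth]
  simp

/-- the Rademacher coefficients -/
def liftbP (X : Type*) [NormedAddCommGroup X] [NormedSpace ℝ X] (N : ℕ) :
    PiLp 2 (fun _ : Fin N → F2 => X) →ₗ[ℝ] Fin N → X where
  toFun p i := av fun w => sg (w i) • p w
  map_add' p q := funext fun i => by simp only [PiLp.add_apply, smul_add, av_add, Pi.add_apply]
  map_smul' c p := funext fun i => by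
    simp only [PiLp.smul_apply, smul_comm _ c, av_smul, Pi.smul_apply, RingHom.id_apply]

/-- multiplication by one sign -/
def liftbR (X : Type*) [NormedAddCommGroup X] [NormedSpace ℝ X] {N : ℕ} (i : Fin N) :
    X →L[ℝ] PiLp 2 (fun _ : Fin N → F2 => X) :=
  (PiLp.continuousLinearEquiv 2 ℝ fun _ : Fin N → F2 => X).symm.toContinuousLinearMap.comp
    (ContinuousLinearMap.pi fun w : Fin N → F2 => sg (w i) • ContinuousLinearMap.id ℝ X)

theorem liftb_PR {N : ℕ} (x : Fin N → X) : liftbP X N (∑ i, liftbR X i (x i)) = x := by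
  funext i
  rw [← liftb_rad x i]
  refine av_congr fun w => ?_
  rw [WithLp.ofLp_sum, Finset.sum_apply]
  rfl

/-- Let `Z = PiLp 2 (fun _ : Fin N → F2 => X)`, `P p i = av fun w => sg (w i) • p w`. A norming
functional of the class of `p₀ w = ∑ i, sg (w i) • x i` in `Z ⧸ ker P` has the form
`p ↦ ∑ i, y i (P p i) = ∑ w, (2 ^ N)⁻¹ * (∑ i, sg (w i) • y i) (p w)`; `sum_sq_dual`, the
hypothesis and Cauchy-Schwarz bound the quotient norm. -/
theorem lift_pre {C θ : ℝ} (hC : 0 < C) (h : ∀ (N : ℕ) (y : Fin N → StrongDual ℝ X), ∑ i, ‖y i‖ ^ 2 ≤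
      C ^ 2 * (N : ℝ) ^ (1 - 2 * θ) * av fun w : Fin N → F2 => ‖∑ i, sg (w i) • y i‖ ^ 2) :
    Lift (fun x : X => ‖x‖ ^ 2) (2 * C) θ := by
  intro N x
  by_cases hx : x = 0
  · refine ⟨0, fun i => ?_, ?_⟩
    · simp [hx, av]
    · simp [hx, av]
  obtain ⟨i₀, hi₀⟩ := Function.ne_iff.1 hx
  have hN : (0 : ℝ) < N := by exact_mod_cast i₀.pos
  have hS : 0 < ∑ i, ‖x i‖ ^ 2 :=
    sum_pos' (fun _ _ => sq_nonneg _) ⟨i₀, mem_univ _, pow_pos (norm_pos_iff.2 hi₀) 2⟩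
  obtain ⟨g, h1, h2, h3⟩ := liftb_gen (liftbP X N).ker (∑ i, liftbR X i (x i))
  set y : Fin N → StrongDual ℝ X := fun i => g.comp (liftbR X i) with hy
  set M : ℝ := (Fintype.card (Fin N → F2) : ℝ) with hM
  have hM0 : 0 < M := Nat.cast_pos.2 Fintype.card_pos
  have e : ∀ p, g p = ∑ i, y i (liftbP X N p i) := fun p => by
    have h4 := h1 (p - ∑ i, liftbR X i (liftbP X N p i)) (by
      rw [LinearMap.mem_ker, map_sub, liftb_PR, sub_self])
    rwa [map_sub, map_sum, sub_eq_zero] at h4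
  have h5 := sum_sq_dual (fun w : Fin N → F2 => M⁻¹ • ∑ i, sg (w i) • y i) zero_le_one
    fun p => by
      have h6 := h2 (WithLp.toLp 2 p)
      rw [e, ← Real.sqrt_sq (norm_nonneg (WithLp.toLp 2 p)), PiLp.norm_sq_eq_of_L2] at h6
      rw [one_mul]
      refine le_of_eq_of_le ?_ h6
      have h7 : ∀ i, y i (liftbP X N (WithLp.toLp 2 p) i) =
          ∑ w, M⁻¹ * (sg (w i) * y i (p w)) := fun i => by
        show y i (M⁻¹ • ∑ w : Fin N → F2, sg (w i) • p w) = _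
        simp only [map_smul, map_sum, smul_eq_mul, mul_sum]
      simp only [h7, _root_.smul_apply, _root_.sum_apply, smul_eq_mul, mul_sum]
      exact sum_comm
  have h6 : av (fun w : Fin N → F2 => ‖∑ i, sg (w i) • y i‖ ^ 2) ≤ M := by
    simp only [norm_smul, mul_pow, ← mul_sum, norm_inv, Real.norm_of_nonneg hM0.le] at h5
    rw [inv_pow, inv_mul_le_iff₀ (pow_pos hM0 2)] at h5
    show M⁻¹ * _ ≤ M
    rw [inv_mul_le_iff₀ hM0]
    linarith
  set D : ℝ := C ^ 2 * (N : ℝ) ^ (1 - 2 * θ) with hD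
  have hD0 : 0 < D := by positivity
  have h7 : ∑ i, ‖y i‖ ^ 2 ≤ D * M := (h N y).trans (mul_le_mul_of_nonneg_left h6 hD0.le)
  have hA : 0 < D * M * ∑ i, ‖x i‖ ^ 2 := by positivity
  have h8 : g (∑ i, liftbR X i (x i)) ≤ √(D * M * ∑ i, ‖x i‖ ^ 2) := by
    rw [map_sum]
    refine (sum_le_sum fun i _ => (le_abs_self _).trans ((y i).le_opNorm (x i))).trans
      (Real.le_sqrt_of_sq_le ((sum_mul_sq_le_sq_mul_sq _ _ _).trans ?_))
    exact mul_le_mul_of_nonneg_right h7 hS.le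
  obtain ⟨p, h9, h10⟩ := h3 _ (Real.sqrt_pos.2 hA)
  rw [LinearMap.mem_ker, map_sub, liftb_PR, sub_eq_zero] at h9
  refine ⟨p.ofLp, congrFun h9, ?_⟩
  have h11 : ‖p‖ ^ 2 ≤ (2 * √(D * M * ∑ i, ‖x i‖ ^ 2)) ^ 2 :=
    pow_le_pow_left₀ (norm_nonneg _) (by linarith) 2
  rw [mul_pow, Real.sq_sqrt hA.le, PiLp.norm_sq_eq_of_L2] at h11
  show M⁻¹ * _ ≤ _
  rw [inv_mul_le_iff₀ hM0, mul_pow, mul_assoc (2 ^ 2 : ℝ), ← hD]
  linarith

end Vale.Agent.P111
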