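import Vale.Agent.P111.Decay
import Vale.Agent.P111.LiftB

/-! Decay of the Walsh norm of the duality pairing. -/

noncomputable section

namespace Vale.Agent.P111

open Finset Matrix

variable {X : Type*} [NormedAddCommGroup X] [NormedSpace ℝ X]

/-- the pairing `(x, y) ↦ y (S x)` -/
def dual (S : X →L[ℝ] X) : X →ₗ[ℝ] StrongDual ℝ X →ₗ[ℝ] ℝ :=
  LinearMap.mk₂ ℝ (fun x y => y (S x)) (fun _ _ _ => by simp) (fun _ _ _ => by simp)
    (fun _ _ _ => by simp) (fun _ _ _ => by simp)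

theorem dual_apply (S : X →L[ℝ] X) (x : X) (y : StrongDual ℝ X) : dual S x y = y (S x) := rfl

theorem dual_base (S : X →L[ℝ] X) :
    Base (dual S) (fun x => ‖x‖ ^ 2) (fun y => ‖y‖ ^ 2) ‖S‖ := by
  intro x y
  have h1 := y.le_opNorm (S x)
  have h2 := mul_le_mul_of_nonneg_left (S.le_opNorm x) (norm_nonneg y)
  have h3 := mul_nonneg (norm_nonneg S) (sq_nonneg (‖x‖ - ‖y‖))
  rw [dual_apply, ← Real.norm_eq_abs]
  linarith

/-- expand `S x` in a basis of the range, `wal_finite` -/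
theorem dual_finite (S : X →L[ℝ] X)
    (hS : FiniteDimensional ℝ (LinearMap.range (S : X →ₗ[ℝ] X))) : ∃ D : ℝ, 0 ≤ D ∧
    ∀ M, Wal (dual S) (fun x => ‖x‖ ^ 2) (fun y => ‖y‖ ^ 2) (Fin M) (D * (√2)⁻¹ ^ M) := by
  obtain ⟨n, ⟨b⟩⟩ : ∃ n, Nonempty (Module.Basis (Fin n) ℝ (LinearMap.range (S : X →ₗ[ℝ] X))) :=
    ⟨_, ⟨Module.finBasis ℝ _⟩⟩
  let L := fun k => (LinearMap.toContinuousLinearMap (b.coord k)).comp S.rangeRestrict
  have h0 : ∀ k, 0 ≤ ‖L k‖ ^ 2 + ‖(b k : X)‖ ^ 2 := fun k => by positivity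
  have h1 := fun k => single_le_sum (fun k _ => h0 k) (mem_univ k)
  refine ⟨n * ∑ k, (‖L k‖ ^ 2 + ‖(b k : X)‖ ^ 2),
    mul_nonneg (Nat.cast_nonneg _) (sum_nonneg fun k _ => h0 k), fun M => ?_⟩
  have key := wal_finite (β := dual S) (qX := fun x => ‖x‖ ^ 2) (qW := fun y => ‖y‖ ^ 2)
    (ι := Fin M) (fun k x => L k x) (fun k y => y (b k))
    (D := ∑ k, (‖L k‖ ^ 2 + ‖(b k : X)‖ ^ 2)) (fun x y => ?_) (fun k x => ?_) fun k y => ?_
  · rwa [Fintype.card_fin] at key
  · have e := congrArg (fun z : LinearMap.range (S : X →ₗ[ℝ] X) => y z)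
      (b.sum_repr (S.rangeRestrict x))
    simp only [Submodule.coe_sum, Submodule.coe_smul, map_sum, map_smul, smul_eq_mul] at e
    exact e.symm
  · have a1 := pow_le_pow_left₀ (norm_nonneg _) ((L k).le_opNorm x) 2
    rw [Real.norm_eq_abs, sq_abs, mul_pow] at a1
    exact a1.trans (mul_le_mul_of_nonneg_right
      ((le_add_of_nonneg_right (sq_nonneg _)).trans (h1 k)) (sq_nonneg _))
  · have a1 := pow_le_pow_left₀ (norm_nonneg _) (y.le_opNorm (b k)) 2
    rw [Real.norm_eq_abs, sq_abs, mul_pow, mul_comm] at a1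
    exact a1.trans (mul_le_mul_of_nonneg_right
      ((le_add_of_nonneg_left (sq_nonneg _)).trans (h1 k)) (sq_nonneg _))

/-- `decay` with `τ = 1 / (2 * (|lam| + 1))` for each finite rank `S` close to the identity on
the finite set `Set.range f`; let `δ → 0`. -/
theorem wal_id {q r : ℝ} (hq : 2 ≤ q) (hr : 2 ≤ r) (hB : HasBAP X) (h1 : HasCotype X q)
    (h2 : HasCotype (StrongDual ℝ X) r) : ∃ m : ℕ,
    Wal (dual (ContinuousLinearMap.id ℝ X)) (fun x => ‖x‖ ^ 2) (fun y => ‖y‖ ^ 2) (Fin m)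
      (1 / 2) := by
  obtain ⟨C1, c1, h1⟩ := cotype_two hq h1
  obtain ⟨C2, c2, h2⟩ := cotype_two hr h2
  obtain ⟨lam, hB⟩ := hB
  have l1 := (lift_pre (by linarith) h2).mono qd_norm (by linarith)
    (show 2 * C2 ≤ 2 * C2 + C1 by linarith) (min_le_right (1 / q) _)
    (one_div_le_one_div_of_le two_pos hr)
  have l2 := (lift_dual h1).mono qd_norm (by linarith)
    (show C1 ≤ 2 * C2 + C1 by linarith) (min_le_left _ (1 / r))
    (one_div_le_one_div_of_le two_pos hq)
  obtain ⟨m, hm⟩ := decay (θ := min (1 / q) (1 / r)) (C := 2 * C2 + C1)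
    (τ := 1 / (2 * (|lam| + 1)))
    (lt_min (one_div_pos.2 (by linarith)) (one_div_pos.2 (by linarith)))
    ((min_le_left _ _).trans (one_div_le_one_div_of_le two_pos hq)) (by linarith) (by positivity)
  refine ⟨m, fun f g => le_of_forall_pos_le_add fun ε hε => ?_⟩
  have hK : 0 ≤ ∑ b, ‖g b‖ := sum_nonneg fun b _ => norm_nonneg _
  obtain ⟨S, s1, s2, s3⟩ := hB (Set.range f) (Set.finite_range f).isCompact
    (ε / (∑ b, ‖g b‖ + 1)) (by positivity)
  obtain ⟨D, d0, hD⟩ := dual_finite S s1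
  have a1 := (hm X (StrongDual ℝ X) (dual S) _ _ qd_norm qd_norm l1 l2 D ‖S‖ d0 (norm_nonneg _) hD
    (dual_base S)).mono qd_norm qd_norm (φ' := 1 / 2) (by
      rw [one_div_mul_eq_div, div_le_div_iff₀ (by positivity) two_pos]
      linarith [le_abs_self lam]) f g
  have a2 : |av fun a => av fun b => sg (a ⬝ᵥ b) * g b (S (f a) - f a)| ≤ ε :=
    abs_av_le fun a => abs_av_le fun b => by
      have b1 := (g b).le_opNorm (S (f a) - f a)
      have b2 := (lt_div_iff₀ (by positivity)).1 (s3 _ ⟨a, rfl⟩)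
      have b3 := mul_le_mul_of_nonneg_right
        (single_le_sum (f := fun b => ‖g b‖) (fun b _ => norm_nonneg _) (mem_univ b))
        (norm_nonneg (S (f a) - f a))
      rw [abs_mul, abs_sg, one_mul, ← Real.norm_eq_abs]
      linarith [norm_nonneg (S (f a) - f a)]
  have e : (av fun a => av fun b => sg (a ⬝ᵥ b) * dual (ContinuousLinearMap.id ℝ X) (f a) (g b)) =
      (av fun a => av fun b => sg (a ⬝ᵥ b) * dual S (f a) (g b)) -
        av fun a => av fun b => sg (a ⬝ᵥ b) * g b (S (f a) - f a) := by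
    simp only [← av_sub, dual_apply, map_sub, ContinuousLinearMap.id_apply, mul_sub,
      sub_sub_cancel]
  rw [e]
  exact (abs_sub _ _).trans (add_le_add a1 a2)

end Vale.Agent.P111
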