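import Vale.Agent.P111.Stmt

/-! Signs and mean values. -/

noncomputable section

namespace Vale.Agent.P111

open Finset Matrix

abbrev F2 := ZMod 2

theorem f2_cases (x : F2) : x = 0 ∨ x = 1 := by
  revert x; decide

theorem f2_add_self (x : F2) : x + x = 0 := by
  revert x; decide

theorem f2_neg (x : F2) : -x = x := by
  revert x; decide

@[simp] theorem sg_zero : sg 0 = 1 := by simp [sg]

@[simp] theorem sg_one : sg 1 = -1 := by simp [sg]

theorem sg_add (x y : F2) : sg (x + y) = sg x * sg y := by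
  rcases f2_cases x with rfl | rfl <;> rcases f2_cases y with rfl | rfl <;>
    simp [f2_add_self]

theorem sg_neg (x : F2) : sg (-x) = sg x := by rw [f2_neg]

theorem sg_sub (x y : F2) : sg (x - y) = sg x * sg y := by
  rw [sub_eq_add_neg, sg_add, sg_neg]

theorem sg_mul_self (x : F2) : sg x * sg x = 1 := by
  rw [← sg_add, f2_add_self, sg_zero]

theorem abs_sg (x : F2) : |sg x| = 1 := by
  rcases f2_cases x with rfl | rfl <;> simp

theorem sg_sq (x : F2) : sg x ^ 2 = 1 := by rw [sq, sg_mul_self]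

theorem sg_sum {ι : Type*} (s : Finset ι) (x : ι → F2) : sg (∑ i ∈ s, x i) = ∏ i ∈ s, sg (x i) := by
  classical
  induction s using Finset.induction_on with
  | empty => simp
  | insert a s ha ih => rw [sum_insert ha, prod_insert ha, sg_add, ih]

section av

variable {Ω Ω' X Y : Type*} [Fintype Ω] [Fintype Ω'] [AddCommGroup X] [Module ℝ X]
  [AddCommGroup Y] [Module ℝ Y]

theorem av_congr {f g : Ω → X} (h : ∀ ω, f ω = g ω) : av f = av g := by
  rw [funext h]

theorem av_add (f g : Ω → X) : av (fun ω => f ω + g ω) = av f + av g := by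
  simp [av, sum_add_distrib]

theorem av_sub (f g : Ω → X) : av (fun ω => f ω - g ω) = av f - av g := by
  simp [av, sum_sub_distrib, smul_sub]

theorem av_smul (c : ℝ) (f : Ω → X) : av (fun ω => c • f ω) = c • av f := by
  simp only [av, ← smul_sum]; rw [smul_comm]

theorem av_mul_left (c : ℝ) (f : Ω → ℝ) : av (fun ω => c * f ω) = c * av f := av_smul c f

theorem av_mul_right (c : ℝ) (f : Ω → ℝ) : av (fun ω => f ω * c) = av f * c := by
  simp only [mul_comm _ c]; exact av_mul_left c f

theorem av_smul_const (f : Ω → ℝ) (x : X) : av (fun ω => f ω • x) = av f • x := by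
  simp only [av, ← sum_smul, smul_eq_mul, mul_smul]

theorem av_zero : av (fun _ : Ω => (0 : X)) = 0 := by simp [av]

theorem av_const [Nonempty Ω] (x : X) : av (fun _ : Ω => x) = x := by
  have : (Fintype.card Ω : ℝ) ≠ 0 := Nat.cast_ne_zero.2 Fintype.card_ne_zero
  simp only [av, sum_const, card_univ, ← Nat.cast_smul_eq_nsmul ℝ, smul_smul]
  rw [inv_mul_cancel₀ this, one_smul]

theorem av_sum {ι : Type*} (s : Finset ι) (f : ι → Ω → X) :
    av (fun ω => ∑ i ∈ s, f i ω) = ∑ i ∈ s, av (f i) := by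
  simp only [av, ← smul_sum]; rw [sum_comm]

theorem av_comm (f : Ω → Ω' → X) :
    av (fun ω => av fun ω' => f ω ω') = av fun ω' => av fun ω => f ω ω' := by
  simp only [av, ← smul_sum]; rw [sum_comm, smul_comm]

theorem av_prod (f : Ω × Ω' → X) : av f = av fun ω => av fun ω' => f (ω, ω') := by
  simp only [av, ← smul_sum, smul_smul, Fintype.card_prod, Nat.cast_mul, mul_inv,
    Fintype.sum_prod_type]

theorem av_equiv (e : Ω ≃ Ω') (f : Ω' → X) : av (fun ω => f (e ω)) = av f := by
  simp only [av, Fintype.card_congr e, e.sum_comp]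

theorem av_shift {G : Type*} [Fintype G] [AddCommGroup G] (c : G) (f : G → X) :
    av (fun g => f (g + c)) = av f := av_equiv (Equiv.addRight c) f

theorem av_shift_sub {G : Type*} [Fintype G] [AddCommGroup G] (c : G) (f : G → X) :
    av (fun g => f (g - c)) = av f := av_equiv (Equiv.subRight c) f

theorem av_shift_sub' {G : Type*} [Fintype G] [AddCommGroup G] (c : G) (f : G → X) :
    av (fun g => f (c - g)) = av f := av_equiv (Equiv.subLeft c) f

theorem map_av (L : X →ₗ[ℝ] Y) (f : Ω → X) : L (av f) = av fun ω => L (f ω) := by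
  simp [av, map_sum]

theorem av_apply {ι : Type*} (f : Ω → ι → X) (i : ι) : av f i = av fun ω => f ω i := by
  simp [av, Finset.sum_apply]

theorem av_mono {f g : Ω → ℝ} (h : ∀ ω, f ω ≤ g ω) : av f ≤ av g :=
  mul_le_mul_of_nonneg_left (sum_le_sum fun ω _ => h ω) (by positivity)

theorem av_nonneg {f : Ω → ℝ} (h : ∀ ω, 0 ≤ f ω) : 0 ≤ av f :=
  mul_nonneg (by positivity) (sum_nonneg fun ω _ => h ω)

theorem av_le [Nonempty Ω] {f : Ω → ℝ} {c : ℝ} (h : ∀ ω, f ω ≤ c) : av f ≤ c :=
  (av_mono h).trans (av_const c).le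

theorem abs_av_le_av (f : Ω → ℝ) : |av f| ≤ av fun ω => |f ω| := by
  simp only [av, smul_eq_mul, abs_mul]
  rw [abs_of_nonneg (by positivity : (0 : ℝ) ≤ (Fintype.card Ω : ℝ)⁻¹)]
  exact mul_le_mul_of_nonneg_left (abs_sum_le_sum_abs _ _) (by positivity)

theorem abs_av_le_of {f g : Ω → ℝ} (h : ∀ ω, |f ω| ≤ g ω) : |av f| ≤ av g :=
  (abs_av_le_av f).trans (av_mono h)

theorem abs_av_le [Nonempty Ω] {f : Ω → ℝ} {c : ℝ} (h : ∀ ω, |f ω| ≤ c) : |av f| ≤ c :=
  (abs_av_le_av f).trans (av_le h)

/-- the mean of a product over independent coordinates -/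
theorem av_pi_prod {ι : Type*} [Fintype ι] [DecidableEq ι] (f : ι → Ω → ℝ) :
    av (fun ω : ι → Ω => ∏ i, f i (ω i)) = ∏ i, av (f i) := by
  simp only [av, smul_eq_mul, prod_mul_distrib, prod_const, card_univ, Fintype.card_pi,
    Nat.cast_pow, inv_pow]
  rw [Finset.prod_univ_sum]
  simp

/-- a function of one coordinate -/
theorem av_coord {ι : Type*} [Fintype ι] [DecidableEq ι] [Nonempty Ω] (i : ι) (f : Ω → X) :
    av (fun ω : ι → Ω => f (ω i)) = av f := by
  rw [← av_equiv (Equiv.funSplitAt i Ω).symm, av_prod]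
  simp [av_const]

end av

/-- orthogonality: a nontrivial character has mean zero -/
theorem av_sg_hom {G : Type*} [Fintype G] [AddCommGroup G] (l : G → F2)
    (hl : ∀ a b, l (a + b) = l a + l b) {g : G} (hg : l g ≠ 0) : av (fun a => sg (l a)) = 0 := by
  have h1 : l g = 1 := (f2_cases _).resolve_left hg
  have h := av_shift g (fun a => sg (l a))
  simp only [hl, h1, sg_add, sg_one, av_mul_right] at h
  linarith

theorem av_sg_dot {ι : Type*} [Fintype ι] [DecidableEq ι] (b : ι → F2) :
    av (fun a : ι → F2 => sg (a ⬝ᵥ b)) = if b = 0 then 1 else 0 := by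
  split_ifs with h
  · simp [h, av_const]
  · obtain ⟨i, hi⟩ := Function.ne_iff.1 h
    exact av_sg_hom (fun a => a ⬝ᵥ b) (fun a a' => add_dotProduct a a' b)
      (g := Pi.single i 1) (by simpa using hi)

theorem av_ite_eq {G : Type*} [Fintype G] [DecidableEq G] (g : G) (c : ℝ) :
    av (fun a => if a = g then c else 0) = (Fintype.card G : ℝ)⁻¹ * c := by
  simp [av]

theorem card_vec (ι : Type*) [Fintype ι] [DecidableEq ι] :
    (Fintype.card (ι → F2) : ℝ) = 2 ^ Fintype.card ι := by
  simp [ZMod.card]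

/-- the number of nonzero coordinates -/
def wt {ι : Type*} [Fintype ι] (v : ι → F2) : ℕ := (univ.filter fun i => v i ≠ 0).card

theorem pow_wt {ι : Type*} [Fintype ι] (x : ℝ) (v : ι → F2) :
    x ^ wt v = ∏ i, if v i = 0 then 1 else x := by
  rw [prod_ite, prod_const_one, one_mul, prod_const, wt]

theorem sg_sum_eq {ι : Type*} [Fintype ι] (v : ι → F2) : sg (∑ i, v i) = (-1) ^ wt v := by
  rw [sg_sum, pow_wt]; rfl

theorem wt_eq_zero {ι : Type*} [Fintype ι] {v : ι → F2} : wt v = 0 ↔ v = 0 := by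
  simp [wt, funext_iff]

theorem wt_single {ι : Type*} [Fintype ι] [DecidableEq ι] (i : ι) :
    wt (Pi.single i (1 : F2)) = 1 := by
  unfold wt
  rw [card_eq_one]
  refine ⟨i, ?_⟩
  ext j
  by_cases h : j = i <;> simp [h, Pi.single_apply]

theorem wt_eq_one {ι : Type*} [Fintype ι] [DecidableEq ι] {v : ι → F2} (h : wt v = 1) :
    ∃ i, v = Pi.single i 1 := by
  obtain ⟨i, hi⟩ := card_eq_one.1 h
  refine ⟨i, funext fun j => ?_⟩
  have hj : j ∈ univ.filter (fun i => v i ≠ 0) ↔ j = i := by rw [hi, mem_singleton]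
  simp only [mem_filter, mem_univ, true_and] at hj
  by_cases h : j = i
  · subst h
    simpa using (f2_cases (v j)).resolve_left (hj.2 rfl)
  · rw [Pi.single_eq_of_ne h]
    by_contra h'
    exact h (hj.1 h')

theorem sum_pow_wt {ι : Type*} [Fintype ι] [DecidableEq ι] (x : ℝ) :
    ∑ v : ι → F2, x ^ wt v = (1 + x) ^ Fintype.card ι := by
  simp only [pow_wt]
  have h := Finset.prod_univ_sum (fun _ : ι => (univ : Finset F2))
    (fun _ a => if a = 0 then (1 : ℝ) else x)
  rw [Fintype.piFinset_univ] at h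
  rw [← h, prod_const, card_univ]
  congr 1
  have : (univ : Finset F2) = {0, 1} := by decide
  rw [this, sum_pair (by decide)]
  simp

end Vale.Agent.P111
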