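import Vale.Agent.P111.RankB

/-! The multiplier attached to a bad row. -/

noncomputable section

namespace Vale.Agent.P111

open Finset Matrix

variable {N : ℕ}

theorem rankc_av {c z : Fin N → F2} (hc : c ⬝ᵥ one N = 1) (hz : z ⬝ᵥ one N = 0) :
    av (fun p : Fin N → F2 => if c ⬝ᵥ p = 0 ∧ z ⬝ᵥ p = 1 then (4 : ℝ) else 0) =
      if z = 0 then 0 else 1 := by
  have h1 : c ≠ 0 := fun e => by simp [e] at hc
  have h2 : c + z ≠ 0 := fun e => by
    have h3 : (c + z) ⬝ᵥ one N = 1 := by rw [add_dotProduct, hc, hz, add_zero]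
    simp [e] at h3
  have h3 : ∀ p : Fin N → F2, (if c ⬝ᵥ p = 0 ∧ z ⬝ᵥ p = 1 then (4 : ℝ) else 0) =
      1 + sg (p ⬝ᵥ c) - sg (p ⬝ᵥ z) - sg (p ⬝ᵥ (c + z)) := fun p => by
    rw [dotProduct_add, sg_add, dotProduct_comm p c, dotProduct_comm p z]
    rcases f2_cases (c ⬝ᵥ p) with a | a <;> rcases f2_cases (z ⬝ᵥ p) with b | b <;>
      simp [a, b] <;> norm_num
  rw [av_congr h3, av_sub, av_sub, av_add, av_const, av_sg_dot, av_sg_dot, av_sg_dot, if_neg h1,
    if_neg h2]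
  split_ifs <;> norm_num

theorem rankc_two (a b a' b' : Fin N → F2) (S : Mx N) :
    (Matrix.of ![a, b] * S * (Matrix.of ![a', b'])ᵀ = 1) ↔
      ((a ᵥ* S) ⬝ᵥ a' = 1 ∧ (a ᵥ* S) ⬝ᵥ b' = 0) ∧ (b ᵥ* S) ⬝ᵥ a' = 0 ∧ (b ᵥ* S) ⬝ᵥ b' = 1 := by
  rw [← Matrix.ext_iff]
  simp only [Fin.forall_fin_two]
  rfl

/-- Index set `F2 × (Fin N → F2)`, rows `one, Pi.single i 1 + κ • one` and `one, p'`, weights
`4 / 2 ^ N`. Only `κ = rI S i` contributes; with `z = S i + κ • cJ S` one has `z ⬝ᵥ one = 0`,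
`cJ S ⬝ᵥ one = 1`, and `cJ S ⬝ᵥ p' = 0 ∧ z ⬝ᵥ p' = 1` has probability `1 / 4` if `z ≠ 0`. -/
theorem good_two (i : Fin N) : Good 2 (bad i) 8 := by
  have h2 : (2 : ℝ) ^ N ≠ 0 := by positivity
  have hc : (Fintype.card (Fin N → F2) : ℝ) = 2 ^ N := by rw [card_vec, Fintype.card_fin]
  refine ⟨F2 × (Fin N → F2), inferInstance, fun _ => 4 / 2 ^ N,
    fun ω => Matrix.of ![one N, Pi.single i 1 + ω.1 • one N], fun ω => Matrix.of ![one N, ω.2],
    ?_, fun S hS => ?_⟩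
  · rw [sum_const, card_univ, nsmul_eq_mul, Fintype.card_prod, Nat.cast_mul, hc, ZMod.card,
      abs_of_nonneg (by positivity)]
    refine le_of_eq ?_
    field_simp
    norm_num
  have h1 : cJ S ⬝ᵥ one N = 1 := by rw [cJ, ← dotProduct_mulVec, hS]
  have h3 : ∀ κ : F2, (Pi.single i 1 + κ • one N) ᵥ* S = S i + κ • cJ S := fun κ => by
    rw [add_vecMul, smul_vecMul, single_one_vecMul]
    rfl
  have h4 : ∀ κ : F2, ∑ p : Fin N → F2, (4 / 2 ^ N : ℝ) *
      (if Matrix.of ![one N, Pi.single i 1 + κ • one N] * S * (Matrix.of ![one N, p])ᵀ = 1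
        then 1 else 0) =
      if S i ⬝ᵥ one N + κ = 0 then (if S i + κ • cJ S = 0 then 0 else 1) else 0 := fun κ => by
    have h5 : (S i + κ • cJ S) ⬝ᵥ one N = S i ⬝ᵥ one N + κ := by
      rw [add_dotProduct, smul_dotProduct, h1, smul_eq_mul, mul_one]
    have h6 : one N ᵥ* S = cJ S := rfl
    simp only [rankc_two, h3, h5, h6, h1, true_and]
    by_cases e : S i ⬝ᵥ one N + κ = 0
    · rw [if_pos e, ← rankc_av h1 (h5.trans e), av, hc, smul_eq_mul, mul_sum]
      refine sum_congr rfl fun p _ => ?_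
      simp only [e, true_and]
      split_ifs
      · field_simp
      · simp
    · simp [e]
  rw [Fintype.sum_prod_type]
  simp only [h4]
  rw [show (univ : Finset F2) = {0, 1} by decide, sum_pair (by decide), bad]
  rcases f2_cases (S i ⬝ᵥ one N) with e | e
  · have h5 : S i ≠ cJ S := fun e' => by simp [e', h1] at e
    simp [e, h5]
  · have h5 : S i ≠ 0 := fun e' => by simp [e'] at e
    have h6 : S i + cJ S = 0 ↔ S i = cJ S := by
      rw [add_eq_zero_iff_eq_neg, show -cJ S = cJ S from funext fun j => f2_neg _]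
    simp [e, h5, h6, f2_add_self]

theorem good_bad {R : ℕ} (hR : 2 ≤ R) (i : Fin N) :
    Good R (fun S => bad i S * QQ R (yy S)) (8 * ∏ j ∈ Ico 2 R, (2 * (4 : ℝ) ^ j)) := by
  induction R, hR using Nat.le_induction with
  | base => simpa [QQ] using good_two i
  | succ R hR ih =>
    have h1 := ih.step
    simp only [QQ, prod_Ico_succ_top hR, ← mul_assoc] at h1 ⊢
    exact h1

end Vale.Agent.P111
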