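import Vale.Agent.P111.Basic

/-! Three counting bounds. -/

noncomputable section

namespace Vale.Agent.P111

open Finset Matrix

variable {N : ℕ}

/-- `sum_pow_wt` and `(1 + 1 / N) ^ N ≤ exp 1 ≤ 3` -/
theorem sum_inv_pow_wt (hN : 1 ≤ N) : ∑ v : Fin N → F2, (1 / (N : ℝ)) ^ wt v ≤ 3 := by
  rw [sum_pow_wt, Fintype.card_fin]
  have hN' : (0 : ℝ) < N := by exact_mod_cast hN
  have h1 : (1 + 1 / (N : ℝ)) ^ N ≤ Real.exp (1 / N) ^ N :=
    pow_le_pow_left₀ (by positivity) (by linarith [Real.add_one_le_exp (1 / (N : ℝ))]) N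
  rw [← Real.exp_nat_mul, mul_one_div_cancel hN'.ne'] at h1
  linarith [Real.exp_one_lt_d9]

/-- each term is at most `N ^ a * (1 / N) ^ wt v` -/
theorem card_small (hN : 1 ≤ N) (a : ℕ) :
    ∑ v : Fin N → F2, (if wt v < a then (1 : ℝ) else 0) ≤ 3 * (N : ℝ) ^ a := by
  have hN' : (1 : ℝ) ≤ N := by exact_mod_cast hN
  calc _ ≤ ∑ v : Fin N → F2, (1 / (N : ℝ)) ^ wt v * (N : ℝ) ^ a := by
        refine sum_le_sum fun v _ => ?_
        split_ifs with h
        · rw [one_div, inv_pow, ← div_eq_inv_mul, one_le_div (by positivity)]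
          exact pow_le_pow_right₀ hN' h.le
        · positivity
    _ ≤ _ := by
        rw [← sum_mul]
        exact mul_le_mul_of_nonneg_right (sum_inv_pow_wt hN) (by positivity)

/-- for `k, l ≥ a`: `(ρ ^ (k l)) ^ 2 ≤ ρ ^ (a (k + l)) ≤ ((1 / N) ^ (k + l)) ^ 2` -/
theorem tail_sum (hN : 1 ≤ N) {a : ℕ} {ρ : ℝ} (h0 : 0 ≤ ρ) (h1 : ρ ≤ 1)
    (h : ρ ^ a ≤ 1 / (N : ℝ) ^ 2) :
    ∑ κ : Fin N → F2, ∑ z : Fin N → F2,
      (if a ≤ wt κ ∧ a ≤ wt z then ρ ^ (wt κ * wt z) else 0) ≤ 9 := by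
  calc _ ≤ ∑ κ : Fin N → F2, ∑ z : Fin N → F2, (1 / (N : ℝ)) ^ wt κ * (1 / (N : ℝ)) ^ wt z := by
        refine sum_le_sum fun κ _ => sum_le_sum fun z _ => ?_
        split_ifs with hh
        · refine (pow_le_pow_iff_left₀ (by positivity) (by positivity) two_ne_zero).1 ?_
          have e : a * (wt κ + wt z) ≤ wt κ * wt z * 2 := by nlinarith [hh.1, hh.2]
          calc (ρ ^ (wt κ * wt z)) ^ 2 ≤ (ρ ^ a) ^ (wt κ + wt z) := by
                rw [← pow_mul, ← pow_mul]; exact pow_le_pow_of_le_one h0 h1 e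
            _ ≤ (1 / (N : ℝ) ^ 2) ^ (wt κ + wt z) := pow_le_pow_left₀ (by positivity) h _
            _ = _ := by rw [← pow_add, ← pow_mul, mul_comm, pow_mul, div_pow 1 _ 2, one_pow]
        · positivity
    _ ≤ _ := by
        rw [← sum_mul_sum]
        have := sum_inv_pow_wt hN
        have h2 : 0 ≤ ∑ v : Fin N → F2, (1 / (N : ℝ)) ^ wt v := by positivity
        nlinarith

end Vale.Agent.P111
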