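import Vale.Agent.P111.Rank
import Vale.Agent.P111.Tail

/-! The biased test measure filtered along the rows. -/

noncomputable section

namespace Vale.Agent.P111

open Finset Matrix

variable {N : ℕ}

/-- the rows with index below `t` are zero or equal to the sum of all rows -/
def gd (t : ℕ) (S : Mx N) : ℝ := ∏ i : Fin N, if (i : ℕ) < t then 1 - bad i S else 1

theorem gd_tele (S : Mx N) : 1 = gd N S + ∑ i : Fin N, gd i S * bad i S := by
  have h := Finset.prod_one_sub_ordered (univ : Finset (Fin N)) fun i => bad i S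
  simp only [prod_filter, Fin.lt_def, mul_comm (bad _ S)] at h
  simp only [gd, Fin.is_lt, if_true]
  rw [h, sub_add_cancel]

/-- A matrix with `gd N S ≠ 0` is a rectangle. -/
theorem gd_rect {S : Mx N} (h : gd N S ≠ 0) (ho : one N ⬝ᵥ S *ᵥ one N = 1) :
    S = vecMulVec (rI S) (cJ S) := by
  ext i j
  have hi := prod_ne_zero_iff.1 h i (mem_univ i)
  rw [if_pos i.2, bad] at hi
  rw [dotProduct_mulVec] at ho
  change S i j = (S i ⬝ᵥ one N) * cJ S j
  split_ifs at hi with h'
  · rcases h' with h' | h' <;> rw [h']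
    · simp
    · exact ((congrArg (· * cJ S j) ho).trans (one_mul _)).symm
  · exact absurd (sub_self _) hi

theorem bw_rect (ρ : ℝ) (κ z : Fin N → F2) :
    bw ρ (fun _ => True) (vecMulVec κ z) = ρ ^ (wt κ * wt z) := by
  rw [mul_comm, pow_mul, pow_wt]
  refine prod_congr rfl fun i _ => ?_
  rw [if_pos trivial, show vecMulVec κ z i = κ i • z from rfl]
  rcases f2_cases (κ i) with h | h <;> rw [h]
  · rw [zero_smul, wt_eq_zero.2 rfl, pow_zero, if_pos rfl]
  · rw [one_smul, if_neg one_ne_zero]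

/-- the rows below `t` are the multiples `κ i` of the sum of all rows, and `κ` vanishes above -/
def teleC (t : ℕ) (κ : Fin N → F2) (S : Mx N) : ℝ :=
  ∏ i : Fin N, if (i : ℕ) < t then (if S i = κ i • cJ S then 1 else 0)
    else if κ i = 0 then 1 else 0

theorem tele_rep (t : ℕ) (κ : Fin N → F2) : Rep (teleC t κ) 1 := by
  refine (Rep.prod univ (K := fun _ => 1) fun i _ => ?_).mono (by simp)
  by_cases h : (i : ℕ) < t
  · refine (rep_vecMul (Pi.single i 1 - κ i • one N) 0).congr fun S => ?_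
    rw [if_pos h, sub_vecMul, smul_vecMul, single_one_vecMul]
    exact if_congr sub_eq_zero rfl rfl
  · simp only [if_neg h]
    refine (rep_const _).mono ?_
    split_ifs <;> simp

theorem tele_sum (t : ℕ) {S : Mx N} (h : cJ S ≠ 0) : ∑ κ, teleC t κ S = gd t S := by
  have e := Finset.prod_univ_sum (fun _ : Fin N => (univ : Finset F2)) fun i x =>
    if (i : ℕ) < t then (if S i = x • cJ S then (1 : ℝ) else 0) else if x = 0 then 1 else 0
  rw [Fintype.piFinset_univ] at e
  refine e.symm.trans (prod_congr rfl fun i _ => ?_)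
  rw [show (univ : Finset F2) = {0, 1} by decide, sum_pair zero_ne_one, zero_smul, one_smul, bad]
  by_cases h0 : (i : ℕ) < t
  · by_cases h1 : S i = 0
    · simp [h0, h1, h.symm]
    · by_cases h2 : S i = cJ S <;> simp [h0, h1, h2, h]
  · simp [h0]

theorem tele_bw (ρ : ℝ) (t : ℕ) (κ : Fin N → F2) (S : Mx N) :
    ρ ^ (wt κ * wt (cJ S)) * (bw ρ (fun i : Fin N => t ≤ i) S * teleC t κ S) =
      bw ρ (fun _ => True) S * teleC t κ S := by
  rw [← bw_rect]
  simp only [bw, teleC, ← prod_mul_distrib, if_true]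
  refine prod_congr rfl fun i _ => ?_
  rw [show vecMulVec κ (cJ S) i = κ i • cJ S from rfl]
  by_cases h0 : (i : ℕ) < t
  · by_cases h1 : S i = κ i • cJ S
    · rw [if_neg h0.not_ge, one_mul, ← h1]
    · simp [h0, h1]
  · by_cases h1 : κ i = 0
    · rw [if_pos (not_lt.1 h0), h1, zero_smul, wt_eq_zero.2 rfl, pow_zero, one_mul]
    · simp [h0, h1]

/-- Sum over the vectors `κ` supported below `t`, the set of rows equal to `cJ S`. -/
theorem rep_gd (hN : 1 ≤ N) {a : ℕ} (ha : 1 ≤ a) {ρ : ℝ} (h0 : 0 ≤ ρ) (h1 : ρ ≤ 1)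
    (h : ρ ^ a ≤ 1 / (N : ℝ) ^ 2) (t : ℕ) : ∃ ν : Mx N → ℝ, Rep ν (12 * (N : ℝ) ^ a) ∧
      ∀ S, a ≤ wt (cJ S) → ν S = bw ρ (fun _ => True) S * gd t S := by
  have hρ : |ρ| ≤ 1 := by rwa [abs_of_nonneg h0]
  have r1 := Rep.sum univ fun (κ : Fin N → F2) _ =>
    ((rep_bw hρ fun _ => True).mul (tele_rep t κ)).smul (if wt κ < a then (1 : ℝ) else 0)
  have r2 := Rep.sum univ fun (κ : Fin N → F2) _ => Rep.sum univ fun (z : Fin N → F2) _ =>
    (((rep_bw hρ fun i : Fin N => t ≤ i).mul (tele_rep t κ)).mul (rep_vecMul (one N) z)).smul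
      (if a ≤ wt κ ∧ a ≤ wt z then ρ ^ (wt κ * wt z) else 0)
  refine ⟨_, (r1.add r2).mono ?_, fun S hS => ?_⟩
  · have e1 := card_small hN a
    have e2 := tail_sum hN h0 h1 h
    have e3 : (1 : ℝ) ≤ (N : ℝ) ^ a := one_le_pow₀ (by exact_mod_cast hN)
    simp only [mul_one, apply_ite abs, abs_one, abs_zero, abs_pow, abs_of_nonneg h0]
    linarith
  · have hc : cJ S ≠ 0 := fun e => by rw [wt_eq_zero.2 e] at hS; omega
    rw [← tele_sum t hc, mul_sum, ← sum_add_distrib]
    refine sum_congr rfl fun κ _ => ?_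
    rw [Fintype.sum_eq_single (cJ S) fun z hz => by
      rw [if_neg (c := one N ᵥ* S = z) hz.symm, mul_zero, mul_zero],
      if_pos (c := one N ᵥ* S = cJ S) rfl, mul_one]
    by_cases hκ : wt κ < a
    · rw [if_pos hκ, if_neg fun h => hκ.not_ge h.1, one_mul, zero_mul, add_zero]
    · rw [if_neg hκ, if_pos ⟨not_lt.1 hκ, hS⟩, tele_bw, zero_mul, zero_add]

end Vale.Agent.P111
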