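import Vale.Agent.P111.CoreD
import Vale.Agent.P111.Tele
import Vale.Agent.P111.RankC

/-! The scalar inequality behind the two sided gate. -/

noncomputable section

namespace Vale.Agent.P111

open Finset Matrix

section

variable {N : ℕ}

theorem core_bad (i i' j : Fin N) : bad i (Matrix.single i' j (1 : F2)) = 0 := by
  refine if_pos ?_
  by_cases h : i' = i
  · right
    funext k
    simp [cJ, one, vecMul, dotProduct, Matrix.single_apply, h, ite_and]
  · left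
    funext k
    simp [h]

theorem core_gd (t : ℕ) (i j : Fin N) : gd t (Matrix.single i j (1 : F2)) = 1 := by
  simp [gd, core_bad]

theorem core_abs_gd (t : ℕ) (S : Mx N) : |gd t S| ≤ 1 := by
  rw [gd, abs_prod]
  refine prod_le_one (fun _ _ => abs_nonneg _) fun i _ => ?_
  unfold bad
  split_ifs <;> simp

theorem core_ne {v : Fin N → F2} (h : 1 ≤ wt v) : v ≠ 0 := fun h0 => by
  rw [wt_eq_zero.2 h0] at h
  omega

theorem core_inj (p q : Fin N × Fin N)
    (h : Matrix.single p.1 p.2 (1 : F2) = Matrix.single q.1 q.2 1) : p = q := by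
  have h1 := congrFun (congrFun h p.1) p.2
  by_contra hne
  rw [Matrix.single_apply_same, Matrix.single_apply_of_ne _ _ _ _ _
    fun h2 => hne (Prod.ext h2.1.symm h2.2.symm)] at h1
  exact one_ne_zero h1

theorem core_delta {R : ℕ} {δ : ℝ} {D : Mx N → ℝ} (h : Tst R δ D) : 0 ≤ δ :=
  (abs_nonneg _).trans (h 0 0 0)

theorem core_rect {a R : ℕ} (ha : 2 ≤ a) (hN : 1 ≤ N) {D : Mx N → ℝ} {ρ τ d : ℝ} (h0 : 0 ≤ ρ)
    (h1 : ρ ≤ 1) (h2 : ρ ^ a ≤ 1 / (N : ℝ) ^ 2) (hd : ∀ n, |D n| ≤ d)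
    (hs : ∀ i j, hat D (Matrix.single i j 1) = -τ)
    (hS : ∀ S, hat D S ≠ 0 → one N ⬝ᵥ S *ᵥ one N = 1 ∧
      ((∃ i j, S = Matrix.single i j 1) ∨ (a ≤ wt (rI S) ∧ a ≤ wt (cJ S)))) :
    |∑ S, bw ρ (fun _ => True) S * QQ R (yy S) * hat D S * gd N S -
      (N : ℝ) ^ 2 * (ρ * QQ R (1 / 2) * -τ)| ≤ 9 * (QG R * d) := by
  classical
  have hG : 0 ≤ QG R * d :=
    mul_nonneg (zero_le_one.trans (QG_ge R)) ((abs_nonneg _).trans (hd 0))
  set f : Mx N → ℝ := fun S => bw ρ (fun _ => True) S * QQ R (yy S) * hat D S * gd N S with hf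
  set F : (Fin N → F2) → (Fin N → F2) → ℝ := fun κ z =>
    if a ≤ wt κ ∧ a ≤ wt z then ρ ^ (wt κ * wt z) else 0 with hF
  have F0 : ∀ κ z, 0 ≤ F κ z := fun κ z => by
    simp only [hF]
    split_ifs <;> positivity
  set A := univ.image fun p : Fin N × Fin N => Matrix.single p.1 p.2 (1 : F2) with hA
  have e1 : ∑ S ∈ A, f S = (N : ℝ) ^ 2 * (ρ * QQ R (1 / 2) * -τ) := by
    rw [hA, sum_image fun p _ q _ => core_inj p q]
    have : ∀ p : Fin N × Fin N, f (Matrix.single p.1 p.2 1) = ρ * QQ R (1 / 2) * -τ := fun p => by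
      simp only [hf, hs, core_gd, mul_one]
      rw [Matrix.single_eq_single_vecMulVec_single, bw_rect, wt_single, wt_single,
        yy_rect (core_ne (wt_single _).ge) (core_ne (wt_single _).ge)]
      simp
    simp only [this, sum_const, card_univ, Fintype.card_prod, Fintype.card_fin, nsmul_eq_mul]
    push_cast
    ring
  have e2 : ∀ S, S ∉ A → |f S| ≤
      ∑ κ, ∑ z, if S = vecMulVec κ z then F κ z * (QG R * d) else 0 := by
    intro S hSA
    have n0 : ∀ κ z, 0 ≤ if S = vecMulVec κ z then F κ z * (QG R * d) else 0 := fun κ z => by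
      split_ifs
      · exact mul_nonneg (F0 κ z) hG
      · exact le_rfl
    by_cases h3 : f S = 0
    · rw [h3, abs_zero]
      exact sum_nonneg fun κ _ => sum_nonneg fun z _ => n0 κ z
    have h4 := hS S (right_ne_zero_of_mul (left_ne_zero_of_mul h3))
    have h5 := gd_rect (right_ne_zero_of_mul h3) h4.1
    have h6 := h4.2.resolve_left fun ⟨i, j, h⟩ =>
      hSA (mem_image.2 ⟨(i, j), mem_univ _, h.symm⟩)
    refine le_trans ?_ ((single_le_sum (fun z _ => n0 (rI S) z) (mem_univ (cJ S))).trans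
      (single_le_sum (f := fun κ => ∑ z, if S = vecMulVec κ z then F κ z * (QG R * d) else 0)
        (fun κ _ => sum_nonneg fun z _ => n0 κ z) (mem_univ (rI S))))
    rw [if_pos h5]
    have h7 : bw ρ (fun _ => True) S = ρ ^ (wt (rI S) * wt (cJ S)) := by
      conv_lhs => rw [h5]
      exact bw_rect _ _ _
    have h8 : yy S = 1 / 2 := by
      conv_lhs => rw [h5]
      exact yy_rect (core_ne (by omega)) (core_ne (by omega))
    simp only [hf, hF, if_pos h6, h7, h8, abs_mul]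
    rw [abs_of_nonneg (pow_nonneg h0 _), mul_assoc, mul_assoc]
    refine mul_le_mul_of_nonneg_left ?_ (pow_nonneg h0 _)
    exact mul_le_mul (QQ_half R).2
      ((mul_le_of_le_one_right (abs_nonneg _) (core_abs_gd _ _)).trans (abs_hat_le hd S))
      (by positivity) (zero_le_one.trans (QG_ge R))
  rw [← sum_add_sum_compl A f, e1, add_sub_cancel_left]
  refine (abs_sum_le_sum_abs _ _).trans ((sum_le_sum fun S hS' => e2 S (mem_compl.1 hS')).trans
    ((sum_le_sum_of_subset_of_nonneg (subset_univ _) fun S _ _ => sum_nonneg fun κ _ =>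
      sum_nonneg fun z _ => ?_).trans ?_))
  · split_ifs
    · exact mul_nonneg (F0 κ z) hG
    · exact le_rfl
  · rw [sum_comm]
    simp only [sum_comm (s := (univ : Finset (Mx N))), sum_ite_eq', mem_univ, if_true, ← sum_mul]
    exact mul_le_mul_of_nonneg_right (tail_sum hN h0 h1 h2) hG

end

/-- Put `T = act (bw ρ ⊤ * QQ R yy) D 0`, so `|T| ≤ QG R * d`. Split with `gd_tele`. The part
`gd i * bad i` equals `act ν (act (bad i * QQ R yy) D) 0` with `ν` from `rep_gd` (single entries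
have `bad = 0`), bounded by `Good.bound`. The part `gd N` consists of rectangles: single entries
give `QQ R (1 / 2) * ρ * (-τ) * N ^ 2`, the others are bounded by `tail_sum`. -/
theorem core_T {a R : ℕ} (ha : 2 ≤ a) (hR : 2 ≤ R) : ∃ K : ℝ, 0 < K ∧
    ∀ (N : ℕ) (D : Mx N → ℝ) (ρ τ d δ : ℝ), 1 ≤ N → 0 ≤ ρ → ρ ≤ 1 → ρ ^ a ≤ 1 / (N : ℝ) ^ 2 →
      (∀ n, |D n| ≤ d) → Tst R δ D → (∀ i j, hat D (Matrix.single i j 1) = -τ) →
      (∀ S, hat D S ≠ 0 → one N ⬝ᵥ S *ᵥ one N = 1 ∧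
        ((∃ i j, S = Matrix.single i j 1) ∨ (a ≤ wt (rI S) ∧ a ≤ wt (cJ S)))) →
      |τ| * ρ * (N : ℝ) ^ 2 ≤ K * d + K * (N : ℝ) ^ (a + 1) * δ := by
  have hG : 0 < 8 * ∏ j ∈ Ico 2 R, (2 * (4 : ℝ) ^ j) := by positivity
  have hgb := fun N (i : Fin N) => good_bad hR i
  generalize 8 * ∏ j ∈ Ico 2 R, (2 * (4 : ℝ) ^ j) = G at hG hgb
  have hQ := QG_ge R
  refine ⟨10 * QG R + 12 * G, by positivity, fun N D ρ τ d δ hN h0 h1 h2 hd hT hs hS => ?_⟩
  have d0 : 0 ≤ d := (abs_nonneg _).trans (hd 0)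
  have δ0 := core_delta hT
  have b1 := ((rep_bw (N := N) (abs_le.2 ⟨by linarith, h1⟩) fun _ => True).mul
    (rep_QQ R)).bound hd 0
  have b2 := core_rect (R := R) ha hN h0 h1 h2 hd hs hS
  have b3 : ∀ i : Fin N, |∑ S, bw ρ (fun _ => True) S * QQ R (yy S) * hat D S *
      (gd i S * bad i S)| ≤ 12 * (N : ℝ) ^ a * (G * δ) := fun i => by
    obtain ⟨ν, hν, hν'⟩ := rep_gd hN (by omega : 1 ≤ a) h0 h1 h2 i
    refine le_trans (le_of_eq ?_) (hν.bound ((hgb N i).bound hT fun S h => (hS S h).1) 0)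
    rw [act]
    congr 1
    refine sum_congr rfl fun S _ => ?_
    rw [hat_act, ch_zero]
    by_cases h : hat D S = 0
    · simp [h]
    · rcases (hS S h).2 with ⟨i', j, rfl⟩ | h'
      · simp [core_bad]
      · rw [hν' S h'.2]
        ring
  have e : act (fun S => bw ρ (fun _ => True) S * QQ R (yy S)) D 0 =
      ∑ S, bw ρ (fun _ => True) S * QQ R (yy S) * hat D S * gd N S +
        ∑ i : Fin N, ∑ S, bw ρ (fun _ => True) S * QQ R (yy S) * hat D S *
          (gd i S * bad i S) := by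
    rw [act, sum_comm, ← sum_add_distrib]
    refine sum_congr rfl fun S _ => ?_
    rw [ch_zero, ← mul_sum, ← mul_add, ← gd_tele]
  have b4 := (abs_sum_le_sum_abs _ _).trans (sum_le_sum fun i (_ : i ∈ univ) => b3 i)
  rw [sum_const, card_univ, Fintype.card_fin, nsmul_eq_mul] at b4
  rw [e] at b1
  have b5 : |τ| * ρ * (N : ℝ) ^ 2 ≤ |(N : ℝ) ^ 2 * (ρ * QQ R (1 / 2) * -τ)| := by
    rw [abs_mul, abs_mul, abs_mul, abs_neg, abs_of_nonneg h0, abs_of_nonneg (sq_nonneg (N : ℝ))]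
    have := mul_le_mul_of_nonneg_left (QQ_half R).1
      (by positivity : 0 ≤ |τ| * ρ * (N : ℝ) ^ 2)
    linarith
  have b6 : |(N : ℝ) ^ 2 * (ρ * QQ R (1 / 2) * -τ)| ≤
      10 * (QG R * d) + N * (12 * (N : ℝ) ^ a * (G * δ)) := by
    rw [abs_le] at b1 b2 b4 ⊢
    constructor <;> linarith
  have p1 : 0 ≤ G * d := by positivity
  have p2 : 0 ≤ QG R * (N : ℝ) ^ (a + 1) * δ := by positivity
  rw [pow_succ _ a] at p2 ⊢
  linarith

theorem core {a R : ℕ} (ha : 2 ≤ a) (hR : 2 ≤ R) : ∃ K : ℝ, 0 < K ∧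
    ∀ (N : ℕ) (B : Mx N → ℝ) (ρ τ b0 b1 δ : ℝ), 1 ≤ N → 0 ≤ ρ → ρ ≤ 1 →
      ρ ^ a ≤ 1 / (N : ℝ) ^ 2 → (∀ n, |B n| ≤ b0) → (∀ i n, |rowP i B n| ≤ b1) →
      (∀ j n, |colP j B n| ≤ b1) → (∀ i j n, rowP i (colP j B) n = τ * sg (n i j)) →
      Tst R δ B → |τ| * ρ * (N : ℝ) ^ 2 ≤ K * (b0 + N * b1) + K * (N : ℝ) ^ (a + 2) * δ := by
  obtain ⟨K, hK, h⟩ := core_T ha hR
  have hg := kilG_ge a
  refine ⟨K * (kilG a ^ 2 + 2 * kilG a), by positivity,
    fun N B ρ τ b0 b1 δ hN h0 h1 h2 c0 c1 c2 c3 hT => ?_⟩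
  obtain ⟨D, d1, d2, d3, d4⟩ := core_D ha c0 c1 c2 c3 hT
  have n1 : (1 : ℝ) ≤ N := by exact_mod_cast hN
  have p0 : 0 ≤ b0 := (abs_nonneg _).trans (c0 0)
  have p1 : 0 ≤ b1 := (abs_nonneg _).trans (c1 ⟨0, hN⟩ 0)
  have p2 := core_delta hT
  refine (h N D ρ τ _ _ hN h0 h1 h2 d1 d2 d3 d4).trans ?_
  have q1 : 0 ≤ K * kilG a * b0 := by positivity
  have q2 : 0 ≤ K * kilG a ^ 2 * (N * b1) := by positivity
  have q3 := mul_le_mul_of_nonneg_left n1
    (by positivity : 0 ≤ K * (N : ℝ) ^ (a + 1) * kilG a ^ 2 * δ)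
  rw [pow_succ _ (a + 1)]
  linarith

end Vale.Agent.P111
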