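import Vale.Agent.P111.Rank

/-! Removal of rows and columns. -/

noncomputable section

namespace Vale.Agent.P111

open Finset Matrix

/-- the multiplier that keeps single entries (with a minus sign) and the matrices with many odd
rows and many odd columns -/
def psi (a : ℕ) {N : ℕ} (S : Mx N) : ℝ :=
  kil a (wt (rI S)) * kil a (wt (cJ S)) -
    kil a (wt (cJ S)) * (∑ i, if rI S = Pi.single i 1 then 1 else 0) -
    kil a (wt (rI S)) * (∑ j, if cJ S = Pi.single j 1 then 1 else 0)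

theorem cored_sum {N : ℕ} (v : Fin N → F2) :
    (∑ i, if v = Pi.single i 1 then (1 : ℝ) else 0) = if wt v = 1 then 1 else 0 := by
  split_ifs with h
  · obtain ⟨i, rfl⟩ := wt_eq_one h
    rw [sum_eq_single i (fun j _ hj => if_neg fun e => ?_) fun hi => (hi (mem_univ _)).elim,
      if_pos rfl]
    simpa [hj] using congrFun e j
  · exact sum_eq_zero fun i _ => if_neg fun e : v = Pi.single i 1 => h (by rw [e, wt_single])

theorem cored_rI {N : ℕ} (i j : Fin N) : rI (Matrix.single i j 1) = Pi.single i 1 := by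
  funext k
  simp [rI, one, mulVec, dotProduct, Matrix.single_apply, Pi.single_apply, ite_and, eq_comm]

theorem cored_cJ {N : ℕ} (i j : Fin N) : cJ (Matrix.single i j 1) = Pi.single j 1 := by
  funext k
  simp [cJ, one, vecMul, dotProduct, Matrix.single_apply, Pi.single_apply, ite_and, eq_comm]

theorem cored_ch {N : ℕ} (i j : Fin N) (n : Mx N) : ch (Matrix.single i j 1) n = sg (n i j) := by
  simp [ch, ip, Matrix.single_apply, ite_and]

theorem cored_hat {N : ℕ} {B : Mx N → ℝ} {τ : ℝ}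
    (h3 : ∀ i j n, rowP i (colP j B) n = τ * sg (n i j)) {i j : Fin N} {S : Mx N}
    (hi : rI S = Pi.single i 1) (hj : cJ S = Pi.single j 1) :
    hat B S = τ * if S = Matrix.single i j 1 then 1 else 0 := by
  have h : hat (rowP i (colP j B)) S = hat B S := by
    rw [rowP_eq, colP_eq, hat_act, hat_act, if_pos hi, if_pos hj, one_mul, one_mul]
  rw [← h, ← av_ch_mul, ← av_mul_left, hat]
  exact av_congr fun n => by rw [h3, cored_ch, mul_left_comm]

theorem cored_act (a : ℕ) {N : ℕ} (B : Mx N → ℝ) (n : Mx N) :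
    act (psi a) B n = act (fun S => kil a (wt (rI S)) * kil a (wt (cJ S))) B n -
      ∑ i, act (fun S => kil a (wt (cJ S))) (rowP i B) n -
      ∑ j, act (fun S => kil a (wt (rI S))) (colP j B) n := by
  simp only [rowP_eq, colP_eq, act_act]
  simp only [act]
  rw [sum_comm, sum_comm (s := (univ : Finset (Fin N))), ← sum_sub_distrib, ← sum_sub_distrib]
  refine sum_congr rfl fun S _ => ?_
  simp only [psi, sub_mul, mul_sum, sum_mul]

theorem cored_rep (a N : ℕ) : Rep (psi a : Mx N → ℝ) (kilG a ^ 2 + 2 * N * kilG a) := by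
  refine ((((rep_kil_rI a).mul (rep_kil_cJ a)).sub ((rep_kil_cJ a).mul (Rep.sum univ
    fun i _ => rep_mulVec (one N) (Pi.single i 1)))).sub ((rep_kil_rI a).mul (Rep.sum univ
    fun j _ => rep_vecMul (one N) (Pi.single j 1)))).mono (le_of_eq ?_)
  simp only [sum_const, card_univ, Fintype.card_fin, nsmul_eq_mul]
  ring

/-- `D = act (psi a) B`: bounds by `rep_kil_rI`, `rowP_eq`, `act_act`, `Rep.bound`, `Tst.act`.
If `rI S = Pi.single i 1` and `cJ S = Pi.single j 1` then `hat B S = hat (rowP i (colP j B)) S`,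
which is `τ` for `S = Matrix.single i j 1` and `0` otherwise (`av_ch_mul`). -/
theorem core_D {a R N : ℕ} (ha : 2 ≤ a) {B : Mx N → ℝ} {τ b0 b1 δ : ℝ} (h0 : ∀ n, |B n| ≤ b0)
    (h1 : ∀ i n, |rowP i B n| ≤ b1) (h2 : ∀ j n, |colP j B n| ≤ b1)
    (h3 : ∀ i j n, rowP i (colP j B) n = τ * sg (n i j)) (hT : Tst R δ B) :
    ∃ D : Mx N → ℝ, (∀ n, |D n| ≤ kilG a ^ 2 * b0 + 2 * N * kilG a * b1) ∧
      Tst R ((kilG a ^ 2 + 2 * N * kilG a) * δ) D ∧
      (∀ i j, hat D (Matrix.single i j 1) = -τ) ∧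
      ∀ S, hat D S ≠ 0 → one N ⬝ᵥ S *ᵥ one N = 1 ∧
        ((∃ i j, S = Matrix.single i j 1) ∨ (a ≤ wt (rI S) ∧ a ≤ wt (cJ S))) := by
  refine ⟨act (psi a) B, fun n => ?_, hT.act (cored_rep a N), fun i j => ?_, fun S hS => ?_⟩
  · have k0 := ((rep_kil_rI a).mul (rep_kil_cJ a)).bound h0 n
    have k1 := (abs_sum_le_sum_abs _ _).trans
      (sum_le_sum fun i (_ : i ∈ univ) => (rep_kil_cJ a).bound (h1 i) n)
    have k2 := (abs_sum_le_sum_abs _ _).trans
      (sum_le_sum fun j (_ : j ∈ univ) => (rep_kil_rI a).bound (h2 j) n)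
    simp only [sum_const, card_univ, Fintype.card_fin, nsmul_eq_mul] at k1 k2
    rw [abs_le] at k0 k1 k2
    rw [cored_act, abs_le]
    constructor <;> linarith [k0.1, k0.2, k1.1, k1.2, k2.1, k2.2]
  · rw [hat_act, cored_hat h3 (cored_rI i j) (cored_cJ i j), psi, cored_sum, cored_sum, cored_rI,
      cored_cJ, wt_single, wt_single, kil_one, if_pos rfl, if_pos rfl]
    ring
  · rw [hat_act, mul_ne_zero_iff, psi, cored_sum, cored_sum] at hS
    by_cases hr : wt (rI S) = 1 <;> by_cases hc : wt (cJ S) = 1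
    · obtain ⟨i, hi⟩ := wt_eq_one hr
      obtain ⟨j, hj⟩ := wt_eq_one hc
      refine ⟨(odd_rI_iff S).1 (hr ▸ odd_one), Or.inl ⟨i, j, ?_⟩⟩
      by_contra h
      exact hS.2 (by rw [cored_hat h3 hi hj, if_neg h, mul_zero])
    · exact (hS.1 (by rw [if_pos hr, if_neg hc, hr, kil_one]; ring)).elim
    · exact (hS.1 (by rw [if_neg hr, if_pos hc, hc, kil_one]; ring)).elim
    · rw [if_neg hr, if_neg hc, mul_zero, mul_zero, sub_zero, sub_zero, mul_ne_zero_iff] at hS
      exact ⟨(odd_rI_iff S).1 (kil_ne_zero hS.1.1).1, Or.inr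
        ⟨(kil_ne_zero hS.1.1).2.resolve_left hr, (kil_ne_zero hS.1.2).2.resolve_left hc⟩⟩

end Vale.Agent.P111
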