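import Vale.Agent.P111.Basic

/-! Walsh multipliers on vector valued functions on the discrete cube. -/

noncomputable section

namespace Vale.Agent.P111

open Finset Matrix MeasureTheory

abbrev LZ (n : ℕ) (X : Type*) := PiLp 2 fun _ : Fin n → F2 => X

variable {X : Type*} [NormedAddCommGroup X] [NormedSpace ℝ X] {n : ℕ}

/-- translation -/
def shf (X : Type*) [NormedAddCommGroup X] [NormedSpace ℝ X] (c : Fin n → F2) :
    LZ n X →L[ℝ] LZ n X :=
  (LinearIsometryEquiv.piLpCongrLeft 2 ℝ X (Equiv.subRight c)).toContinuousLinearEquiv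

/-- projection on one Walsh character -/
def pS (X : Type*) [NormedAddCommGroup X] [NormedSpace ℝ X] (S : Fin n → F2) :
    LZ n X →L[ℝ] LZ n X := av fun c => sg (S ⬝ᵥ c) • shf X c

/-- the multiplier operator -/
def mo (X : Type*) [NormedAddCommGroup X] [NormedSpace ℝ X] (μ : (Fin n → F2) → ℝ) :
    LZ n X →L[ℝ] LZ n X := ∑ S, μ S • pS X S

/-- the function `μ` of the degree is a bounded multiplier in all dimensions -/
def Mu (X : Type*) [NormedAddCommGroup X] [NormedSpace ℝ X] (μ : ℕ → ℝ) (K : ℝ) : Prop :=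
  ∀ n : ℕ, ‖mo X fun S : Fin n → F2 => μ (wt S)‖ ≤ K

/-- complex multipliers -/
def CMu (X : Type*) [NormedAddCommGroup X] [NormedSpace ℝ X] (μ : ℕ → ℂ) (K : ℝ) : Prop :=
  Mu X (fun k => (μ k).re) K ∧ Mu X (fun k => (μ k).im) K

theorem shf_apply (c : Fin n → F2) (f : LZ n X) (w : Fin n → F2) : shf X c f w = f (w + c) := by
  rfl

theorem norm_shf (c : Fin n → F2) : ‖shf X c‖ ≤ 1 := by
  refine ContinuousLinearMap.opNorm_le_bound _ zero_le_one fun f => ?_
  rw [one_mul]
  exact ((LinearIsometryEquiv.piLpCongrLeft 2 ℝ X (Equiv.subRight c)).norm_map f).le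

theorem cube_av_apply {Ω : Type*} [Fintype Ω] (T : Ω → LZ n X →L[ℝ] LZ n X) (f : LZ n X)
    (w : Fin n → F2) : (av T) f w = av fun c => T c f w := by
  simp [av, Finset.sum_apply]

theorem cube_add_self (v : Fin n → F2) : v + v = 0 := funext fun i => f2_add_self (v i)

theorem cube_add_eq_zero {v w : Fin n → F2} : v + w = 0 ↔ v = w := by
  constructor
  · intro h
    have := congrArg (· + w) h
    simpa [add_assoc, cube_add_self] using this
  · rintro rfl; exact cube_add_self v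

theorem pS_apply (S : Fin n → F2) (f : LZ n X) (w : Fin n → F2) :
    pS X S f w = sg (S ⬝ᵥ w) • av fun η => sg (S ⬝ᵥ η) • f η := by
  rw [pS, cube_av_apply, ← av_smul, ← av_shift w]
  refine av_congr fun c => ?_
  have h1 : (sg (S ⬝ᵥ (c + w)) • shf X (c + w)) f w = sg (S ⬝ᵥ (c + w)) • f (w + (c + w)) := rfl
  rw [h1, dotProduct_add, sg_add, smul_smul, mul_comm, add_left_comm, cube_add_self, add_zero]

theorem cube_mo_apply (μ : (Fin n → F2) → ℝ) (f : LZ n X) (w : Fin n → F2) :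
    mo X μ f w = ∑ S, μ S • pS X S f w := by
  simp [mo, Finset.sum_apply]

theorem cube_pS_mul (S T : Fin n → F2) (f : LZ n X) (w : Fin n → F2) :
    pS X S (pS X T f) w = if S = T then pS X S f w else 0 := by
  rw [pS_apply]
  simp only [pS_apply T, smul_smul, av_smul_const, ← sg_add, ← add_dotProduct]
  have h2 : (av fun η : Fin n → F2 => sg ((S + T) ⬝ᵥ η)) = if S + T = 0 then 1 else 0 := by
    rw [← av_sg_dot]; exact av_congr fun η => by rw [dotProduct_comm]
  rw [h2]
  by_cases hST : S = T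
  · subst hST
    simp [cube_add_self, pS_apply]
  · simp [cube_add_eq_zero, hST]

theorem cube_pS_mo (S : Fin n → F2) (ν : (Fin n → F2) → ℝ) (f : LZ n X) (w : Fin n → F2) :
    pS X S (mo X ν f) w = ν S • pS X S f w := by
  have h : pS X S (mo X ν f) w = ∑ T, ν T • pS X S (pS X T f) w := by
    simp [mo, Finset.sum_apply]
  rw [h]
  simp [cube_pS_mul]

theorem mo_mul (μ ν : (Fin n → F2) → ℝ) : mo X (fun S => μ S * ν S) = mo X μ * mo X ν := by
  ext f w
  have h : (mo X μ * mo X ν) f w = mo X μ (mo X ν f) w := rfl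
  rw [h, cube_mo_apply, cube_mo_apply]
  simp only [cube_pS_mo, mul_smul]

theorem mo_sg (c : Fin n → F2) : mo X (fun S => sg (S ⬝ᵥ c)) = shf X c := by
  ext f w
  rw [cube_mo_apply, shf_apply]
  simp only [pS_apply, ← av_smul, smul_smul]
  rw [← av_sum]
  have hc : (Fintype.card (Fin n → F2) : ℝ) ≠ 0 := Nat.cast_ne_zero.2 Fintype.card_ne_zero
  have h1 : ∀ η : Fin n → F2, ∑ S : Fin n → F2,
      (sg (S ⬝ᵥ c) * (sg (S ⬝ᵥ w) * sg (S ⬝ᵥ η))) • f η
      = (if η = w + c then (Fintype.card (Fin n → F2) : ℝ) else 0) • f (w + c) := by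
    intro η
    rw [← sum_smul]
    have h2 := av_sg_dot (c + (w + η))
    simp only [av, smul_eq_mul, dotProduct_add, sg_add] at h2
    have h3 : c + (w + η) = 0 ↔ η = w + c := by
      rw [← add_assoc, cube_add_eq_zero, add_comm, eq_comm]
    rw [inv_mul_eq_iff_eq_mul₀ hc] at h2
    rw [h2]
    by_cases h : η = w + c
    · rw [if_pos (h3.2 h), if_pos h, mul_one, h]
    · simp [h3, h]
  simp only [h1]
  rw [av_smul_const, av_ite_eq, inv_mul_cancel₀ hc, one_smul]

theorem mo_one : mo X (fun _ : Fin n → F2 => 1) = 1 := by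
  have h := mo_sg (X := X) (0 : Fin n → F2)
  simp only [dotProduct_zero, sg_zero] at h
  rw [h]
  ext f w
  rw [shf_apply, add_zero]; rfl

theorem mo_add (μ ν : (Fin n → F2) → ℝ) : mo X (fun S => μ S + ν S) = mo X μ + mo X ν := by
  ext f w
  have h : (mo X μ + mo X ν) f w = mo X μ f w + mo X ν f w := rfl
  simp only [h, cube_mo_apply, add_smul, sum_add_distrib]

theorem mo_smul (c : ℝ) (μ : (Fin n → F2) → ℝ) : mo X (fun S => c * μ S) = c • mo X μ := by
  simp only [mo, mul_smul, smul_sum]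

theorem mo_sum {ι : Type*} (s : Finset ι) (μ : ι → (Fin n → F2) → ℝ) :
    mo X (fun S => ∑ i ∈ s, μ i S) = ∑ i ∈ s, mo X (μ i) := by
  ext f w
  have h : (∑ i ∈ s, mo X (μ i)) f w = ∑ i ∈ s, mo X (μ i) f w := by
    simp [Finset.sum_apply]
  simp only [h, cube_mo_apply, sum_smul]
  exact sum_comm

theorem norm_mo_prod {ι : Type*} (s : Finset ι) (μ : ι → (Fin n → F2) → ℝ)
    (h : ∀ i ∈ s, ‖mo X (μ i)‖ ≤ 1) : ‖mo X fun S => ∏ i ∈ s, μ i S‖ ≤ 1 := by
  classical
  induction s using Finset.induction_on with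
  | empty =>
    simp only [prod_empty]
    rw [mo_one]
    exact ContinuousLinearMap.norm_id_le
  | insert a s ha ih =>
    simp only [prod_insert ha]
    rw [mo_mul]
    refine (norm_mul_le _ _).trans ?_
    exact mul_le_one₀ (h a (mem_insert_self _ _)) (norm_nonneg _)
      (ih fun i hi => h i (mem_insert_of_mem hi))

/-- `(1 + x) / 2 • 1 + (1 - x) / 2 • shf (Pi.single i 1)` -/
theorem norm_mo_flip (i : Fin n) {x : ℝ} (hx : |x| ≤ 1) :
    ‖mo X fun S : Fin n → F2 => if S i = 0 then 1 else x‖ ≤ 1 := by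
  have h1 : (fun S : Fin n → F2 => if S i = 0 then (1 : ℝ) else x) = fun S =>
      (1 + x) / 2 * sg (S ⬝ᵥ 0) + (1 - x) / 2 * sg (S ⬝ᵥ Pi.single i 1) := by
    funext S
    rcases f2_cases (S i) with h | h <;> simp [h] <;> ring
  rw [h1, mo_add, mo_smul, mo_smul, mo_sg, mo_sg]
  obtain ⟨h2, h3⟩ := abs_le.1 hx
  refine (norm_add_le _ _).trans ?_
  rw [norm_smul, norm_smul, Real.norm_of_nonneg (by linarith), Real.norm_of_nonneg (by linarith)]
  have a1 := norm_shf (X := X) (0 : Fin n → F2)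
  have a2 := norm_shf (X := X) (Pi.single i 1 : Fin n → F2)
  nlinarith

theorem cube_pS_dual (S : Fin n → F2) (f : LZ n X) (g : LZ n (StrongDual ℝ X)) :
    ∑ w, g w (pS X S f w) = ∑ w, pS (StrongDual ℝ X) S g w (f w) := by
  simp only [pS_apply, av, map_smul, map_sum, _root_.smul_apply,
    _root_.sum_apply, smul_eq_mul, mul_sum]
  rw [sum_comm]
  exact sum_congr rfl fun a _ => sum_congr rfl fun b _ => by ring

/-- the multiplier acts symmetrically in the duality between `LZ n X` and `LZ n X*` -/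
theorem mo_dual (μ : (Fin n → F2) → ℝ) (f : LZ n X) (g : LZ n (StrongDual ℝ X)) :
    ∑ w, g w (mo X μ f w) = ∑ w, mo (StrongDual ℝ X) μ g w (f w) := by
  simp only [cube_mo_apply, map_sum, map_smul, _root_.smul_apply,
    _root_.sum_apply]
  rw [sum_comm, sum_comm (f := fun w S => μ S • pS (StrongDual ℝ X) S g w (f w))]
  refine sum_congr rfl fun S _ => ?_
  rw [← smul_sum, ← smul_sum, cube_pS_dual]

/-- norming: `g w = ‖h w‖ • y w` with `exists_dual_vector''` -/
theorem exists_norming (h : LZ n X) :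
    ∃ g : LZ n (StrongDual ℝ X), ‖g‖ ≤ ‖h‖ ∧ ∑ w, g w (h w) = ‖h‖ ^ 2 := by
  choose y hy hy' using fun w => exists_dual_vector'' ℝ (h w)
  refine ⟨WithLp.toLp 2 fun w => ‖h w‖ • y w, ?_, ?_⟩
  · rw [PiLp.norm_eq_of_L2, PiLp.norm_eq_of_L2]
    refine Real.sqrt_le_sqrt (sum_le_sum fun w _ => ?_)
    refine pow_le_pow_left₀ (norm_nonneg _) ?_ 2
    rw [norm_smul, norm_norm]
    exact mul_le_of_le_one_right (norm_nonneg _) (hy w)
  · rw [PiLp.norm_sq_eq_of_L2]
    refine sum_congr rfl fun w _ => ?_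
    have h1 : y w (h w) = ‖h w‖ := hy' w
    simp [h1, sq]

theorem cube_mo_rad (f : LZ n X) (w : Fin n → F2) :
    mo X (fun S : Fin n → F2 => if wt S = 1 then 1 else 0) f w = radProj (fun η => f η) w := by
  rw [cube_mo_apply, radProj]
  simp only [ite_smul, one_smul, zero_smul]
  rw [← sum_filter]
  symm
  refine sum_bij (fun i _ => (Pi.single i 1 : Fin n → F2)) ?_ ?_ ?_ ?_
  · intro i _; simp [wt_single]
  · intro i _ j _ hij
    by_contra hne
    have := congrFun hij i
    simp [Pi.single_eq_of_ne hne] at this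
  · intro S hS
    obtain ⟨i, hi⟩ := wt_eq_one (mem_filter.1 hS).2
    exact ⟨i, mem_univ _, hi.symm⟩
  · intro i _
    simp [pS_apply]

omit [NormedSpace ℝ X] in
theorem cube_sqrt_av (f : LZ n X) :
    √(av fun ε => ‖f ε‖ ^ 2) = √((Fintype.card (Fin n → F2) : ℝ)⁻¹) * ‖f‖ := by
  rw [PiLp.norm_eq_of_L2, ← Real.sqrt_mul (by positivity)]; rfl

theorem kconvex_of_mu {K : ℝ} (h : Mu X (fun k => if k = 1 then 1 else 0) K) : KConvex X := by
  refine ⟨K, fun s f => ?_⟩
  have h1 := cube_sqrt_av (WithLp.toLp 2 f : LZ s X)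
  have h2 := cube_sqrt_av
    (mo X (fun S : Fin s → F2 => if wt S = 1 then 1 else 0) (WithLp.toLp 2 f : LZ s X))
  simp only [cube_mo_rad] at h2
  have h3 := (ContinuousLinearMap.le_opNorm _ (WithLp.toLp 2 f : LZ s X)).trans
    (mul_le_mul_of_nonneg_right (h s) (norm_nonneg _))
  change √(av fun ε => ‖f ε‖ ^ 2) = _ at h1
  change √(av fun ε => ‖radProj f ε‖ ^ 2) = _ at h2
  rw [h1, h2, mul_left_comm]
  exact mul_le_mul_of_nonneg_left h3 (Real.sqrt_nonneg _)

end Vale.Agent.P111
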