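import Vale.Agent.P111.Cube

/-! Calculus of bounded multipliers. -/

noncomputable section

namespace Vale.Agent.P111

open Finset Matrix MeasureTheory

variable {X : Type*} [NormedAddCommGroup X] [NormedSpace ℝ X]

variable {μ ν : ℕ → ℝ} {K K' : ℝ}

theorem Mu.nonneg (h : Mu X μ K) : 0 ≤ K := by
  exact (norm_nonneg _).trans (h 0)

theorem Mu.mono (h : Mu X μ K) (hK : K ≤ K') : Mu X μ K' := by
  exact fun n => (h n).trans hK

theorem Mu.congr (h : Mu X μ K) (e : ∀ k, μ k = ν k) : Mu X ν K := by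
  rw [← funext e]; exact h

theorem Mu.add (h : Mu X μ K) (h' : Mu X ν K') : Mu X (fun k => μ k + ν k) (K + K') := by
  intro n
  rw [mo_add (fun S : Fin n → F2 => μ (wt S)) (fun S => ν (wt S))]
  exact (norm_add_le _ _).trans (add_le_add (h n) (h' n))

theorem Mu.sub (h : Mu X μ K) (h' : Mu X ν K') : Mu X (fun k => μ k - ν k) (K + K') := by
  intro n
  have e : (fun S : Fin n → F2 => μ (wt S) - ν (wt S)) =
      fun S => μ (wt S) + (-1) * ν (wt S) := by
    funext S; ring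
  have h1 := h n
  have h2 := h' n
  show ‖mo X (fun S : Fin n → F2 => μ (wt S) - ν (wt S))‖ ≤ K + K'
  rw [e, mo_add (fun S : Fin n → F2 => μ (wt S)) (fun S => (-1) * ν (wt S)),
    mo_smul (-1) (fun S : Fin n → F2 => ν (wt S))]
  refine (norm_add_le _ _).trans (add_le_add h1 ?_)
  rw [norm_smul, norm_neg, norm_one, one_mul]
  exact h2

theorem Mu.smul (h : Mu X μ K) (c : ℝ) : Mu X (fun k => c * μ k) (|c| * K) := by
  intro n
  rw [mo_smul c (fun S : Fin n → F2 => μ (wt S)), norm_smul, Real.norm_eq_abs]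
  exact mul_le_mul_of_nonneg_left (h n) (abs_nonneg c)

theorem Mu.mul (h : Mu X μ K) (h' : Mu X ν K') : Mu X (fun k => μ k * ν k) (K * K') := by
  intro n
  rw [mo_mul (fun S : Fin n → F2 => μ (wt S)) (fun S => ν (wt S))]
  exact (norm_mul_le _ _).trans (mul_le_mul (h n) (h' n) (norm_nonneg _) h.nonneg)

theorem mu_pow {x : ℝ} (hx : |x| ≤ 1) : Mu X (fun k => x ^ k) 1 := by
  intro n
  have e : (fun S : Fin n → F2 => x ^ wt S) =
      fun S => ∏ i ∈ univ, (fun (i : Fin n) (S : Fin n → F2) => if S i = 0 then 1 else x) i S := by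
    funext S; exact pow_wt x S
  show ‖mo X (fun S : Fin n → F2 => x ^ wt S)‖ ≤ 1
  rw [e]
  exact norm_mo_prod univ _ fun i _ => norm_mo_flip i hx

theorem mu_exp {t : ℝ} (ht : 0 ≤ t) : Mu X (fun k => Real.exp (-(k * t))) 1 := by
  have hx : |Real.exp (-t)| ≤ 1 := by
    rw [abs_of_pos (Real.exp_pos _)]
    exact Real.exp_le_one_iff.2 (by linarith)
  refine (mu_pow hx).congr fun k => ?_
  rw [← Real.exp_nat_mul]
  congr 1
  ring

theorem Mu.pow (h : Mu X μ K) (l : ℕ) : Mu X (fun k => μ k ^ l) (K ^ l) := by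
  induction l with
  | zero =>
    intro n
    simp only [pow_zero]
    rw [mo_one]
    exact ContinuousLinearMap.norm_id_le
  | succ l ih =>
    rw [pow_succ]
    exact (ih.mul h).congr fun k => (pow_succ _ _).symm

theorem Mu.hasSum {m : ℕ → ℕ → ℝ} {B : ℕ → ℝ} (h : ∀ j, Mu X (m j) (B j))
    (hs : ∀ k, HasSum (fun j => m j k) (μ k)) (hB : HasSum B K) : Mu X μ K := by
  intro n
  have h1 : HasSum (fun j => mo X fun S : Fin n → F2 => m j (wt S))
      (mo X fun S : Fin n → F2 => μ (wt S)) :=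
    hasSum_sum fun S _ => (hs (wt S)).smul_const (pS X S)
  exact h1.norm_le_of_bounded hB fun j => h j n

/-- `integral_finset_sum`, `integral_smul_const`, `norm_integral_le_of_norm_le` -/
theorem Mu.integral [CompleteSpace X] {ρ : Measure ℝ} {m : ℝ → ℕ → ℝ} {B : ℝ → ℝ}
    (h : ∀ᵐ u ∂ρ, Mu X (m u) (B u)) (hm : ∀ k, Integrable (fun u => m u k) ρ)
    (hB : Integrable B ρ) : Mu X (fun k => ∫ u, m u k ∂ρ) (∫ u, B u ∂ρ) := by
  intro n
  have e : (mo X fun S : Fin n → F2 => ∫ u, m u (wt S) ∂ρ) =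
      ∫ u, (mo X fun S : Fin n → F2 => m u (wt S)) ∂ρ := by
    unfold mo
    rw [integral_finsetSum _ fun S _ => (hm (wt S)).smul_const (pS X S)]
    exact sum_congr rfl fun S _ =>
      (integral_smul_const (fun u => m u (wt S)) (pS X S)).symm
  show ‖mo X fun S : Fin n → F2 => ∫ u, m u (wt S) ∂ρ‖ ≤ _
  rw [e]
  exact norm_integral_le_of_norm_le hB (h.mono fun u hu => hu n)

variable {ζ ξ : ℕ → ℂ}

theorem CMu.mono (h : CMu X ζ K) (hK : K ≤ K') : CMu X ζ K' := by
  exact ⟨h.1.mono hK, h.2.mono hK⟩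

theorem CMu.congr (h : CMu X ζ K) (e : ∀ k, ζ k = ξ k) : CMu X ξ K := by
  rw [← funext e]; exact h

theorem CMu.sub (h : CMu X ζ K) (h' : CMu X ξ K') : CMu X (fun k => ζ k - ξ k) (K + K') := by
  exact ⟨(h.1.sub h'.1).congr fun k => (Complex.sub_re _ _).symm,
    (h.2.sub h'.2).congr fun k => (Complex.sub_im _ _).symm⟩

theorem CMu.mul (h : CMu X ζ K) (h' : CMu X ξ K') : CMu X (fun k => ζ k * ξ k) (2 * K * K') := by
  have e : K * K' + K * K' ≤ 2 * K * K' := le_of_eq (by ring)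
  exact ⟨(((h.1.mul h'.1).sub (h.2.mul h'.2)).congr fun k => (Complex.mul_re _ _).symm).mono e,
    (((h.1.mul h'.2).add (h.2.mul h'.1)).congr fun k => (Complex.mul_im _ _).symm).mono e⟩

theorem CMu.smul (h : CMu X ζ K) (z : ℂ) : CMu X (fun k => z * ζ k) (2 * ‖z‖ * K) := by
  have hK := h.1.nonneg
  have h1 := mul_le_mul_of_nonneg_right (Complex.abs_re_le_norm z) hK
  have h2 := mul_le_mul_of_nonneg_right (Complex.abs_im_le_norm z) hK
  have e : |z.re| * K + |z.im| * K ≤ 2 * ‖z‖ * K := by linarith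
  exact ⟨(((h.1.smul z.re).sub (h.2.smul z.im)).congr fun k => (Complex.mul_re _ _).symm).mono e,
    (((h.2.smul z.re).add (h.1.smul z.im)).congr fun k => (Complex.mul_im _ _).symm).mono e⟩

theorem Mu.cmul (h : Mu X μ K) (z : ℂ) : CMu X (fun k => z * μ k) (‖z‖ * K) := by
  have hK := h.nonneg
  refine ⟨((h.smul z.re).congr fun k => ?_).mono
      (mul_le_mul_of_nonneg_right (Complex.abs_re_le_norm z) hK),
    ((h.smul z.im).congr fun k => ?_).mono
      (mul_le_mul_of_nonneg_right (Complex.abs_im_le_norm z) hK)⟩ <;> simp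

theorem CMu.rmul (h : CMu X ζ K) (h' : Mu X μ K') : CMu X (fun k => ζ k * μ k) (K * K') := by
  refine ⟨(h.1.mul h').congr fun k => ?_, (h.2.mul h').congr fun k => ?_⟩ <;> simp

theorem CMu.integral [CompleteSpace X] {ρ : Measure ℝ} {m : ℝ → ℕ → ℂ} {B : ℝ → ℝ}
    (h : ∀ᵐ u ∂ρ, CMu X (m u) (B u)) (hm : ∀ k, Integrable (fun u => m u k) ρ)
    (hB : Integrable B ρ) : CMu X (fun k => ∫ u, m u k ∂ρ) (∫ u, B u ∂ρ) := by
  refine ⟨(Mu.integral (m := fun u k => (m u k).re) (h.mono fun u hu => hu.1)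
      (fun k => Complex.reCLM.integrable_comp (hm k)) hB).congr fun k => ?_,
    (Mu.integral (m := fun u k => (m u k).im) (h.mono fun u hu => hu.2)
      (fun k => Complex.imCLM.integrable_comp (hm k)) hB).congr fun k => ?_⟩
  · exact Complex.reCLM.integral_comp_comm (hm k)
  · exact Complex.imCLM.integral_comp_comm (hm k)

end Vale.Agent.P111
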