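import Mathlib

/-! The window doubling argument. -/

noncomputable section

namespace Vale.Agent.P111

open Finset

/-- Suppose `τ * φ 0 < φ m`. By induction on `j` there is `M` with
`τ * φ M ≤ φ (M + 2 ^ j * m)`: for a window of length `l ≥ 4 N` put `m' = l - 2 N`, get
`τ ^ k * φ M ≤ φ (M + 4 k m') ≤ φ (M + k (2 l))` and cut it in `k` windows of length `2 l`.
This contradicts `φ 0 * r ^ M ≤ φ M` and `φ (M + l) ≤ D * r ^ (M + l)` for large `l`. -/
theorem iter {φ : ℕ → ℝ} {τ L D r : ℝ} {N k m : ℕ} (hτ : 0 < τ) (hL : 0 < L) (hr : 0 < r)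
    (hr1 : r < 1) (hN : 1 ≤ N) (hk : 1 ≤ k) (h0 : ∀ M, 0 ≤ φ M) (ha : Antitone φ)
    (hl : ∀ M, φ 0 * r ^ M ≤ φ M) (hu : ∀ M, φ M ≤ D * r ^ M) (hLτ : L * τ ^ k ≤ τ / 2)
    (hkey : ∀ M m', φ (M + (2 * N + m')) ≤ τ / 2 * φ M + L * φ (M + 4 * k * m'))
    (hm : 4 * N ≤ m) : φ m ≤ τ * φ 0 := by
  by_contra hne
  rw [not_le] at hne
  have step : ∀ l M, 4 * N ≤ l → τ * φ M < φ (M + l) → ∃ M', τ * φ M' < φ (M' + 2 * l) := by
    intro l M h1 h2
    by_contra h3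
    simp only [not_exists, not_lt] at h3
    have h4 : ∀ i, φ (M + i * (2 * l)) ≤ τ ^ i * φ M := by
      intro i
      induction i with
      | zero => simp
      | succ i ih =>
        rw [add_mul, one_mul, ← add_assoc, pow_succ', mul_assoc τ]
        exact (h3 _).trans (mul_le_mul_of_nonneg_left ih hτ.le)
    obtain ⟨m', rfl⟩ : ∃ m', l = 2 * N + m' := ⟨l - 2 * N, by omega⟩
    have h5 : φ (M + 4 * k * m') ≤ φ (M + k * (2 * (2 * N + m'))) :=
      ha (Nat.add_le_add_left (by nlinarith [show 2 * N ≤ m' by omega]) M)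
    have h6 := hkey M m'
    have h7 := mul_le_mul_of_nonneg_left (h5.trans (h4 k)) hL.le
    have h8 := mul_le_mul_of_nonneg_right hLτ (h0 M)
    nlinarith
  have all : ∀ j, ∃ l, 4 * N + j ≤ l ∧ ∃ M, τ * φ M < φ (M + l) := by
    intro j
    induction j with
    | zero => exact ⟨m, hm, 0, by rwa [zero_add]⟩
    | succ j ih =>
      obtain ⟨l, h1, M, h2⟩ := ih
      exact ⟨2 * l, by omega, step l M (by omega) h2⟩
  have hp : 0 < τ * φ 0 :=
    mul_pos hτ (((mul_nonneg hτ.le (h0 0)).trans_lt hne).trans_le (ha m.zero_le))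
  have ht := (tendsto_pow_atTop_nhds_zero_of_lt_one hr.le hr1).const_mul D
  rw [mul_zero] at ht
  obtain ⟨j, hj⟩ := Filter.eventually_atTop.1 (ht.eventually (gt_mem_nhds hp))
  obtain ⟨l, h1, M, h2⟩ := all j
  have h3 := mul_lt_mul_of_pos_right (hj l (by omega)) (pow_pos hr M)
  have h4 := hu (M + l)
  have h5 := mul_le_mul_of_nonneg_left (hl M) hτ.le
  rw [pow_add] at h4
  nlinarith

/-- choice of the constants: `k` with `k θ / 2 > θ / 2 + a`, then `N` large -/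
theorem consts {θ K τ0 : ℝ} {a k : ℕ} (hθ : 0 < θ) (hK : 0 < K) (hτ0 : 0 < τ0)
    (hk : θ / 2 + a < k * (θ / 2)) : ∃ N : ℕ, 1 ≤ N ∧ 2 * K * (N : ℝ) ^ (-(θ / 2)) ≤ τ0 ∧
      K * (N : ℝ) ^ a * (2 * K * (N : ℝ) ^ (-(θ / 2))) ^ k ≤ K * (N : ℝ) ^ (-(θ / 2)) := by
  have t1 := ((tendsto_rpow_neg_atTop (half_pos hθ)).comp
    (tendsto_natCast_atTop_atTop (R := ℝ))).const_mul (2 * K)
  have t2 := ((tendsto_rpow_neg_atTop (sub_pos.2 hk)).comp
    (tendsto_natCast_atTop_atTop (R := ℝ))).const_mul ((2 * K) ^ k)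
  rw [mul_zero] at t1 t2
  obtain ⟨N, h1, h2, h3⟩ := ((Filter.eventually_ge_atTop 1).and
    ((t1.eventually (ge_mem_nhds hτ0)).and (t2.eventually (ge_mem_nhds one_pos)))).exists
  refine ⟨N, h1, h2, ?_⟩
  have hN : (0 : ℝ) < N := Nat.cast_pos.2 h1
  have e : (N : ℝ) ^ a * ((N : ℝ) ^ (-(θ / 2))) ^ k
      = (N : ℝ) ^ (-(k * (θ / 2) - (θ / 2 + a))) * (N : ℝ) ^ (-(θ / 2)) := by
    rw [← Real.rpow_natCast, ← Real.rpow_natCast, ← Real.rpow_mul hN.le, ← Real.rpow_add hN,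
      ← Real.rpow_add hN]
    congr 1
    ring
  calc _ = K * (N : ℝ) ^ (-(θ / 2))
        * ((2 * K) ^ k * (N : ℝ) ^ (-(k * (θ / 2) - (θ / 2 + a)))) := by
        rw [mul_pow]
        linear_combination K * (2 * K) ^ k * e
    _ ≤ _ := mul_le_of_le_one_right (by positivity) h3

end Vale.Agent.P111
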