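import Vale.Agent.P111.Pair

/-! Hilbertian upper and lower bounds for Walsh norms. -/

noncomputable section

namespace Vale.Agent.P111

open Finset Matrix

variable {X W : Type*} [AddCommGroup X] [Module ℝ X] [AddCommGroup W] [Module ℝ W]
  {β : X →ₗ[ℝ] W →ₗ[ℝ] ℝ} {qX : X → ℝ} {qW : W → ℝ} {φ : ℝ}
  {ι : Type} [Fintype ι] [DecidableEq ι]

theorem pairb_sq (n : ℕ) : (√2 ^ n) ^ 2 = (2 : ℝ) ^ n := by
  rw [← pow_mul, mul_comm, pow_mul, Real.sq_sqrt (by norm_num)]

/-- Test on `f a = (if a = 0 then √2 ^ card ι else 0) • x`, `g b = w`. -/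
theorem Wal.base (hX : Qd qX) (h : Wal β qX qW ι φ) :
    Base β qX qW (φ * √2 ^ Fintype.card ι) := by
  intro x w
  set t : ℝ := √2 ^ Fintype.card ι with ht
  have t0 : 0 < t := by positivity
  have t2 : t ^ 2 = Fintype.card (ι → F2) := by rw [card_vec, pairb_sq]
  have := h (fun a => (if a = 0 then t else 0) • x) fun _ => w
  have e1 : (av fun a : ι → F2 => av fun b : ι → F2 =>
      sg (a ⬝ᵥ b) * β ((if a = 0 then t else 0) • x) w) = t⁻¹ * β x w := by
    rw [av_congr (g := fun a : ι → F2 => if a = 0 then t * β x w else 0), av_ite_eq, ← t2]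
    · field_simp
    · intro a
      split_ifs with ha
      · simp [ha, av_const]
      · simp [av_zero]
  have e2 : (av fun a : ι → F2 => qX ((if a = 0 then t else 0) • x)) = qX x := by
    rw [av_congr (g := fun a : ι → F2 => if a = 0 then t ^ 2 * qX x else 0), av_ite_eq, ← t2]
    · field_simp
    · intro a
      rw [hX.smul]
      split_ifs <;> simp
  rw [e1, e2, av_const, abs_mul, abs_of_pos (inv_pos.2 t0), inv_mul_le_iff₀ t0] at this
  linarith

theorem pairb_parseval (u : (ι → F2) → ℝ) :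
    av (fun b : ι → F2 => (av fun a => sg (a ⬝ᵥ b) * u a) ^ 2) =
      (av fun a => u a ^ 2) / 2 ^ Fintype.card ι := by
  have e : ∀ b : ι → F2, (av fun a => sg (a ⬝ᵥ b) * u a) ^ 2 =
      av fun a => av fun a' => u a * u a' * sg (b ⬝ᵥ (a - a')) := by
    intro b
    rw [sq, ← av_mul_right]
    refine av_congr fun a => ?_
    rw [← av_mul_left]
    refine av_congr fun a' => ?_
    rw [dotProduct_sub, sg_sub, dotProduct_comm b, dotProduct_comm b]
    ring
  rw [av_congr e, av_comm, div_eq_mul_inv, ← av_mul_right]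
  refine av_congr fun a => ?_
  rw [av_comm]
  simp only [av_mul_left, av_sg_dot, sub_eq_zero]
  rw [av_congr (g := fun a' => if a' = a then u a ^ 2 else 0), av_ite_eq, card_vec, mul_comm]
  intro a'
  by_cases h : a' = a
  · simp [h, sq]
  · simp [h, Ne.symm h]

/-- Scalar case: Parseval for the Walsh system gives
`av (fun b => (av fun a => sg (a ⬝ᵥ b) * u a) ^ 2) = av (u ^ 2) / 2 ^ card ι`. -/
theorem wal_scalar (u v : (ι → F2) → ℝ) :
    |av fun a => av fun b => sg (a ⬝ᵥ b) * (u a * v b)| ≤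
      (√2)⁻¹ ^ Fintype.card ι * (av (fun a => u a ^ 2) + av fun b => v b ^ 2) / 2 := by
  set t : ℝ := √2 ^ Fintype.card ι with ht
  have t0 : 0 < t := by positivity
  have t2 : t ^ 2 = 2 ^ Fintype.card ι := pairb_sq _
  rw [av_comm, inv_pow, ← ht]
  simp only [← mul_assoc, av_mul_right]
  refine (abs_av_le_of (g := fun b => (t / 2) * (av fun a => sg (a ⬝ᵥ b) * u a) ^ 2 +
    (t⁻¹ / 2) * v b ^ 2) fun b => ?_).trans (le_of_eq ?_)
  · set y := av fun a => sg (a ⬝ᵥ b) * u a
    have h1 : t⁻¹ * t = 1 := inv_mul_cancel₀ t0.ne'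
    have h2 : 0 ≤ t⁻¹ * (t * |y| - |v b|) ^ 2 := by positivity
    have h3 : t⁻¹ * (t * |y| - |v b|) ^ 2 = t * y ^ 2 - 2 * (|y| * |v b|) + t⁻¹ * v b ^ 2 := by
      rw [← sq_abs y, ← sq_abs (v b)]
      field_simp
      ring
    rw [abs_mul]
    linarith
  · rw [av_add, av_mul_left, av_mul_left, pairb_parseval, ← t2]
    field_simp

/-- finite rank pairings decay at the Hilbertian rate -/
theorem wal_finite {n : ℕ} (ξ : Fin n → X → ℝ) (η : Fin n → W → ℝ) {D : ℝ}
    (hβ : ∀ x w, β x w = ∑ k, ξ k x * η k w) (hξ : ∀ k x, ξ k x ^ 2 ≤ D * qX x)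
    (hη : ∀ k w, η k w ^ 2 ≤ D * qW w) :
    Wal β qX qW ι (n * D * (√2)⁻¹ ^ Fintype.card ι) := by
  intro f g
  simp only [hβ, mul_sum, av_sum]
  refine (abs_sum_le_sum_abs _ _).trans ((sum_le_sum (g := fun _ => (√2)⁻¹ ^ Fintype.card ι *
    (D * av (fun a => qX (f a)) + D * av fun b => qW (g b)) / 2) fun k _ => ?_).trans
    (le_of_eq ?_))
  · refine (wal_scalar (fun a => ξ k (f a)) fun b => η k (g b)).trans ?_
    rw [← av_mul_left, ← av_mul_left]
    have h1 := av_mono fun a => hξ k (f a)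
    have h2 := av_mono fun b => hη k (g b)
    gcongr
  · rw [sum_const, card_univ, Fintype.card_fin, nsmul_eq_mul]
    ring

end Vale.Agent.P111
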