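import Vale.Agent.P111.Key
import Vale.Agent.P111.Iter
import Vale.Agent.P111.PairB

/-! Uniform decay of Walsh norms for finite rank pairings with lifts on both sides. -/

noncomputable section

namespace Vale.Agent.P111

open Finset Matrix

universe u v

/-- `φ M = sInf {ψ | 0 ≤ ψ ∧ Wal β qX qW (Fin M) ψ}` is admissible itself. Apply `key` with
`R = 4 k` to `wamp (Fin M) β` (`wal_iff_base`, `wal_sum_iff`, `Wal.card_le`), `Wal.base`,
then `iter` with `r = (√2)⁻¹`. -/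
theorem decay {θ C τ : ℝ} (hθ : 0 < θ) (hθ1 : θ ≤ 1 / 2) (hC : 1 ≤ C) (hτ : 0 < τ) :
    ∃ m : ℕ, ∀ (X : Type u) (W : Type v) [AddCommGroup X] [Module ℝ X] [AddCommGroup W]
      [Module ℝ W] (β : X →ₗ[ℝ] W →ₗ[ℝ] ℝ) (qX : X → ℝ) (qW : W → ℝ), Qd qX → Qd qW →
      Lift qX C θ → Lift qW C θ → ∀ D φ0 : ℝ, 0 ≤ D → 0 ≤ φ0 →
      (∀ M, Wal β qX qW (Fin M) (D * (√2)⁻¹ ^ M)) → Base β qX qW φ0 →
      Wal β qX qW (Fin m) (τ * φ0) := by
  obtain ⟨a, ha⟩ := key.{u, v} hθ hθ1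
  obtain ⟨k, hk⟩ := exists_nat_gt ((θ / 2 + a) / (θ / 2))
  have hk1 : 1 ≤ k := by
    have h : (0 : ℝ) < k := lt_of_le_of_lt (by positivity) hk
    exact_mod_cast h
  rw [div_lt_iff₀ (by positivity)] at hk
  obtain ⟨K, hK, hkey⟩ := ha C (4 * k) hC (by omega)
  obtain ⟨N, hN, h1, h2⟩ := consts hθ hK hτ hk
  have hN0 : (0 : ℝ) < N := by exact_mod_cast hN
  refine ⟨4 * N, fun X W _ _ _ _ β qX qW hX hW hLX hLW D φ0 hD hφ0 hu hb => ?_⟩
  let S : ℕ → Set ℝ := fun M => {ψ | 0 ≤ ψ ∧ Wal β qX qW (Fin M) ψ}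
  have hbd : ∀ M, BddBelow (S M) := fun M => ⟨0, fun ψ h => h.1⟩
  have hD' : ∀ M, D * (√2)⁻¹ ^ M ∈ S M := fun M => ⟨by positivity, hu M⟩
  have hcl : ∀ M, IsClosed (S M) := fun M => by
    simp only [S, Wal, Set.setOf_and, Set.setOf_forall]
    exact isClosed_Ici.inter (isClosed_iInter fun f => isClosed_iInter fun g =>
      isClosed_le continuous_const (by fun_prop))
  have hm : ∀ M, sInf (S M) ∈ S M := fun M => (hcl M).csInf_mem ⟨_, hD' M⟩ (hbd M)
  have hle : ∀ M ψ, 0 ≤ ψ → Wal β qX qW (Fin M) ψ → sInf (S M) ≤ ψ := fun M ψ h h' =>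
    csInf_le (hbd M) ⟨h, h'⟩
  have hs : (1 : ℝ) < √2 := Real.one_lt_sqrt_two
  have h3 := iter (φ := fun M => sInf (S M)) (τ := 2 * K * (N : ℝ) ^ (-(θ / 2)))
    (L := K * (N : ℝ) ^ a) (D := D) (r := (√2)⁻¹) (N := N) (k := k) (m := 4 * N)
    (by positivity) (by positivity) (by positivity) (inv_lt_one_of_one_lt₀ hs) hN hk1
    (fun M => (hm M).1)
    (fun M M' h => hle M' _ (hm M).1 ((hm M).2.card_le (by simpa using h)))
    (fun M => by
      have h4 := hle 0 _ (mul_nonneg (hm M).1 (by positivity)) ((hm M).2.base hX).wal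
      rw [Fintype.card_fin] at h4
      rw [inv_pow, mul_inv_le_iff₀ (by positivity)]
      exact h4)
    (fun M => hle M _ (hD' M).1 (hu M)) (h2.trans_eq (by ring))
    (fun M m' => by
      have h4 := hkey _ _ (wamp (Fin M) β) _ _ hX.qa hW.qa hLX.qa hLW.qa N (Fin m') _ _ hN
        (hm M).1 (hm (M + 4 * k * m')).1 (wal_iff_base.1 (hm M).2)
        (wal_sum_iff.1 ((hm (M + 4 * k * m')).2.card_le (by simp)))
      have h5 := (hm M).1
      have h6 := (hm (M + 4 * k * m')).1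
      refine (hle _ _ (by positivity) ((wal_sum_iff.2 h4).card_le ?_)).trans_eq (by ring)
      simp only [Fintype.card_sum, Fintype.card_fin]
      omega)
    le_rfl
  refine (hm (4 * N)).2.mono hX hW (h3.trans ?_)
  exact mul_le_mul h1 (hle 0 _ hφ0 hb.wal) (hm 0).1 hτ.le

end Vale.Agent.P111
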