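import Vale.Agent.P111.Basic

/-! Fourier multipliers on the group of square matrices over the field with two elements. -/

noncomputable section

namespace Vale.Agent.P111

open Finset Matrix

abbrev Mx (N : ℕ) := Matrix (Fin N) (Fin N) F2

/-- the all ones vector -/
def one (N : ℕ) : Fin N → F2 := fun _ => 1

/-- the standard pairing of matrices -/
def ip {N : ℕ} (S n : Mx N) : F2 := ∑ i, ∑ j, S i j * n i j

def ch {N : ℕ} (S n : Mx N) : ℝ := sg (ip S n)

def hat {N : ℕ} (B : Mx N → ℝ) (S : Mx N) : ℝ := av fun n => ch S n * B n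

/-- the multiplier `μ` applied to `B` -/
def act {N : ℕ} (μ : Mx N → ℝ) (B : Mx N → ℝ) (c : Mx N) : ℝ := ∑ S, μ S * hat B S * ch S c

/-- `μ` is the Fourier transform of a signed measure of total variation at most `K` -/
def Rep {N : ℕ} (μ : Mx N → ℝ) (K : ℝ) : Prop :=
  ∃ l : Mx N → ℝ, ∑ n, |l n| ≤ K ∧ ∀ S, μ S = ∑ n, l n * ch S n

variable {N : ℕ}

theorem ip_comm (S n : Mx N) : ip S n = ip n S := by
  simp only [ip, mul_comm]

theorem ip_add (S n n' : Mx N) : ip S (n + n') = ip S n + ip S n' := by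
  simp only [ip, Matrix.add_apply, mul_add, sum_add_distrib]

theorem ip_vecMulVec (S : Mx N) (p p' : Fin N → F2) :
    ip S (vecMulVec p p') = p ⬝ᵥ S *ᵥ p' := by
  simp only [ip, vecMulVec_apply, dotProduct, mulVec, mul_sum, mul_left_comm]

theorem four_ip (S n : Mx N) : ip S n = (Sᵀ * n).trace := by
  simp only [ip, trace, Matrix.diag, Matrix.mul_apply, transpose_apply]
  exact sum_comm

theorem ip_mul {R : ℕ} (S : Mx N) (P P' : Matrix (Fin R) (Fin N) F2) (s : Mx R) :
    ip S (Pᵀ * s * P') = ip (P * S * P'ᵀ) s := by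
  rw [four_ip, four_ip, transpose_mul, transpose_mul, transpose_transpose, ← Matrix.mul_assoc,
    trace_mul_comm]
  simp only [Matrix.mul_assoc]

theorem ip_one {R : ℕ} (s : Mx R) : ip 1 s = s.trace := by
  rw [four_ip, transpose_one, Matrix.one_mul]

theorem ch_add (S n n' : Mx N) : ch S (n + n') = ch S n * ch S n' := by
  rw [ch, ip_add, sg_add, ch, ch]

theorem ch_zero (S : Mx N) : ch S 0 = 1 := by
  simp [ch, ip]

theorem abs_ch (S n : Mx N) : |ch S n| = 1 := by
  exact abs_sg _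

/-- orthogonality (`av_sg_hom`) -/
theorem av_ch_mul (S S' : Mx N) :
    av (fun n => ch S n * ch S' n) = if S = S' then 1 else 0 := by
  split_ifs with h
  · simp only [h, ch, sg_mul_self, av_const]
  · obtain ⟨i, j, hij⟩ : ∃ i j, S i j ≠ S' i j := by
      by_contra hc
      push Not at hc
      exact h (Matrix.ext hc)
    have e : ∀ T : Mx N, ip T (Matrix.single i j 1) = T i j := fun T => by
      simp [ip, Matrix.single, ite_and]
    simp only [ch, ← sg_add]
    refine av_sg_hom (fun n => ip S n + ip S' n) (fun a b => ?_) (g := Matrix.single i j 1) ?_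
    · rw [ip_add, ip_add, add_add_add_comm]
    · rw [e, e, ← f2_neg (S' i j), ← sub_eq_add_neg]
      exact sub_ne_zero.2 hij

theorem four_comm (S n : Mx N) : ch S n = ch n S := by rw [ch, ch, ip_comm]

theorem four_card : (Fintype.card (Mx N) : ℝ) ≠ 0 := Nat.cast_ne_zero.2 Fintype.card_ne_zero

theorem four_sum (n c : Mx N) :
    ∑ S, ch S n * ch S c = if n = c then (Fintype.card (Mx N) : ℝ) else 0 := by
  have h := av_ch_mul n c
  simp only [av, smul_eq_mul, four_comm n, four_comm c] at h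
  rw [inv_mul_eq_iff_eq_mul₀ four_card] at h
  rw [h, mul_ite, mul_one, mul_zero]

/-- Fourier inversion -/
theorem act_one (B : Mx N → ℝ) (c : Mx N) : act (fun _ => 1) B c = B c := by
  have h : ∀ n, ∑ S, ch S n * B n * ch S c =
      if n = c then (Fintype.card (Mx N) : ℝ) * B c else 0 := fun n => by
    simp only [mul_right_comm _ (B n), ← sum_mul, four_sum]
    split_ifs with h
    · rw [h]
    · rw [zero_mul]
  simp only [act, hat, one_mul, ← av_mul_right, ← av_sum, h, av_ite_eq]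
  rw [inv_mul_cancel_left₀ four_card]

theorem hat_act (μ B : Mx N → ℝ) (S : Mx N) : hat (act μ B) S = μ S * hat B S := by
  have h : hat (act μ B) S = ∑ S', μ S' * hat B S' * av fun n => ch S n * ch S' n := by
    simp only [← av_mul_left, ← av_sum]
    exact av_congr fun n => by simp only [act, mul_sum, mul_left_comm (ch S n)]
  simp [h, av_ch_mul]

theorem act_act (μ ν B : Mx N → ℝ) : act μ (act ν B) = act (fun S => μ S * ν S) B := by
  funext c
  rw [act, act]
  simp only [hat_act, mul_assoc]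

theorem abs_hat_le {B : Mx N → ℝ} {b : ℝ} (h : ∀ n, |B n| ≤ b) (S : Mx N) : |hat B S| ≤ b := by
  exact abs_av_le fun n => by rw [abs_mul, abs_ch, one_mul]; exact h n

/-- a multiplier given by finitely many weighted translations -/
theorem act_sum {Ω : Type*} [Fintype Ω] (e : Ω → ℝ) (n : Ω → Mx N) (B : Mx N → ℝ) (c : Mx N) :
    act (fun S => ∑ ω, e ω * ch S (n ω)) B c = ∑ ω, e ω * B (c + n ω) := by
  simp only [← act_one B (c + _), act, sum_mul, mul_sum, ch_add]
  rw [sum_comm]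
  exact sum_congr rfl fun ω _ => sum_congr rfl fun S _ => by ring

theorem four_av {Ω : Type*} [Fintype Ω] (e f : Ω → ℝ) :
    av (fun ω => e ω * f ω) = ∑ ω, (Fintype.card Ω : ℝ)⁻¹ * e ω * f ω := by
  simp only [av, smul_eq_mul, mul_sum, mul_assoc]

theorem act_av {Ω : Type*} [Fintype Ω] (e : Ω → ℝ) (n : Ω → Mx N) (B : Mx N → ℝ) (c : Mx N) :
    act (fun S => av fun ω => e ω * ch S (n ω)) B c = av fun ω => e ω * B (c + n ω) := by
  simp only [four_av, act_sum]

theorem Rep.bound {μ B : Mx N → ℝ} {K b : ℝ} (h : Rep μ K) (hB : ∀ n, |B n| ≤ b) (c : Mx N) :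
    |act μ B c| ≤ K * b := by
  obtain ⟨l, h1, h2⟩ := h
  rw [funext h2, act_sum l fun n => n]
  have hb : 0 ≤ b := (abs_nonneg _).trans (hB 0)
  refine (abs_sum_le_sum_abs _ _).trans (le_trans ?_ (mul_le_mul_of_nonneg_right h1 hb))
  rw [sum_mul]
  exact sum_le_sum fun n _ => by
    rw [abs_mul]; exact mul_le_mul_of_nonneg_left (hB _) (abs_nonneg _)

theorem Rep.nonneg {μ : Mx N → ℝ} {K : ℝ} (h : Rep μ K) : 0 ≤ K := by
  obtain ⟨l, h1, -⟩ := h
  exact (sum_nonneg fun _ _ => abs_nonneg _).trans h1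

theorem Rep.mono {μ : Mx N → ℝ} {K K' : ℝ} (h : Rep μ K) (hK : K ≤ K') : Rep μ K' := by
  obtain ⟨l, h1, h2⟩ := h
  exact ⟨l, h1.trans hK, h2⟩

theorem Rep.congr {μ ν : Mx N → ℝ} {K : ℝ} (h : Rep μ K) (e : ∀ S, μ S = ν S) : Rep ν K := by
  rwa [← funext e]

theorem rep_sum {Ω : Type*} [Fintype Ω] (e : Ω → ℝ) (n : Ω → Mx N) :
    Rep (fun S => ∑ ω, e ω * ch S (n ω)) (∑ ω, |e ω|) := by
  refine ⟨fun m => ∑ ω with n ω = m, e ω, ?_, fun S => ?_⟩
  · rw [← sum_fiberwise univ n]
    exact sum_le_sum fun m _ => abs_sum_le_sum_abs _ _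
  · simp only [sum_mul]
    rw [← sum_fiberwise univ n]
    exact sum_congr rfl fun m _ => sum_congr rfl fun ω hω => by rw [(mem_filter.1 hω).2]

theorem rep_av {Ω : Type*} [Fintype Ω] [Nonempty Ω] (e : Ω → ℝ) (n : Ω → Mx N)
    (he : ∀ ω, |e ω| ≤ 1) : Rep (fun S => av fun ω => e ω * ch S (n ω)) 1 := by
  simp only [four_av]
  refine (rep_sum _ n).mono (le_trans (le_of_eq ?_) (av_le he))
  simp only [av, smul_eq_mul, mul_sum, abs_mul, abs_inv, Nat.abs_cast]

theorem rep_const (c : ℝ) : Rep (fun _ : Mx N => c) |c| := by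
  simpa [ch_zero] using rep_sum (fun _ : Unit => c) fun _ => (0 : Mx N)

theorem Rep.add {μ ν : Mx N → ℝ} {K K' : ℝ} (h : Rep μ K) (h' : Rep ν K') :
    Rep (fun S => μ S + ν S) (K + K') := by
  obtain ⟨l, h1, h2⟩ := h
  obtain ⟨l', h1', h2'⟩ := h'
  refine ⟨fun n => l n + l' n, le_trans ?_ (add_le_add h1 h1'), fun S => ?_⟩
  · rw [← sum_add_distrib]
    exact sum_le_sum fun n _ => abs_add_le _ _
  · simp only [h2, h2', add_mul, sum_add_distrib]

theorem Rep.sub {μ ν : Mx N → ℝ} {K K' : ℝ} (h : Rep μ K) (h' : Rep ν K') :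
    Rep (fun S => μ S - ν S) (K + K') := by
  obtain ⟨l, h1, h2⟩ := h
  obtain ⟨l', h1', h2'⟩ := h'
  refine ⟨fun n => l n - l' n, le_trans ?_ (add_le_add h1 h1'), fun S => ?_⟩
  · rw [← sum_add_distrib]
    exact sum_le_sum fun n _ => abs_sub _ _
  · simp only [h2, h2', sub_mul, sum_sub_distrib]

theorem Rep.smul {μ : Mx N → ℝ} {K : ℝ} (h : Rep μ K) (c : ℝ) :
    Rep (fun S => c * μ S) (|c| * K) := by
  obtain ⟨l, h1, h2⟩ := h
  refine ⟨fun n => c * l n, ?_, fun S => ?_⟩
  · simp only [abs_mul, ← mul_sum]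
    exact mul_le_mul_of_nonneg_left h1 (abs_nonneg _)
  · simp only [h2, mul_sum, mul_assoc]

theorem Rep.mul {μ ν : Mx N → ℝ} {K K' : ℝ} (h : Rep μ K) (h' : Rep ν K') :
    Rep (fun S => μ S * ν S) (K * K') := by
  have h0 := h.nonneg
  obtain ⟨l, h1, h2⟩ := h
  obtain ⟨l', h1', h2'⟩ := h'
  refine ((rep_sum (fun p : Mx N × Mx N => l p.1 * l' p.2) fun p => p.1 + p.2).mono ?_).congr
    fun S => ?_
  · simp only [Fintype.sum_prod_type, abs_mul, ← sum_mul_sum]
    exact mul_le_mul h1 h1' (sum_nonneg fun _ _ => abs_nonneg _) h0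
  · simp only [Fintype.sum_prod_type, h2, h2', sum_mul_sum, ch_add]
    exact sum_congr rfl fun a _ => sum_congr rfl fun b _ => by ring

theorem Rep.sum {ι : Type*} (s : Finset ι) {μ : ι → Mx N → ℝ} {K : ι → ℝ}
    (h : ∀ i ∈ s, Rep (μ i) (K i)) : Rep (fun S => ∑ i ∈ s, μ i S) (∑ i ∈ s, K i) := by
  classical
  induction s using Finset.induction_on with
  | empty => simpa using rep_const (N := N) 0
  | insert a s ha ih =>
    simp only [sum_insert ha]
    exact (h a (mem_insert_self _ _)).add (ih fun i hi => h i (mem_insert_of_mem hi))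

theorem Rep.prod {ι : Type*} (s : Finset ι) {μ : ι → Mx N → ℝ} {K : ι → ℝ}
    (h : ∀ i ∈ s, Rep (μ i) (K i)) : Rep (fun S => ∏ i ∈ s, μ i S) (∏ i ∈ s, K i) := by
  classical
  induction s using Finset.induction_on with
  | empty => simpa using rep_const (N := N) 1
  | insert a s ha ih =>
    simp only [prod_insert ha]
    exact (h a (mem_insert_self _ _)).mul (ih fun i hi => h i (mem_insert_of_mem hi))

end Vale.Agent.P111
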