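import Vale.Agent.P111.GateT

/-! The two sided gate built on an exact Walsh system. -/

noncomputable section

namespace Vale.Agent.P111

open Finset Matrix

variable {X W : Type*} [AddCommGroup X] [Module ℝ X] [AddCommGroup W] [Module ℝ W]
  {β : X →ₗ[ℝ] W →ₗ[ℝ] ℝ} {qX : X → ℝ} {qW : W → ℝ} {ι : Type} [Fintype ι] [DecidableEq ι]
  {N : ℕ}

theorem gate_smul (c d : ℝ) (p : Mx N → Matrix (Fin N) ι F2 → (Fin N → F2) → X)
    (q : Mx N → Matrix (Fin N) ι F2 → (Fin N → F2) → W) (n : Mx N) :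
    gateB β (fun Z a w => c • p Z a w) (fun Z b w => d • q Z b w) n = c * d * gateB β p q n := by
  simp only [gateB, map_smul, LinearMap.smul_apply, smul_eq_mul, av_mul_left]
  ring

omit [DecidableEq ι] in
theorem gate_lift {C θ Q : ℝ} (hN : 1 ≤ N) (h : Lift qX C θ) {A B : Type}
    (x : A → B → Fin N → X) (hx : ∀ a b i, qX (x a b i) ≤ Q) :
    ∃ p : A → B → (Fin N → F2) → X, (∀ i a b, av (fun w => sg (w i) • p a b w) = x a b i) ∧
      ∀ a b, av (fun w => qX (p a b w)) ≤ (C * (N : ℝ) ^ (1 - θ)) ^ 2 * Q := by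
  choose p h1 h2 using fun a b => h N (x a b)
  have h0 : (0 : ℝ) < N := by exact_mod_cast hN
  refine ⟨p, fun i a b => h1 a b i, fun a b => (h2 a b).trans ?_⟩
  have h3 : ∑ i, qX (x a b i) ≤ N * Q :=
    (sum_le_sum fun i _ => hx a b i).trans_eq (by simp)
  refine (mul_le_mul_of_nonneg_left h3 (by positivity)).trans_eq ?_
  rw [mul_pow, ← Real.rpow_natCast (_ ^ _) 2, ← Real.rpow_mul h0.le,
    show (1 - θ) * (2 : ℕ) = 1 - 2 * θ + 1 by push_cast; ring, Real.rpow_add_one h0.ne']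
  ring

/-- Choose lifts `p Z a` of `fun i => F i (Z i) (a i)` and `q Z b` of
`fun j => G j (fun i => Z i j) (b j)`. For the row bound rescale: apply `gateB_le` to
`A • x` and use linearity, where `A = C * N ^ (1 - θ)`. -/
theorem gate {R : ℕ} {C θ φ0 φ1 Q τ : ℝ} (hX : Qd qX) (hW : Qd qW) (hN : 1 ≤ N) (hC : 0 < C)
    (hLX : Lift qX C θ) (hLW : Lift qW C θ) (h0 : 0 ≤ φ0) (h1 : 0 ≤ φ1) (hb : Base β qX qW φ0)
    (hw : Wal β qX qW (Fin R × ι) φ1) (F : Fin N → (Fin N → F2) → (ι → F2) → X)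
    (G : Fin N → (Fin N → F2) → (ι → F2) → W) (hF : ∀ i x a, qX (F i x a) ≤ Q)
    (hG : ∀ j y b, qW (G j y b) ≤ Q)
    (hFG : ∀ i j x y a b, β (F i x a) (G j y b) = τ * sg (x j + y i + a ⬝ᵥ b)) :
    ∃ B : Mx N → ℝ, (∀ n, |B n| ≤ φ0 * (C * (N : ℝ) ^ (1 - θ)) ^ 2 * Q) ∧
      (∀ i n, |rowP i B n| ≤ φ0 * (C * (N : ℝ) ^ (1 - θ)) * Q) ∧
      (∀ j n, |colP j B n| ≤ φ0 * (C * (N : ℝ) ^ (1 - θ)) * Q) ∧
      (∀ i j n, rowP i (colP j B) n = τ * sg (n i j)) ∧
      Tst R (φ1 * (C * (N : ℝ) ^ (1 - θ)) ^ 2 * Q) B := by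
  obtain ⟨p, p1, p2⟩ := gate_lift hN hLX
    (fun (Z : Mx N) (a : Matrix (Fin N) ι F2) i => F i (Z i) (a i)) fun _ _ _ => hF _ _ _
  obtain ⟨q, q1, q2⟩ := gate_lift hN hLW
    (fun (Z : Mx N) (b : Matrix (Fin N) ι F2) j => G j (fun i => Z i j) (b j)) fun _ _ _ => hG _ _ _
  have hA : 0 < C * (N : ℝ) ^ (1 - θ) := mul_pos hC (Real.rpow_pos_of_pos (by exact_mod_cast hN) _)
  generalize C * (N : ℝ) ^ (1 - θ) = A at p2 q2 hA ⊢
  have key : ∀ t : ℝ, |A * t| ≤ φ0 * (A ^ 2 * Q) → |t| ≤ φ0 * A * Q := fun t h => by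
    rw [abs_mul, abs_of_pos hA] at h
    exact le_of_mul_le_mul_left (h.trans_eq (by ring)) hA
  refine ⟨gateB β p q, fun n => ?_, fun i n => key _ ?_, fun j n => key _ ?_, fun i j n => ?_, ?_⟩
  · rw [mul_assoc]
    exact gateB_le h0 hb p2 q2 n
  · rw [gateB_row i (p1 i), ← mul_one A, ← gate_smul, mul_one]
    refine gateB_le h0 hb (fun Z a => av_le fun w => ?_) (by simpa using q2) n
    rw [hX.smul, hX.sg]
    exact mul_le_mul_of_nonneg_left (hF _ _ _) (sq_nonneg _)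
  · rw [gateB_col j (q1 j), ← one_mul A, ← gate_smul, one_mul]
    refine gateB_le h0 hb (by simpa using p2) (fun Z a => av_le fun w => ?_) n
    rw [hW.smul, hW.sg]
    exact mul_le_mul_of_nonneg_left (hG _ _ _) (sq_nonneg _)
  · rw [gateB_col j (q1 j), gateB_row i (p1 i), gateB]
    have e : ∀ (Z : Mx N) (a b : Matrix (Fin N) ι F2) (w w' : Fin N → F2),
        β (sg (w i) • F i (Z i) (a i)) (sg (w' j) • G j (fun i =>
          (n - Z - a * bᵀ - vecMulVec w (one N) - vecMulVec (one N) w') i j) (b j)) =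
          τ * sg (n i j) := by
      intro Z a b w w'
      have e1 : Z i j + (n - Z - a * bᵀ - vecMulVec w (one N) - vecMulVec (one N) w') i j +
          a i ⬝ᵥ b j = n i j - w i - w' j := by
        simp only [Matrix.sub_apply, vecMulVec_apply, one, mul_one, one_mul]
        rw [show (a * bᵀ) i j = a i ⬝ᵥ b j from rfl]
        ring
      simp only [map_smul, LinearMap.smul_apply, smul_eq_mul]
      rw [hFG, e1, sg_sub, sg_sub]
      linear_combination (τ * sg (n i j) * sg (w' j) * sg (w' j)) * sg_mul_self (w i) +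
        τ * sg (n i j) * sg_mul_self (w' j)
    simp only [e, av_const]
  · rw [mul_assoc]
    exact gateB_tst hX h1 hw p2 q2

end Vale.Agent.P111
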