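import Vale.Agent.P111.Kill

/-! Multipliers that only see matrices of large rank. -/

noncomputable section

namespace Vale.Agent.P111

open Finset Matrix

variable {N : ℕ}

/-- this is `2 ^ (-rank S)` -/
def yy (S : Mx N) : ℝ := av fun p : Fin N → F2 => av fun p' : Fin N → F2 => sg (p ⬝ᵥ S *ᵥ p')

def QQ (R : ℕ) (y : ℝ) : ℝ := ∏ j ∈ Ico 2 R, (1 - 2 ^ j * y)

def QG (R : ℕ) : ℝ := ∏ j ∈ Ico 2 R, (1 + (2 : ℝ) ^ j)

/-- row `i` is neither zero nor the sum of all rows -/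
def bad (i : Fin N) (S : Mx N) : ℝ := if S i = 0 ∨ S i = cJ S then 0 else 1

/-- all conditioned tests of rank `R` are small -/
def Tst (R : ℕ) (δ : ℝ) (B : Mx N → ℝ) : Prop :=
  ∀ (P P' : Matrix (Fin R) (Fin N) F2) (c : Mx N),
    |av fun s : Mx R => sg s.trace * B (c + Pᵀ * s * P')| ≤ δ

/-- on matrices of odd total parity, `μ` is a combination of the indicators of `P S P'ᵀ = 1` -/
def Good (R : ℕ) (μ : Mx N → ℝ) (K : ℝ) : Prop :=
  ∃ (Ω : Type) (_ : Fintype Ω) (l : Ω → ℝ) (P P' : Ω → Matrix (Fin R) (Fin N) F2),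
    ∑ ω, |l ω| ≤ K ∧ ∀ S, one N ⬝ᵥ S *ᵥ one N = 1 →
      μ S = ∑ ω, l ω * if P ω * S * (P' ω)ᵀ = 1 then 1 else 0

theorem rep_yy : Rep (yy : Mx N → ℝ) 1 := by
  refine (rep_av (Ω := (Fin N → F2) × (Fin N → F2)) (fun _ => 1) (fun ω => vecMulVec ω.1 ω.2)
    fun _ => by simp).congr fun S => ?_
  simp only [yy, av_prod, ch, ip_vecMulVec, one_mul]

theorem rep_QQ (R : ℕ) : Rep (fun S : Mx N => QQ R (yy S)) (QG R) := by
  refine Rep.prod _ fun j _ => ?_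
  have := (rep_const (N := N) 1).sub (rep_yy.smul (2 ^ j))
  rwa [abs_one, mul_one, abs_of_pos (by positivity)] at this

theorem QG_ge (R : ℕ) : 1 ≤ QG R :=
  Finset.one_le_prod fun j _ => by linarith [show (0 : ℝ) < 2 ^ j by positivity]

/-- `p ⬝ᵥ S *ᵥ p' = (p ⬝ᵥ κ) * (z ⬝ᵥ p')`; the inner mean is the indicator of `p ⬝ᵥ κ = 0`. -/
theorem yy_rect {κ z : Fin N → F2} (hκ : κ ≠ 0) (hz : z ≠ 0) : yy (vecMulVec κ z) = 1 / 2 := by
  have e : ∀ p : Fin N → F2, (av fun p' : Fin N → F2 => sg (p ⬝ᵥ vecMulVec κ z *ᵥ p')) =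
      1 / 2 + 1 / 2 * sg (p ⬝ᵥ κ) := by
    intro p
    have : ∀ p' : Fin N → F2, p ⬝ᵥ vecMulVec κ z *ᵥ p' = p' ⬝ᵥ ((p ⬝ᵥ κ) • z) := by
      intro p'
      rw [vecMulVec_mulVec, dotProduct_smul, dotProduct_smul, dotProduct_comm p']
      simp
    simp only [this, av_sg_dot]
    rcases f2_cases (p ⬝ᵥ κ) with h | h <;> simp [h, hz] <;> norm_num
  rw [yy, av_congr e, av_add, av_const, av_mul_left, av_sg_dot, if_neg hκ]
  norm_num

theorem QQ_half (R : ℕ) : 1 ≤ |QQ R (1 / 2)| ∧ |QQ R (1 / 2)| ≤ QG R := by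
  rw [QQ, abs_prod]
  have h : ∀ j ∈ Ico 2 R, (4 : ℝ) ≤ 2 ^ j := fun j hj =>
    le_trans (by norm_num) (pow_le_pow_right₀ one_le_two (mem_Ico.1 hj).1)
  refine ⟨Finset.one_le_prod fun j hj => ?_, prod_le_prod (fun _ _ => abs_nonneg _) fun j hj => ?_⟩
  · rw [abs_of_nonpos] <;> linarith [h j hj]
  · rw [abs_of_nonpos] <;> linarith [h j hj]

theorem rank_ind {R : ℕ} (P P' : Matrix (Fin R) (Fin N) F2) (S : Mx N) :
    (if P * S * P'ᵀ = 1 then (1 : ℝ) else 0) =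
      av fun s : Mx R => sg s.trace * ch S (Pᵀ * s * P') := by
  rw [← av_ch_mul]
  refine av_congr fun s => ?_
  rw [mul_comm, ch, ch, ch, ip_mul, ip_one]

/-- The indicator of `P S P'ᵀ = 1` is the mean of `sg s.trace * ch S (Pᵀ * s * P')`. -/
theorem Good.bound {R : ℕ} {μ D : Mx N → ℝ} {K δ : ℝ} (h : Good R μ K) (hT : Tst R δ D)
    (hD : ∀ S, hat D S ≠ 0 → one N ⬝ᵥ S *ᵥ one N = 1) (c : Mx N) : |act μ D c| ≤ K * δ := by
  obtain ⟨Ω, _, l, P, P', hl, hμ⟩ := h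
  have hδ : 0 ≤ δ := (abs_nonneg _).trans (hT 0 0 0)
  have e : act μ D c = ∑ ω, l ω * av fun s : Mx R => sg s.trace * D (c + (P ω)ᵀ * s * P' ω) := by
    simp only [← act_av, ← rank_ind]
    simp only [act, mul_sum]
    rw [sum_comm]
    refine sum_congr rfl fun S _ => ?_
    by_cases h0 : hat D S = 0
    · simp [h0]
    · rw [hμ S (hD S h0), sum_mul, sum_mul]
      exact sum_congr rfl fun _ _ => by ring
  rw [e]
  refine (abs_sum_le_sum_abs _ _).trans ((sum_le_sum (g := fun ω => |l ω| * δ) fun ω _ => ?_).trans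
    ?_)
  · rw [abs_mul]
    exact mul_le_mul_of_nonneg_left (hT _ _ _) (abs_nonneg _)
  · rw [← sum_mul]
    exact mul_le_mul_of_nonneg_right hl hδ

theorem Tst.act {R : ℕ} {μ B : Mx N → ℝ} {K δ : ℝ} (hT : Tst R δ B) (h : Rep μ K) :
    Tst R (K * δ) (act μ B) := by
  obtain ⟨l, hl, hμ⟩ := h
  have hδ : 0 ≤ δ := (abs_nonneg _).trans (hT 0 0 0)
  intro P P' c
  obtain rfl : μ = _ := funext hμ
  simp only [act_sum, mul_sum, av_sum, mul_left_comm _ (l _), av_mul_left]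
  refine (abs_sum_le_sum_abs _ _).trans ((sum_le_sum (g := fun ω => |l ω| * δ) fun n _ => ?_).trans
    ?_)
  · rw [abs_mul]
    simp only [add_right_comm c _ n]
    exact mul_le_mul_of_nonneg_left (hT _ _ _) (abs_nonneg _)
  · rw [← sum_mul]
    exact mul_le_mul_of_nonneg_right hl hδ

end Vale.Agent.P111
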