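import Vale.Agent.P111.Pair
import Vale.Agent.P111.Rank

/-! The two sided gate built on an exact Walsh system. -/

noncomputable section

namespace Vale.Agent.P111

open Finset Matrix

variable {X W : Type*} [AddCommGroup X] [Module ℝ X] [AddCommGroup W] [Module ℝ W]
  {β : X →ₗ[ℝ] W →ₗ[ℝ] ℝ} {qX : X → ℝ} {qW : W → ℝ} {ι : Type} [Fintype ι] [DecidableEq ι]
  {N : ℕ}

/-- the mean of the pairing of the two lifts given the matrix of signs `n` -/
def gateB (β : X →ₗ[ℝ] W →ₗ[ℝ] ℝ) (p : Mx N → Matrix (Fin N) ι F2 → (Fin N → F2) → X)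
    (q : Mx N → Matrix (Fin N) ι F2 → (Fin N → F2) → W) (n : Mx N) : ℝ :=
  av fun Z : Mx N => av fun a : Matrix (Fin N) ι F2 => av fun b : Matrix (Fin N) ι F2 =>
    av fun w : Fin N → F2 => av fun w' : Fin N → F2 =>
      β (p Z a w) (q (n - Z - a * bᵀ - vecMulVec w (one N) - vecMulVec (one N) w') b w')

variable {p : Mx N → Matrix (Fin N) ι F2 → (Fin N → F2) → X}
  {q : Mx N → Matrix (Fin N) ι F2 → (Fin N → F2) → W}

lemma gatea_key (i : Fin N) {r : (Fin N → F2) → (Fin N → F2) → X} {x : (Fin N → F2) → X}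
    (hx : ∀ u, av (fun w => sg (w i) • r u w) = x u) (F : (Fin N → F2) → X →ₗ[ℝ] ℝ) :
    av (fun ζ : Fin N → F2 => sg (ζ i) * av fun w => F (w - ζ) (r (w - ζ) w)) =
      av fun u => F u (sg (u i) • x u) := by
  simp only [← av_mul_left]
  rw [av_comm]
  have e : ∀ w : Fin N → F2, av (fun ζ : Fin N → F2 => sg (ζ i) * F (w - ζ) (r (w - ζ) w)) =
      av fun u : Fin N → F2 => sg (u i) * F u (sg (w i) • r u w) := fun w => by
    rw [← av_shift_sub' w]
    refine av_congr fun u => ?_
    rw [sub_sub_cancel, Pi.sub_apply, sg_sub, map_smul, smul_eq_mul]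
    ring
  simp only [e]
  rw [av_comm]
  refine av_congr fun u => ?_
  rw [av_mul_left, ← map_av, hx, map_smul, smul_eq_mul]

/-- `Base`; for the second term move the mean over `Z` inside and use `av_shift_sub'`. -/
theorem gateB_le {φ Q : ℝ} (hφ : 0 ≤ φ) (h : Base β qX qW φ)
    (hp : ∀ Z a, av (fun w => qX (p Z a w)) ≤ Q) (hq : ∀ Z b, av (fun w => qW (q Z b w)) ≤ Q)
    (n : Mx N) : |gateB β p q n| ≤ φ * Q := by
  have h1 : (av fun Z : Mx N => av fun a : Matrix (Fin N) ι F2 => av fun _ : Matrix (Fin N) ι F2 =>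
      av fun w : Fin N → F2 => av fun _ : Fin N → F2 => qX (p Z a w)) ≤ Q := by
    simp only [av_const]
    exact av_le fun Z => av_le fun a => hp Z a
  have h2 : (av fun Z : Mx N => av fun a : Matrix (Fin N) ι F2 => av fun b : Matrix (Fin N) ι F2 =>
      av fun w : Fin N → F2 => av fun w' : Fin N → F2 =>
        qW (q (n - Z - a * bᵀ - vecMulVec w (one N) - vecMulVec (one N) w') b w')) ≤ Q := by
    rw [av_comm]
    refine av_le fun a => ?_
    rw [av_comm]
    refine av_le fun b => ?_
    rw [av_comm]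
    refine av_le fun w => ?_
    rw [av_comm]
    have e : ∀ w' : Fin N → F2, (av fun Z : Mx N =>
        qW (q (n - Z - a * bᵀ - vecMulVec w (one N) - vecMulVec (one N) w') b w')) =
        av fun Z : Mx N => qW (q Z b w') := fun w' => by
      rw [← av_shift_sub' (n - a * bᵀ - vecMulVec w (one N) - vecMulVec (one N) w')
        fun Z : Mx N => qW (q Z b w')]
      refine av_congr fun Z => ?_
      congr 2
      abel
    simp only [e]
    rw [av_comm]
    exact av_le fun Z => hq Z b
  refine (abs_av_le_of fun Z => abs_av_le_of fun a => abs_av_le_of fun b =>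
    abs_av_le_of fun w => abs_av_le_of fun w' => h _ _).trans ?_
  simp only [div_eq_mul_inv, av_mul_right, av_mul_left, av_add]
  nlinarith [mul_le_mul_of_nonneg_left h1 hφ, mul_le_mul_of_nonneg_left h2 hφ]

/-- substitute `w + ζ` for `w` -/
theorem gateB_row (i : Fin N) {x : Mx N → Matrix (Fin N) ι F2 → X}
    (hx : ∀ Z a, av (fun w => sg (w i) • p Z a w) = x Z a) :
    rowP i (gateB β p q) = gateB β (fun Z a w => sg (w i) • x Z a) q := by
  funext n
  unfold rowP gateB
  simp only [← av_mul_left (Ω := Mx N), ← av_mul_left (Ω := Matrix (Fin N) ι F2)]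
  rw [av_comm]
  refine av_congr fun Z => ?_
  rw [av_comm]
  refine av_congr fun a => ?_
  rw [av_comm]
  refine av_congr fun b => ?_
  have k := gatea_key i (r := fun _ w => p Z a w) (x := fun _ => x Z a) (fun _ => hx Z a)
    fun u => β.flip (av fun w' : Fin N → F2 =>
      q (n - Z - a * bᵀ - vecMulVec u (one N) - vecMulVec (one N) w') b w')
  simp only [LinearMap.flip_apply] at k
  simp only [map_av] at k
  rw [← k]
  refine av_congr fun ζ => ?_
  congr 1
  refine av_congr fun w => av_congr fun w' => ?_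
  congr 2
  rw [sub_vecMulVec]
  abel

theorem gateB_col (j : Fin N) {y : Mx N → Matrix (Fin N) ι F2 → W}
    (hy : ∀ Z b, av (fun w => sg (w j) • q Z b w) = y Z b) :
    colP j (gateB β p q) = gateB β p (fun Z b w => sg (w j) • y Z b) := by
  funext n
  unfold colP gateB
  simp only [← av_mul_left (Ω := Mx N), ← av_mul_left (Ω := Matrix (Fin N) ι F2)]
  rw [av_comm]
  refine av_congr fun Z => ?_
  rw [av_comm]
  refine av_congr fun a => ?_
  rw [av_comm]
  refine av_congr fun b => ?_
  have e : ∀ (c : ℝ) (f : (Fin N → F2) → (Fin N → F2) → ℝ),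
      c * av (fun w => av (f w)) = av fun w => c * av (f w) := fun c f => (av_mul_left _ _).symm
  simp only [e]
  rw [av_comm]
  refine av_congr fun w => ?_
  have k := gatea_key j
    (r := fun u w' => q (n - Z - a * bᵀ - vecMulVec w (one N) - vecMulVec (one N) u) b w')
    (x := fun u => y (n - Z - a * bᵀ - vecMulVec w (one N) - vecMulVec (one N) u) b)
    (fun _ => hy _ b) fun _ => β (p Z a w)
  rw [← k]
  refine av_congr fun ζ => ?_
  congr 1
  refine av_congr fun w' => ?_
  congr 2
  rw [vecMulVec_sub]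
  abel

end Vale.Agent.P111
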