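import Vale.Agent.P111.GateA

/-! Conditioned tests of the gate are Walsh tests. -/

noncomputable section

namespace Vale.Agent.P111

open Finset Matrix

variable {X W : Type*} [AddCommGroup X] [Module ℝ X] [AddCommGroup W] [Module ℝ W]
  {β : X →ₗ[ℝ] W →ₗ[ℝ] ℝ} {qX : X → ℝ} {qW : W → ℝ} {ι : Type} [Fintype ι] [DecidableEq ι]
  {N : ℕ}
  {p : Mx N → Matrix (Fin N) ι F2 → (Fin N → F2) → X}
  {q : Mx N → Matrix (Fin N) ι F2 → (Fin N → F2) → W}

theorem gatet_inj {Ω : Type*} [Fintype Ω] (T : Ω → Ω) (hT : Function.Injective T) (f : Ω → ℝ) :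
    av (fun ω => f (T ω)) = av f :=
  av_equiv (Equiv.ofBijective T (Finite.injective_iff_bijective.1 hT)) f

/-- a vector indexed by a product as a matrix -/
def gatetM {R : ℕ} (u : Fin R × ι → F2) : Matrix (Fin R) ι F2 := Matrix.of fun i k => u (i, k)

omit [DecidableEq ι] in
theorem gatet_trace {R : ℕ} (u v : Fin R × ι → F2) :
    (gatetM u * (gatetM v)ᵀ).trace = u ⬝ᵥ v := by
  simp [Matrix.trace, Matrix.mul_apply, gatetM, dotProduct, Fintype.sum_prod_type]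

abbrev GatetO (R N : ℕ) (ι : Type) :=
  Mx R × Mx N × Matrix (Fin N) ι F2 × Matrix (Fin N) ι F2 × (Fin N → F2) × (Fin N → F2)

omit [DecidableEq ι] in
theorem gatet_alg {R : ℕ} (P P' : Matrix (Fin R) (Fin N) F2) (c Z : Mx N) (s : Mx R)
    (a b : Matrix (Fin N) ι F2) (U V : Matrix (Fin R) ι F2) :
    c + Pᵀ * (s + U * Vᵀ) * P' - (Z - Pᵀ * U * bᵀ) - (a + Pᵀ * U) * (b + P'ᵀ * V)ᵀ =
      c + Pᵀ * s * P' - a * bᵀ - a * (Vᵀ * P') - Z := by
  simp only [Matrix.transpose_add, Matrix.transpose_mul, Matrix.transpose_transpose,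
    Matrix.mul_add, Matrix.add_mul, Matrix.mul_assoc]
  abel

/-- For `u v : Matrix (Fin R) ι F2` shift `s` by `u * vᵀ`, `a` by `Pᵀ * u`, `b` by `P'ᵀ * v` and
`Z` by `-(Pᵀ * u) * bᵀ`. Then the left vector depends on `u` only, the right one on `v` only, and
`sg (u * vᵀ).trace` is the Walsh kernel on `Fin R × ι`. Apply `Wal` for fixed
`s, Z, a, b, w, w'` and undo the shifts in the means of `qX`, `qW`. -/
theorem gateB_tst {R : ℕ} {φ Q : ℝ} (hX : Qd qX) (hφ : 0 ≤ φ) (h : Wal β qX qW (Fin R × ι) φ)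
    (hp : ∀ Z a, av (fun w => qX (p Z a w)) ≤ Q) (hq : ∀ Z b, av (fun w => qW (q Z b w)) ≤ Q) :
    Tst R (φ * Q) (gateB β p q) := by
  intro P P' c
  let H : GatetO R N ι → ℝ := fun ω => sg ω.1.trace * β (p ω.2.1 ω.2.2.1 ω.2.2.2.2.1)
    (q (c + Pᵀ * ω.1 * P' - ω.2.1 - ω.2.2.1 * ω.2.2.2.1ᵀ - vecMulVec ω.2.2.2.2.1 (one N) -
      vecMulVec (one N) ω.2.2.2.2.2) ω.2.2.2.1 ω.2.2.2.2.2)
  let f : GatetO R N ι → (Fin R × ι → F2) → X := fun ω u => sg ω.1.trace •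
    p (ω.2.1 - Pᵀ * gatetM u * ω.2.2.2.1ᵀ) (ω.2.2.1 + Pᵀ * gatetM u) ω.2.2.2.2.1
  let g : GatetO R N ι → (Fin R × ι → F2) → W := fun ω v =>
    q (c + Pᵀ * ω.1 * P' - ω.2.2.1 * ω.2.2.2.1ᵀ - ω.2.2.1 * ((gatetM v)ᵀ * P') -
      vecMulVec ω.2.2.2.2.1 (one N) - vecMulVec (one N) ω.2.2.2.2.2 - ω.2.1)
      (ω.2.2.2.1 + P'ᵀ * gatetM v) ω.2.2.2.2.2
  have e1 : (av fun s : Mx R => sg s.trace * gateB β p q (c + Pᵀ * s * P')) = av H := by
    simp only [gateB, av_prod, H, av_mul_left]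
  have e2 : ∀ u v : Fin R × ι → F2, av H = av fun ω => sg (u ⬝ᵥ v) * β (f ω u) (g ω v) := by
    intro u v
    rw [← gatet_inj (fun ω : GatetO R N ι => (ω.1 + gatetM u * (gatetM v)ᵀ,
      ω.2.1 - Pᵀ * gatetM u * ω.2.2.2.1ᵀ, ω.2.2.1 + Pᵀ * gatetM u, ω.2.2.2.1 + P'ᵀ * gatetM v,
      ω.2.2.2.2)) ?_ H]
    · refine av_congr fun ω => ?_
      simp only [H, f, g, gatet_alg, Matrix.trace_add, gatet_trace, sg_add, map_smul,
        LinearMap.smul_apply, smul_eq_mul]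
      rw [sub_right_comm _ ω.2.1, sub_right_comm _ ω.2.1]
      ring
    · rintro ⟨s, Z, a, b, w⟩ ⟨s', Z', a', b', w'⟩ e
      simp only [Prod.mk.injEq, add_left_inj] at e
      obtain ⟨rfl, e, rfl, rfl, rfl⟩ := e
      rw [sub_left_inj.1 e]
  have e3 : av H = av fun ω => av fun u => av fun v => sg (u ⬝ᵥ v) * β (f ω u) (g ω v) := by
    rw [av_comm]
    refine (av_const (Ω := Fin R × ι → F2) _).symm.trans (av_congr fun u => ?_)
    rw [av_comm]
    exact (av_const (Ω := Fin R × ι → F2) _).symm.trans (av_congr fun v => e2 u v)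
  have b1 : (av fun ω => av fun u => qX (f ω u)) ≤ Q := by
    rw [av_comm]
    refine av_le fun u => ?_
    simp only [av_prod, f, hX.sg, av_const]
    exact av_le fun _ => av_le fun _ => av_le fun _ => hp _ _
  have b2 : (av fun ω => av fun v => qW (g ω v)) ≤ Q := by
    rw [av_comm]
    refine av_le fun v => ?_
    simp only [av_prod, g]
    refine av_le fun s => ?_
    rw [av_comm]
    refine av_le fun a => ?_
    rw [av_comm]
    refine av_le fun b => ?_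
    rw [av_comm]
    refine av_le fun w => ?_
    rw [av_comm, av_congr fun w' => av_shift_sub' _ fun Z => qW (q Z _ w'), av_comm]
    exact av_le fun _ => hq _ _
  rw [e1, e3]
  refine (abs_av_le_of fun ω => h (f ω) (g ω)).trans ?_
  simp only [div_eq_mul_inv, av_mul_right, av_mul_left, av_add]
  nlinarith [mul_le_mul_of_nonneg_left b1 hφ, mul_le_mul_of_nonneg_left b2 hφ]

end Vale.Agent.P111
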