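import Mathlib

/-! One Fourier inversion. -/

noncomputable section

namespace Vale.Agent.P111

open MeasureTheory Complex

theorem inv_arctan {σ : ℝ} (hσ : 0 < σ) :
    Integrable (fun τ : ℝ => 1 / (σ ^ 2 + τ ^ 2)) ∧
      ∫ τ : ℝ, 1 / (σ ^ 2 + τ ^ 2) = Real.pi / σ := by
  have h : (fun τ : ℝ => 1 / (σ ^ 2 + τ ^ 2)) =
      fun τ : ℝ => (σ ^ 2)⁻¹ * (1 + (σ⁻¹ * τ) ^ 2)⁻¹ := by
    funext τ
    field_simp
  rw [h]
  refine ⟨(integrable_inv_one_add_sq.comp_mul_left' (inv_pos.2 hσ).ne').const_mul _, ?_⟩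
  rw [integral_const_mul, Measure.integral_comp_mul_left (fun x : ℝ => (1 + x ^ 2)⁻¹),
    integral_univ_inv_one_add_sq, inv_inv, abs_of_pos hσ, smul_eq_mul]
  field_simp

theorem inv_integrable {z : ℝ} (hz : 0 < z) (t : ℝ) :
    Integrable fun τ : ℝ => cexp (τ * t * I) / ((z : ℂ) + τ * I) ^ 3 := by
  have hne : ∀ τ : ℝ, (z : ℂ) + τ * I ≠ 0 := fun τ h => by
    have := congrArg Complex.re h
    simp at this
    exact hz.ne' this
  refine ((inv_arctan hz).1.const_mul z⁻¹).mono' (Continuous.aestronglyMeasurable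
    (Continuous.div (by fun_prop) (by fun_prop) fun τ => pow_ne_zero _ (hne τ)))
    (Filter.Eventually.of_forall fun τ => ?_)
  have h1 : ‖(z : ℂ) + τ * I‖ ^ 2 = z ^ 2 + τ ^ 2 := by
    rw [Complex.sq_norm, normSq_add_mul_I]
  have h2 : z ≤ ‖(z : ℂ) + τ * I‖ := by simpa using re_le_norm ((z : ℂ) + τ * I)
  rw [norm_div, ← ofReal_mul, norm_exp_ofReal_mul_I, norm_pow, pow_succ', h1, ← one_div,
    one_div_mul_one_div]
  gcongr

theorem inv_x1 {w : ℂ} (hw : 0 < w.re) (k : ℕ) :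
    Filter.Tendsto (fun u : ℝ => (u : ℂ) ^ k * cexp (-(w * u))) Filter.atTop (nhds 0) := by
  rw [tendsto_zero_iff_norm_tendsto_zero]
  refine (tendsto_rpow_mul_exp_neg_mul_atTop_nhds_zero k w.re hw).congr' ?_
  filter_upwards [Filter.eventually_ge_atTop 0] with u hu
  simp [norm_exp, abs_of_nonneg hu]

theorem inv_x2 {w : ℂ} (hw : 0 < w.re) :
    IntegrableOn (fun u : ℝ => (u : ℂ) ^ 2 * cexp (-(w * u))) (Set.Ioi 0) := by
  refine (integrableOn_rpow_mul_exp_neg_mul_rpow (s := 2) (by norm_num) one_pos hw).mono'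
    (Continuous.aestronglyMeasurable (by fun_prop)) (Filter.Eventually.of_forall fun u => ?_)
  simp [norm_exp]

theorem inv_x3 {w : ℂ} (hw : 0 < w.re) :
    ∫ u : ℝ in Set.Ioi 0, (u : ℂ) ^ 2 * cexp (-(w * u)) = 2 / w ^ 3 := by
  have h0 : w ≠ 0 := fun h => by simp [h] at hw
  have h := integral_Ioi_of_hasDerivAt_of_tendsto' (a := 0)
    (f := fun u : ℝ => -(w⁻¹ * ((u : ℂ) ^ 2 * cexp (-(w * u))) +
      2 / w ^ 2 * ((u : ℂ) ^ 1 * cexp (-(w * u))) + 2 / w ^ 3 * ((u : ℂ) ^ 0 * cexp (-(w * u)))))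
    (f' := fun u : ℝ => (u : ℂ) ^ 2 * cexp (-(w * u))) (fun u _ => ?_) (inv_x2 hw)
    ((((inv_x1 hw 2).const_mul _).add ((inv_x1 hw 1).const_mul _)).add
      ((inv_x1 hw 0).const_mul _)).neg
  · rw [h]
    simp
  · have h1 : ∀ k : ℕ, HasDerivAt (fun u : ℂ => u ^ k * cexp (-(w * u))) _ (u : ℂ) := fun k =>
      (hasDerivAt_pow k (u : ℂ)).mul ((hasDerivAt_id (u : ℂ)).const_mul w).neg.cexp
    refine ((((h1 2).const_mul w⁻¹).add ((h1 1).const_mul (2 / w ^ 2))).add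
      ((h1 0).const_mul (2 / w ^ 3))).neg.comp_ofReal.congr_deriv ?_
    simp only [Pi.neg_apply, id]
    field_simp
    ring

/-- Fourier inversion (`Continuous.fourierInv_fourier_eq` or `MeasureTheory.Integrable.fourierInv_fourier_eq`)
for `u ↦ (max u 0) ^ 2 * exp (-z u)`, whose transform at `ξ` is `2 / (z + 2 π ξ I) ^ 3`
(`integral_Ioi_of_hasDerivAt_of_tendsto` with an explicit primitive); change variables
`τ = 2 π ξ` (`Measure.integral_comp_mul_left`). -/
theorem inv_cube {z t : ℝ} (hz : 0 < z) (ht : 0 < t) :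
    ∫ τ : ℝ, cexp (τ * t * I) / ((z : ℂ) + τ * I) ^ 3 =
      (Real.pi * t ^ 2 * Real.exp (-(z * t)) : ℝ) := by
  let f : ℝ → ℂ := (Set.Ioi 0).indicator fun u : ℝ => (u : ℂ) ^ 2 * cexp (-(z * u))
  have hπ : 2 * Real.pi ≠ 0 := by positivity
  have h1 : Integrable f :=
    (integrable_indicator_iff measurableSet_Ioi).2 (inv_x2 (w := z) (by simpa using hz))
  have h2 : FourierTransform.fourier f =
      fun ξ : ℝ => 2 / ((z : ℂ) + (2 * Real.pi * ξ : ℝ) * I) ^ 3 := by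
    funext ξ
    rw [Real.fourier_real_eq_integral_exp_smul, ← inv_x3 (by simpa using hz),
      ← integral_indicator measurableSet_Ioi]
    refine integral_congr_ae (Filter.Eventually.of_forall fun u => ?_)
    by_cases hu : u ∈ Set.Ioi (0 : ℝ)
    · simp only [f, Set.indicator_of_mem hu, smul_eq_mul]
      rw [mul_left_comm, ← Complex.exp_add]
      congr 2
      push_cast
      ring
    · simp only [f, Set.indicator_of_notMem hu, smul_zero]
  have h3 : Integrable (FourierTransform.fourier f) := by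
    rw [h2]
    refine (((inv_integrable hz 0).comp_mul_left' hπ).const_mul 2).congr
      (Filter.Eventually.of_forall fun ξ => ?_)
    simp [div_eq_mul_inv]
  have h4 : ContinuousAt f t := by
    refine ContinuousAt.congr (f := fun u : ℝ => (u : ℂ) ^ 2 * cexp (-(z * u))) (by fun_prop) ?_
    filter_upwards [Ioi_mem_nhds ht] with u hu
    simp only [f, Set.indicator_of_mem hu]
  have h5 := h1.fourierInv_fourier_eq h3 h4
  have h6 := Measure.integral_comp_mul_left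
    (fun τ : ℝ => cexp (τ * t * I) / ((z : ℂ) + τ * I) ^ 3) (2 * Real.pi)
  rw [Real.fourierInv_eq', h2] at h5
  have h7 : ∫ ξ : ℝ, cexp (((2 * Real.pi * inner ℝ ξ t : ℝ) : ℂ) * I) •
      (2 / ((z : ℂ) + (2 * Real.pi * ξ : ℝ) * I) ^ 3) = 2 * ∫ ξ : ℝ,
        cexp ((2 * Real.pi * ξ : ℝ) * t * I) / ((z : ℂ) + (2 * Real.pi * ξ : ℝ) * I) ^ 3 := by
    rw [← integral_const_mul]
    refine integral_congr_ae (Filter.Eventually.of_forall fun ξ => ?_)
    have : inner ℝ ξ t = ξ * t := by simp [mul_comm]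
    simp only [this, smul_eq_mul]
    push_cast
    ring_nf
  rw [h7, h6, abs_of_pos (by positivity)] at h5
  simp only [f, Set.indicator_of_mem (Set.mem_Ioi.2 ht), real_smul] at h5
  have h8 : (Real.pi : ℂ) ≠ 0 := ofReal_ne_zero.2 Real.pi_ne_zero
  push_cast at h5 ⊢
  rw [mul_assoc (Real.pi : ℂ), ← h5]
  generalize (∫ τ : ℝ, cexp (τ * t * I) / ((z : ℂ) + τ * I) ^ 3) = J
  field_simp

end Vale.Agent.P111
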