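import Vale.Agent.P111.CubeB

/-! Analyticity of the noise semigroup from the invertibility of `1 + c T`. -/

noncomputable section

namespace Vale.Agent.P111

open Finset MeasureTheory Complex

variable {X : Type*} [NormedAddCommGroup X] [NormedSpace ℝ X] [CompleteSpace X] {V : ℝ}

theorem kato_x1 (σ τ : ℝ) (k : ℕ) (u : ℝ) :
    exp (-(σ + τ * I) * u) * (Real.exp (-(k * u)) : ℝ) = exp (-((k : ℂ) + σ + τ * I) * u) := by
  rw [ofReal_exp, ← exp_add]
  congr 1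
  push_cast
  ring

omit [CompleteSpace X] in
theorem kato_x2 (σ τ : ℝ) {u : ℝ} (hu : 0 ≤ u) :
    CMu X (fun k => exp (-((k : ℂ) + σ + τ * I) * u)) (Real.exp (-σ * u)) := by
  refine (((mu_exp hu).cmul (exp (-(σ + τ * I) * u))).congr fun k => kato_x1 σ τ k u).mono ?_
  rw [mul_one, norm_exp]
  simp

theorem kato_x3 {σ : ℝ} (hσ : 0 < σ) (τ : ℝ) (k : ℕ) : (-((k : ℂ) + σ + τ * I)).re < 0 := by
  have : (0 : ℝ) ≤ k := k.cast_nonneg
  simp
  linarith

theorem kato_x4 {σ : ℝ} (hσ : 0 < σ) (τ : ℝ) (k : ℕ) : (k : ℂ) + σ + τ * I ≠ 0 := fun h => by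
  have := kato_x3 hσ τ k
  rw [h] at this
  simp at this

/-- `1 / (k + λ) = ∫ u in Ioi 0, exp (-λ u) * exp (-k u)` (`integral_exp_mul_complex_Ioi`) -/
theorem res_small {σ : ℝ} (hσ : 0 < σ) (τ : ℝ) :
    CMu X (fun k => 1 / ((k : ℂ) + σ + τ * I)) (1 / σ) := by
  have h := CMu.integral (X := X) (ρ := volume.restrict (Set.Ioi 0))
    (m := fun u k => exp (-((k : ℂ) + σ + τ * I) * u)) (B := fun u => Real.exp (-σ * u))
    ((ae_restrict_mem measurableSet_Ioi).mono fun u hu => kato_x2 σ τ (le_of_lt hu))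
    (fun k => integrableOn_exp_mul_complex_Ioi (kato_x3 hσ τ k) 0)
    (integrableOn_exp_mul_Ioi (neg_neg_of_pos hσ) 0)
  refine (h.congr fun k => ?_).mono (le_of_eq ?_)
  · rw [integral_exp_mul_complex_Ioi (kato_x3 hσ τ k), neg_div_neg_eq]
    simp
  · rw [integral_exp_mul_Ioi (neg_neg_of_pos hσ), neg_div_neg_eq]
    simp

/-- With `t = π / |τ|` one has `exp (-τ t I) = -1`, so
`1 / (k + λ) = (∫ u in Ioc 0 t, exp (-λ u) * exp (-k u)) * (1 / (1 + exp (-σ t) * exp (-t) ^ k))`. -/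
theorem res_large
    (h : ∀ x c : ℝ, 0 ≤ x → x ≤ 1 → 0 ≤ c → c ≤ 1 → Mu X (fun k => 1 / (1 + c * x ^ k)) V)
    {σ τ : ℝ} (hσ : 0 < σ) (hτ : τ ≠ 0) :
    CMu X (fun k => 1 / ((k : ℂ) + σ + τ * I)) (Real.pi / |τ| * V) := by
  obtain ⟨t, ht⟩ : ∃ t, t = Real.pi / |τ| := ⟨_, rfl⟩
  have t0 : 0 < t := ht ▸ div_pos Real.pi_pos (abs_pos.2 hτ)
  have h1 := CMu.integral (X := X) (ρ := volume.restrict (Set.Ioc 0 t))
    (m := fun u k => exp (-((k : ℂ) + σ + τ * I) * u)) (B := fun _ => 1)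
    ((ae_restrict_mem measurableSet_Ioc).mono fun u hu => (kato_x2 σ τ hu.1.le).mono
      (Real.exp_le_one_iff.2 (by nlinarith [hu.1])))
    (fun k => (Continuous.integrableOn_Icc (by fun_prop)).mono_set Set.Ioc_subset_Icc_self)
    (by simp)
  have h2 := h (Real.exp (-t)) (Real.exp (-σ * t)) (Real.exp_pos _).le
    (Real.exp_le_one_iff.2 (by linarith)) (Real.exp_pos _).le
    (Real.exp_le_one_iff.2 (by nlinarith))
  have e1 : exp (-(τ * I) * t) = -1 := by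
    rcases lt_or_gt_of_ne hτ with c | c
    · rw [← exp_pi_mul_I, ht, abs_of_neg c]
      congr 1
      have : (τ : ℂ) ≠ 0 := ofReal_ne_zero.2 hτ
      push_cast
      field_simp
    · rw [← exp_neg_pi_mul_I, ht, abs_of_pos c]
      congr 1
      have : (τ : ℂ) ≠ 0 := ofReal_ne_zero.2 hτ
      push_cast
      field_simp
  refine ((h1.rmul h2).congr fun k => ?_).mono (le_of_eq ?_)
  · have e2 : exp (-((k : ℂ) + σ + τ * I) * t) =
        -((Real.exp (-σ * t) * Real.exp (-t) ^ k : ℝ) : ℂ) := by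
      rw [← Real.exp_nat_mul, ← Real.exp_add, ofReal_exp, ← mul_neg_one (exp _), ← e1,
        ← exp_add]
      congr 1
      push_cast
      ring
    have e3 : ((1 + Real.exp (-σ * t) * Real.exp (-t) ^ k : ℝ) : ℂ) ≠ 0 :=
      ofReal_ne_zero.2 (by positivity)
    have e4 := kato_x4 hσ τ k
    rw [← intervalIntegral.integral_of_le t0.le, integral_exp_mul_complex (neg_ne_zero.2 e4), e2,
      ofReal_div, ofReal_zero, mul_zero, exp_zero]
    rw [ofReal_add, ofReal_one] at e3 ⊢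
    generalize ((Real.exp (-σ * t) * Real.exp (-t) ^ k : ℝ) : ℂ) = y at e3 ⊢
    field_simp
    ring
  · rw [← ht]
    simp [t0.le]

/-- `k / (k + λ) ^ 3 = r ^ 2 - λ r ^ 3` with `r = 1 / (k + λ)` bounded by `M / max σ |τ|` -/
theorem res_cube
    (h : ∀ x c : ℝ, 0 ≤ x → x ≤ 1 → 0 ≤ c → c ≤ 1 → Mu X (fun k => 1 / (1 + c * x ^ k)) V) :
    ∃ M : ℝ, 0 ≤ M ∧ ∀ σ τ : ℝ, 0 < σ →
      CMu X (fun k => k / ((k : ℂ) + σ + τ * I) ^ 3) (M / (σ ^ 2 + τ ^ 2)) := by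
  have V0 : 0 ≤ V := (h 0 0 le_rfl zero_le_one le_rfl zero_le_one).nonneg
  obtain ⟨A, hA⟩ : ∃ A, A = 2 + 2 * (Real.pi * V) := ⟨_, rfl⟩
  have p0 : 0 ≤ Real.pi * V := mul_nonneg Real.pi_pos.le V0
  have A0 : 0 ≤ A := by linarith
  refine ⟨2 * A ^ 2 + 8 * A ^ 3, by positivity, fun σ τ hσ => ?_⟩
  obtain ⟨r, hr⟩ : ∃ r, r = ‖(σ : ℂ) + τ * I‖ := ⟨_, rfl⟩
  have r2 : r ^ 2 = σ ^ 2 + τ ^ 2 := by rw [hr, Complex.sq_norm, normSq_add_mul_I]
  have r0 : 0 < r := by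
    rw [hr]
    simpa using kato_x4 hσ τ 0
  have r1 : r ≤ σ + |τ| := by
    rw [hr]
    refine (norm_add_le _ _).trans (le_of_eq ?_)
    simp [abs_of_pos hσ]
  have h1 : CMu X (fun k => 1 / ((k : ℂ) + σ + τ * I)) (A / r) := by
    rcases le_or_gt |τ| σ with c | c
    · refine (res_small hσ τ).mono ?_
      rw [div_le_div_iff₀ hσ r0]
      nlinarith
    · have c1 : 0 < |τ| := hσ.trans c
      refine (res_large h hσ (abs_pos.1 c1)).mono ?_
      rw [div_mul_eq_mul_div, div_le_div_iff₀ c1 r0]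
      nlinarith
  refine (((h1.mul h1).sub (((h1.mul h1).mul h1).smul (σ + τ * I))).congr fun k => ?_).mono
    (le_of_eq ?_)
  · have e4 := kato_x4 hσ τ k
    field_simp
    ring
  · rw [← hr, ← r2]
    field_simp
    ring

end Vale.Agent.P111
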