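import Vale.Agent.P111.Gate
import Vale.Agent.P111.Core

/-! The key inequality between Walsh norms of different lengths. -/

noncomputable section

namespace Vale.Agent.P111

open Finset Matrix

universe u v

/-- Homogenisation by common random shifts: on `Ω = (κ → F2) × (κ → F2)` put
`F a (s, s') = sg (a ⬝ᵥ s') • f (a + s)` and `G b (s, s') = sg (s ⬝ᵥ b + s ⬝ᵥ s') • g (b + s')`. -/
theorem homog {X W : Type*} [AddCommGroup X] [Module ℝ X] [AddCommGroup W] [Module ℝ W]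
    (β : X →ₗ[ℝ] W →ₗ[ℝ] ℝ) {qX : X → ℝ} {qW : W → ℝ} (hX : Qd qX) (hW : Qd qW) {κ : Type}
    [Fintype κ] [DecidableEq κ] (f : (κ → F2) → X) (g : (κ → F2) → W) :
    ∃ (F : (κ → F2) → (κ → F2) × (κ → F2) → X) (G : (κ → F2) → (κ → F2) × (κ → F2) → W),
      (∀ a, qa qX (F a) = av fun a => qX (f a)) ∧ (∀ b, qa qW (G b) = av fun b => qW (g b)) ∧
      ∀ a b, dg _ β (F a) (G b) =
        (av fun a => av fun b => sg (a ⬝ᵥ b) * β (f a) (g b)) * sg (a ⬝ᵥ b) := by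
  refine ⟨fun a ω => sg (a ⬝ᵥ ω.2) • f (a + ω.1),
    fun b ω => sg (ω.1 ⬝ᵥ b + ω.1 ⬝ᵥ ω.2) • g (b + ω.2), fun a => ?_, fun b => ?_, fun a b => ?_⟩
  · simp only [qa, hX.sg]
    rw [av_prod]
    simp only [av_const, add_comm a]
    exact av_shift a fun s => qX (f s)
  · simp only [qa, hW.sg]
    rw [av_prod]
    simp only [add_comm b]
    rw [av_const]
    exact av_shift b fun s => qW (g s)
  · rw [dg_apply, av_prod, ← av_shift a fun s => av fun t => sg (s ⬝ᵥ t) * β (f s) (g t),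
      ← av_mul_right]
    refine av_congr fun s => ?_
    rw [← av_shift b fun t => sg ((s + a) ⬝ᵥ t) * β (f (s + a)) (g t), ← av_mul_right]
    refine av_congr fun t => ?_
    simp only [map_smul, LinearMap.smul_apply, smul_eq_mul, add_dotProduct, dotProduct_add,
      sg_add, add_comm a s, add_comm b t]
    linear_combination (-(sg (s ⬝ᵥ t) * sg (a ⬝ᵥ t) * sg (s ⬝ᵥ b) * β (f (s + a)) (g (t + b)))) *
      sg_mul_self (a ⬝ᵥ b)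

theorem key_arith {τ ρ n m K C φ0 φ1 Q : ℝ} (hρ : 0 < ρ) (hρ1 : ρ ≤ 1) (hn : 0 < n) (hm : 0 ≤ m)
    (hK : 0 < K) (hC : 1 ≤ C) (h0 : 0 ≤ φ0) (h1 : 0 ≤ φ1) (hQ : 0 ≤ Q)
    (h : τ * ρ * n ^ 2 ≤ K * (φ0 * (C * (n * ρ ^ 2)) ^ 2 * Q + n * (φ0 * (C * (n * ρ ^ 2)) * Q)) +
      K * m * (φ1 * (C * (n * ρ ^ 2)) ^ 2 * Q)) :
    τ ≤ (4 * K * C ^ 2 * ρ * φ0 + 4 * K * C ^ 2 * m * φ1) * Q / 2 := by
  have h2 : τ ≤ K * φ0 * Q * (C ^ 2 * ρ ^ 3 + C * ρ) + K * m * φ1 * Q * (C ^ 2 * ρ ^ 3) := by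
    refine le_of_mul_le_mul_right ?_ (show 0 < ρ * n ^ 2 by positivity)
    calc τ * (ρ * n ^ 2) = τ * ρ * n ^ 2 := by ring
      _ ≤ _ := h
      _ = _ := by ring
  have h3 : ρ ^ 3 ≤ ρ := pow_le_of_le_one hρ.le hρ1 (by norm_num)
  have h4 : C ≤ C ^ 2 := by nlinarith
  have h5 : C ^ 2 * ρ ^ 3 ≤ C ^ 2 * ρ := mul_le_mul_of_nonneg_left h3 (sq_nonneg C)
  have h6 : C * ρ ≤ C ^ 2 * ρ := mul_le_mul_of_nonneg_right h4 hρ.le
  have h7 : C ^ 2 * ρ ≤ C ^ 2 := mul_le_of_le_one_right (sq_nonneg C) hρ1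
  have h8 := mul_le_mul_of_nonneg_left (add_le_add h5 h6) (show 0 ≤ K * φ0 * Q by positivity)
  have h9 := mul_le_mul_of_nonneg_left (show C ^ 2 * ρ ^ 3 ≤ 2 * C ^ 2 by nlinarith [sq_nonneg C])
    (show 0 ≤ K * m * φ1 * Q by positivity)
  nlinarith

/-- `homog`, then `gate` for `dg β` with `F i x a = F' (Sum.elim (Sum.elim (Pi.single i 1) x) a)`,
`G j y b = G' (Sum.elim (Sum.elim y (Pi.single j 1)) b)`, `Q` the sum of the two means, then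
`core` with `ρ = N ^ (-θ / 2)` and `a₀ = ⌈4 / θ⌉₊`. -/
theorem key {θ : ℝ} (hθ : 0 < θ) (hθ1 : θ ≤ 1 / 2) : ∃ a : ℕ, ∀ (C : ℝ) (R : ℕ), 1 ≤ C → 2 ≤ R →
    ∃ K : ℝ, 0 < K ∧ ∀ (X : Type u) (W : Type v) [AddCommGroup X] [Module ℝ X] [AddCommGroup W]
      [Module ℝ W] (β : X →ₗ[ℝ] W →ₗ[ℝ] ℝ) (qX : X → ℝ) (qW : W → ℝ), Qd qX → Qd qW →
      Lift qX C θ → Lift qW C θ → ∀ (N : ℕ) (ι : Type) [Fintype ι] [DecidableEq ι] (φ0 φ1 : ℝ),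
      1 ≤ N → 0 ≤ φ0 → 0 ≤ φ1 → Base β qX qW φ0 → Wal β qX qW (Fin R × ι) φ1 →
      Wal β qX qW ((Fin N ⊕ Fin N) ⊕ ι)
        (K * (N : ℝ) ^ (-(θ / 2)) * φ0 + K * (N : ℝ) ^ a * φ1) := by
  have ha : (4 : ℝ) / θ ≤ ⌈4 / θ⌉₊ := Nat.le_ceil _
  have ha4 : (4 : ℝ) ≤ ⌈4 / θ⌉₊ * θ := (div_le_iff₀ hθ).1 ha
  have ha2 : 2 ≤ ⌈4 / θ⌉₊ := by
    have h1 : (2 : ℝ) ≤ ⌈4 / θ⌉₊ := by nlinarith [Nat.cast_nonneg (α := ℝ) ⌈4 / θ⌉₊]
    exact_mod_cast h1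
  refine ⟨⌈4 / θ⌉₊ + 2, fun C R hC hR => ?_⟩
  obtain ⟨K, hK, hcore⟩ := core ha2 hR
  refine ⟨4 * K * C ^ 2, by positivity, ?_⟩
  intro X W _ _ _ _ β qX qW hX hW hLX hLW N ι _ _ φ0 φ1 hN h0 h1 hb hw f g
  obtain ⟨F, G, hF, hG, hFG⟩ := homog β hX hW f g
  have hQ1 : 0 ≤ av fun a => qX (f a) := av_nonneg fun a => hX.nonneg _
  have hQ2 : 0 ≤ av fun b => qW (g b) := av_nonneg fun b => hW.nonneg _
  obtain ⟨B, b0, b1, b2, b3, b4⟩ := gate (R := R) (C := C) (θ := θ) (φ0 := φ0) (φ1 := φ1)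
    (Q := (av fun a => qX (f a)) + av fun b => qW (g b))
    (τ := av fun a => av fun b => sg (a ⬝ᵥ b) * β (f a) (g b)) hX.qa hW.qa hN (by linarith)
    hLX.qa hLW.qa h0 h1 hb.dg hw.dg
    (fun i x a => F (Sum.elim (Sum.elim (Pi.single i 1) x) a))
    (fun j y b => G (Sum.elim (Sum.elim y (Pi.single j 1)) b))
    (fun i x a => by rw [hF]; linarith) (fun j y b => by rw [hG]; linarith)
    (fun i j x y a b => by
      rw [hFG, sumElim_dotProduct_sumElim, sumElim_dotProduct_sumElim, single_dotProduct,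
        dotProduct_single, one_mul, mul_one, add_comm (y i)])
  have hN1 : (1 : ℝ) ≤ N := by exact_mod_cast hN
  have hN0 : (0 : ℝ) < N := by linarith
  have hρ : 0 < (N : ℝ) ^ (-(θ / 2)) := Real.rpow_pos_of_pos hN0 _
  have hρ1 : (N : ℝ) ^ (-(θ / 2)) ≤ 1 := Real.rpow_le_one_of_one_le_of_nonpos hN1 (by linarith)
  have hρa : ((N : ℝ) ^ (-(θ / 2))) ^ ⌈4 / θ⌉₊ ≤ 1 / (N : ℝ) ^ 2 := by
    rw [← Real.rpow_natCast, ← Real.rpow_mul hN0.le, one_div, ← Real.rpow_natCast,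
      ← Real.rpow_neg hN0.le]
    refine Real.rpow_le_rpow_of_exponent_le hN1 ?_
    push_cast
    linarith
  have e : (N : ℝ) ^ (1 - θ) = N * ((N : ℝ) ^ (-(θ / 2))) ^ 2 := by
    rw [← Real.rpow_natCast, ← Real.rpow_mul hN0.le, sub_eq_add_neg, Real.rpow_add hN0,
      Real.rpow_one]
    congr 2
    push_cast
    ring
  have h2 := hcore N B _ _ _ _ _ hN hρ.le hρ1 hρa b0 b1 b2 b3 b4
  rw [e] at h2
  exact key_arith hρ hρ1 hN0 (by positivity) hK hC h0 h1 (add_nonneg hQ1 hQ2) h2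

end Vale.Agent.P111
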