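import Vale.Agent.P111.Four

/-! Basic multipliers: parities of rows and columns, noise, removal of low degrees. -/

noncomputable section

namespace Vale.Agent.P111

open Finset Matrix

variable {N : ℕ}

/-- parities of the rows -/
def rI (S : Mx N) : Fin N → F2 := S *ᵥ one N

/-- parities of the columns, i.e. the sum of the rows -/
def cJ (S : Mx N) : Fin N → F2 := one N ᵥ* S

/-- the part of `B` that is odd in row `i` and even in the other rows -/
def rowP (i : Fin N) (B : Mx N → ℝ) (n : Mx N) : ℝ :=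
  av fun ζ : Fin N → F2 => sg (ζ i) * B (n + vecMulVec ζ (one N))

/-- the part of `B` that is odd in column `j` and even in the other columns -/
def colP (j : Fin N) (B : Mx N → ℝ) (n : Mx N) : ℝ :=
  av fun ζ : Fin N → F2 => sg (ζ j) * B (n + vecMulVec (one N) ζ)

/-- equal to `1` at `j = 1`, and to `0` for even `j` and for `2 ≤ j < a` -/
def kil (a j : ℕ) : ℝ :=
  (1 - (-1) ^ j) / 2 * ∏ k ∈ Ico 2 a, (2 ^ k * (1 / 2) ^ j - 1) / (2 ^ k / 2 - 1)

def kilG (a : ℕ) : ℝ := ∏ k ∈ Ico 2 a, ((2 : ℝ) ^ k + 1)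

/-- the weight `ρ ^ |S|`, counting only the rows where `E` holds -/
def bw (ρ : ℝ) (E : Fin N → Prop) [DecidablePred E] (S : Mx N) : ℝ :=
  ∏ i, if E i then ρ ^ wt (S i) else 1

theorem kill_mulVec (p z : Fin N → F2) (S : Mx N) :
    (av fun ζ : Fin N → F2 => sg (ζ ⬝ᵥ z) * ch S (vecMulVec ζ p)) =
      if S *ᵥ p = z then 1 else 0 := by
  simp only [ch, ip_vecMulVec, mul_comm (sg (_ ⬝ᵥ z)), ← sg_sub, ← dotProduct_sub]
  simp only [av_sg_dot, sub_eq_zero]

theorem kill_vecMul (p z : Fin N → F2) (S : Mx N) :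
    (av fun ζ : Fin N → F2 => sg (ζ ⬝ᵥ z) * ch S (vecMulVec p ζ)) =
      if p ᵥ* S = z then 1 else 0 := by
  simp only [ch, ip_vecMulVec, dotProduct_mulVec, dotProduct_comm (p ᵥ* S),
    mul_comm (sg (_ ⬝ᵥ z)), ← sg_sub, ← dotProduct_sub]
  simp only [av_sg_dot, sub_eq_zero]

/-- mean of `sg (ζ ⬝ᵥ z) * ch S (vecMulVec p ζ)`, `rep_av`, `av_sg_dot` -/
theorem rep_vecMul (p z : Fin N → F2) : Rep (fun S => if p ᵥ* S = z then 1 else 0) 1 := by
  exact (rep_av (fun ζ : Fin N → F2 => sg (ζ ⬝ᵥ z)) (fun ζ => vecMulVec p ζ)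
    fun _ => (abs_sg _).le).congr (kill_vecMul p z)

theorem rep_mulVec (p z : Fin N → F2) : Rep (fun S => if S *ᵥ p = z then 1 else 0) 1 := by
  exact (rep_av (fun ζ : Fin N → F2 => sg (ζ ⬝ᵥ z)) (fun ζ => vecMulVec ζ p)
    fun _ => (abs_sg _).le).congr (kill_mulVec p z)

/-- `(1 + x) / 2 * ch S 0 + (1 - x) / 2 * ch S n` -/
theorem rep_flip (n : Mx N) {x : ℝ} (hx : |x| ≤ 1) :
    Rep (fun S => if ip S n = 0 then 1 else x) 1 := by
  obtain ⟨h1, h2⟩ := abs_le.1 hx
  refine ((rep_sum ![(1 + x) / 2, (1 - x) / 2] ![0, n]).mono ?_).congr fun S => ?_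
  · rw [Fin.sum_univ_two, Matrix.cons_val_zero, Matrix.cons_val_one, Matrix.cons_val_zero,
      abs_of_nonneg (by linarith), abs_of_nonneg (by linarith)]
    linarith
  · simp only [Fin.sum_univ_two, Matrix.cons_val_zero, Matrix.cons_val_one, ch_zero]
    rw [ch, sg]
    split_ifs <;> ring

theorem kill_prod {ι : Type*} [Fintype ι] {μ : ι → Mx N → ℝ} (h : ∀ i, Rep (μ i) 1) :
    Rep (fun S => ∏ i, μ i S) 1 :=
  (Rep.prod univ (K := fun _ => 1) fun i _ => h i).mono prod_const_one.le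

theorem kill_pow {ι : Type*} [Fintype ι] {x : ℝ} (hx : |x| ≤ 1) {v : Mx N → ι → F2}
    (n : ι → Mx N) (h : ∀ S i, ip S (n i) = v S i) : Rep (fun S => x ^ wt (v S)) 1 :=
  (kill_prod fun i => rep_flip (n i) hx).congr fun S => by simp only [h, pow_wt]

/-- `pow_wt`, `Rep.prod`, `rep_flip` with `vecMulVec (Pi.single i 1) (one N)` -/
theorem rep_pow_rI {x : ℝ} (hx : |x| ≤ 1) : Rep (fun S : Mx N => x ^ wt (rI S)) 1 := by
  exact kill_pow hx (fun i => vecMulVec (Pi.single i 1) (one N)) fun S i => by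
    rw [ip_vecMulVec, single_dotProduct, one_mul, rI]

theorem rep_pow_cJ {x : ℝ} (hx : |x| ≤ 1) : Rep (fun S : Mx N => x ^ wt (cJ S)) 1 := by
  exact kill_pow hx (fun j => vecMulVec (one N) (Pi.single j 1)) fun S j => by
    rw [ip_vecMulVec, dotProduct_mulVec, dotProduct_single, mul_one, cJ]

theorem rep_bw {ρ : ℝ} (hρ : |ρ| ≤ 1) (E : Fin N → Prop) [DecidablePred E] :
    Rep (bw ρ E) 1 := by
  refine kill_prod fun i => ?_
  by_cases h : E i
  · simp only [if_pos h]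
    exact kill_pow hρ (fun j => vecMulVec (Pi.single i 1) (Pi.single j 1)) fun S j => by
      rw [ip_vecMulVec, single_dotProduct, one_mul, mulVec_single_one]
      rfl
  · simp only [if_neg h]
    exact (rep_const 1).mono abs_one.le

theorem kill_den {k : ℕ} (hk : 2 ≤ k) : (1 : ℝ) ≤ 2 ^ k / 2 - 1 := by
  have : (2 : ℝ) ^ 2 ≤ 2 ^ k := pow_le_pow_right₀ one_le_two hk
  linarith

theorem kil_one (a : ℕ) : kil a 1 = 1 := by
  rw [kil, prod_eq_one fun k hk => ?_]
  · norm_num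
  · rw [pow_one, mul_one_div, div_self (one_pos.trans_le (kill_den (mem_Ico.1 hk).1)).ne']

theorem kil_ne_zero {a j : ℕ} (h : kil a j ≠ 0) : Odd j ∧ (j = 1 ∨ a ≤ j) := by
  have ho : Odd j := Nat.not_even_iff_odd.1 fun he => h (by
    rw [kil, he.neg_one_pow, sub_self, zero_div, zero_mul])
  refine ⟨ho, by_contra fun hc => h ?_⟩
  have := ho.pos
  rw [kil, prod_eq_zero (i := j) (mem_Ico.2 (by omega)), mul_zero]
  rw [← mul_pow, mul_one_div_cancel two_ne_zero, one_pow, sub_self, zero_div]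

theorem kilG_ge (a : ℕ) : 1 ≤ kilG a := by
  exact Finset.one_le_prod fun k _ => le_add_of_nonneg_left (by positivity)

theorem kill_rep (a : ℕ) {w : Mx N → ℕ} (h : ∀ x : ℝ, |x| ≤ 1 → Rep (fun S => x ^ w S) 1) :
    Rep (fun S => kil a (w S)) (kilG a) := by
  have h1 : Rep (fun S => (1 - (-1) ^ w S) / 2) 1 :=
    ((((rep_const 1).sub (h (-1) (by simp))).smul (1 / 2)).mono (by norm_num)).congr
      fun S => by ring
  have h2 : ∀ k ∈ Ico 2 a, Rep (fun S => (2 ^ k * (1 / 2) ^ w S - 1) / (2 ^ k / 2 - 1))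
      (2 ^ k + 1) := fun k hk => by
    have h3 := kill_den (mem_Ico.1 hk).1
    refine (((((h (1 / 2) (by norm_num [abs_of_pos])).smul (2 ^ k)).sub (rep_const 1)).smul
      (2 ^ k / 2 - 1)⁻¹).mono ?_).congr fun S => (div_eq_inv_mul _ _).symm
    rw [abs_one, mul_one, abs_inv, abs_of_pos (one_pos.trans_le h3), abs_of_pos (pow_pos two_pos k)]
    exact mul_le_of_le_one_left (by positivity) (inv_le_one_of_one_le₀ h3)
  exact (h1.mul (Rep.prod _ h2)).mono (one_mul _).le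

theorem rep_kil_rI (a : ℕ) : Rep (fun S : Mx N => kil a (wt (rI S))) (kilG a) := by
  exact kill_rep a fun _ => rep_pow_rI

theorem rep_kil_cJ (a : ℕ) : Rep (fun S : Mx N => kil a (wt (cJ S))) (kilG a) := by
  exact kill_rep a fun _ => rep_pow_cJ

theorem rowP_eq (i : Fin N) (B : Mx N → ℝ) :
    rowP i B = act (fun S => if rI S = Pi.single i 1 then 1 else 0) B := by
  funext c
  have h := act_av (fun ζ : Fin N → F2 => sg (ζ ⬝ᵥ Pi.single i 1)) (fun ζ => vecMulVec ζ (one N)) B c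
  simp only [kill_mulVec] at h
  simp only [dotProduct_single, mul_one] at h
  exact h.symm

theorem colP_eq (j : Fin N) (B : Mx N → ℝ) :
    colP j B = act (fun S => if cJ S = Pi.single j 1 then 1 else 0) B := by
  funext c
  have h := act_av (fun ζ : Fin N → F2 => sg (ζ ⬝ᵥ Pi.single j 1)) (fun ζ => vecMulVec (one N) ζ) B c
  simp only [kill_vecMul] at h
  simp only [dotProduct_single, mul_one] at h
  exact h.symm

theorem kill_odd (v : Fin N → F2) : Odd (wt v) ↔ one N ⬝ᵥ v = 1 := by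
  have h : sg (one N ⬝ᵥ v) = (-1) ^ wt v := by
    rw [← sg_sum_eq]
    simp only [dotProduct, one, one_mul]
  refine ⟨fun ho => (f2_cases _).resolve_left fun h0 => ?_, fun h1 => ?_⟩
  · rw [h0, sg_zero, ho.neg_one_pow] at h
    norm_num at h
  · refine Nat.not_even_iff_odd.1 fun he => ?_
    rw [h1, sg_one, he.neg_one_pow] at h
    norm_num at h

/-- the total parity -/
theorem odd_rI_iff (S : Mx N) : Odd (wt (rI S)) ↔ one N ⬝ᵥ S *ᵥ one N = 1 := by
  exact kill_odd _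

theorem odd_cJ_iff (S : Mx N) : Odd (wt (cJ S)) ↔ one N ⬝ᵥ S *ᵥ one N = 1 := by
  rw [kill_odd, dotProduct_mulVec, dotProduct_comm, cJ]

end Vale.Agent.P111
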