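import Vale.Agent.P111.Pair

/-! Cotype gives lifts in the dual and in the predual. -/

noncomputable section

namespace Vale.Agent.P111

open Finset Matrix

variable {X : Type*} [NormedAddCommGroup X] [NormedSpace ℝ X]

theorem qd_norm : Qd fun x : X => ‖x‖ ^ 2 :=
  ⟨fun _ => sq_nonneg _, fun c x => by rw [norm_smul, mul_pow, Real.norm_eq_abs, sq_abs]⟩

/-- Hoelder: `∑ ‖y i‖ ^ 2 ≤ N ^ (1 - 2 / q) * (∑ ‖y i‖ ^ q) ^ (2 / q)`. -/
theorem cotype_two {q : ℝ} (hq : 2 ≤ q) (h : HasCotype X q) : ∃ C : ℝ, 1 ≤ C ∧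
    ∀ (N : ℕ) (y : Fin N → X), ∑ i, ‖y i‖ ^ 2 ≤ C ^ 2 * (N : ℝ) ^ (1 - 2 * (1 / q)) *
      av fun w : Fin N → F2 => ‖∑ i, sg (w i) • y i‖ ^ 2 := by
  obtain ⟨C, hC⟩ := h
  refine ⟨max C 1, le_max_right _ _, fun N y => ?_⟩
  have hq0 : 0 < q := by linarith
  have hA : 0 ≤ av fun w : Fin N → F2 => ‖∑ i, sg (w i) • y i‖ ^ 2 :=
    av_nonneg fun _ => sq_nonneg _
  have hS : 0 ≤ ∑ i, ‖y i‖ ^ q := sum_nonneg fun i _ => by positivity
  have h1 := Real.rpow_sum_le_const_mul_sum_rpow_of_nonneg (s := univ) (f := fun i => ‖y i‖ ^ 2)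
    (p := q / 2) (by linarith) fun i _ => sq_nonneg _
  have h2 : ∀ i, (‖y i‖ ^ 2) ^ (q / 2) = ‖y i‖ ^ q := fun i => by
    rw [← Real.rpow_natCast, ← Real.rpow_mul (norm_nonneg _)]
    congr 1
    push_cast
    ring
  simp only [h2, card_univ, Fintype.card_fin] at h1
  have h3 := Real.rpow_le_rpow (by positivity) h1 (z := 2 / q) (by positivity)
  rw [← Real.rpow_mul (sum_nonneg fun i _ => sq_nonneg _), Real.mul_rpow (by positivity) hS,
    ← Real.rpow_mul (Nat.cast_nonneg _), show q / 2 * (2 / q) = 1 by field_simp, Real.rpow_one,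
    show (q / 2 - 1) * (2 / q) = 1 - 2 * (1 / q) by field_simp,
    show 2 / q = 1 / q * (2 : ℕ) by push_cast; ring, Real.rpow_mul hS, Real.rpow_natCast] at h3
  have h4 := pow_le_pow_left₀ (by positivity) ((hC N y).trans
    (mul_le_mul_of_nonneg_right (le_max_left C 1) (Real.sqrt_nonneg _))) 2
  rw [mul_pow, Real.sq_sqrt hA] at h4
  refine h3.trans ((mul_le_mul_of_nonneg_left h4 (by positivity)).trans_eq ?_)
  ring

theorem lifts_near (y : StrongDual ℝ X) {t : ℝ} (ht : t < 1) :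
    ∃ x : X, ‖x‖ ≤ 1 ∧ t * ‖y‖ ≤ y x := by
  rcases (norm_nonneg y).eq_or_lt with h0 | h0
  · exact ⟨0, by simp, by simp [← h0]⟩
  · obtain ⟨x, hx, hx'⟩ := y.exists_lt_apply_of_lt_opNorm (r := t * ‖y‖) (by nlinarith)
    rcases le_total 0 (y x) with h | h
    · exact ⟨x, hx.le, by rw [Real.norm_of_nonneg h] at hx'; exact hx'.le⟩
    · refine ⟨-x, by simpa using hx.le, ?_⟩
      rw [Real.norm_of_nonpos h] at hx'
      rw [map_neg]
      exact hx'.le

/-- Test `g` on `ω ↦ ‖y ω‖ • x ω` with almost norming unit vectors `x ω`. -/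
theorem sum_sq_dual {Ω : Type} [Fintype Ω] (y : Ω → StrongDual ℝ X) {c : ℝ} (hc : 0 ≤ c)
    (h : ∀ x : Ω → X, ∑ ω, y ω (x ω) ≤ c * √(∑ ω, ‖x ω‖ ^ 2)) : ∑ ω, ‖y ω‖ ^ 2 ≤ c ^ 2 := by
  have hS : 0 ≤ ∑ ω, ‖y ω‖ ^ 2 := sum_nonneg fun _ _ => sq_nonneg _
  have h1 : ∀ t : ℝ, t < 1 → t * ∑ ω, ‖y ω‖ ^ 2 ≤ c * √(∑ ω, ‖y ω‖ ^ 2) := fun t ht => by
    choose x hx hx' using fun ω => lifts_near (y ω) ht
    calc t * ∑ ω, ‖y ω‖ ^ 2 ≤ ∑ ω, y ω (‖y ω‖ • x ω) := by
          rw [mul_sum]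
          refine sum_le_sum fun ω _ => ?_
          rw [map_smul, smul_eq_mul]
          nlinarith [mul_le_mul_of_nonneg_left (hx' ω) (norm_nonneg (y ω))]
      _ ≤ _ := h _
      _ ≤ _ := by
          refine mul_le_mul_of_nonneg_left (Real.sqrt_le_sqrt (sum_le_sum fun ω _ => ?_)) hc
          rw [norm_smul, norm_norm]
          exact pow_le_pow_left₀ (by positivity) (mul_le_of_le_one_right (norm_nonneg _) (hx ω)) 2
  have h2 : ∑ ω, ‖y ω‖ ^ 2 ≤ c * √(∑ ω, ‖y ω‖ ^ 2) := by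
    have h3 : Filter.Tendsto (fun t : ℝ => t * ∑ ω, ‖y ω‖ ^ 2) (nhdsWithin 1 (Set.Iio 1))
        (nhds (1 * ∑ ω, ‖y ω‖ ^ 2)) :=
      ((continuous_id.mul continuous_const).tendsto 1).mono_left nhdsWithin_le_nhds
    rw [one_mul] at h3
    exact le_of_tendsto h3 (eventually_nhdsWithin_of_forall h1)
  nlinarith [Real.sq_sqrt hS, sq_nonneg (√(∑ ω, ‖y ω‖ ^ 2) - c)]

theorem lifts_orth {N : ℕ} (x : Fin N → X) (i : Fin N) :
    av (fun w : Fin N → F2 => sg (w i) • ∑ j, sg (w j) • x j) = x i := by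
  have h1 : ∀ j, av (fun w : Fin N → F2 => sg (w i) * sg (w j)) = if j = i then 1 else 0 :=
    fun j => by
      split_ifs with h
      · simp only [h, sg_mul_self, av_const]
      · simp only [← sg_add]
        exact av_sg_hom (fun w : Fin N → F2 => w i + w j)
          (fun a b => by simp only [Pi.add_apply]; ring) (g := Pi.single i 1) (by simp [h])
  simp only [smul_sum, smul_smul, av_sum, av_smul_const, h1]
  simp

/-- Hahn-Banach: on the range of `x ↦ (w ↦ ∑ i, sg (w i) • x i)` in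
`PiLp 2 (fun _ : Fin N → F2 => X)` the functional `p ↦ ∑ i, y i (av fun w => sg (w i) • p w)` is
bounded; extend it (`Real.exists_extension_norm_eq`) and use `sum_sq_dual`. -/
theorem lift_dual {C θ : ℝ} (h : ∀ (N : ℕ) (x : Fin N → X), ∑ i, ‖x i‖ ^ 2 ≤
      C ^ 2 * (N : ℝ) ^ (1 - 2 * θ) * av fun w : Fin N → F2 => ‖∑ i, sg (w i) • x i‖ ^ 2) :
    Lift (fun y : StrongDual ℝ X => ‖y‖ ^ 2) C θ := by
  intro N y
  set K := C ^ 2 * (N : ℝ) ^ (1 - 2 * θ) with hKd
  have hK : 0 ≤ K := by positivity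
  have hM : (0 : ℝ) < Fintype.card (Fin N → F2) := Nat.cast_pos.2 Fintype.card_pos
  set M := (Fintype.card (Fin N → F2) : ℝ) with hMd
  have hS : 0 ≤ ∑ i, ‖y i‖ ^ 2 := sum_nonneg fun _ _ => sq_nonneg _
  let e := (PiLp.continuousLinearEquiv 2 ℝ fun _ : Fin N → F2 => X).symm
  have he : ∀ p, ‖e p‖ = √(∑ w, ‖p w‖ ^ 2) := fun p => PiLp.norm_eq_of_L2 _
  let T : (Fin N → X) →ₗ[ℝ] (Fin N → F2) → X :=
    { toFun := fun x w => ∑ i, sg (w i) • x i
      map_add' := fun x x' => by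
        ext w
        simp [sum_add_distrib]
      map_smul' := fun c x => by
        ext w
        simp [smul_sum, smul_comm c] }
  let φ : ((Fin N → F2) → X) →ₗ[ℝ] ℝ :=
    { toFun := fun p => ∑ i, y i (av fun w => sg (w i) • p w)
      map_add' := fun p p' => by
        simp only [Pi.add_apply, smul_add, av_add, map_add, sum_add_distrib]
      map_smul' := fun c p => by
        simp only [Pi.smul_apply, smul_comm _ c, av_smul, map_smul, smul_sum, RingHom.id_apply] }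
  have hφ : ∀ x, φ (T x) = ∑ i, y i (x i) := fun x => by
    change ∑ i, y i (av fun w : Fin N → F2 => sg (w i) • ∑ j, sg (w j) • x j) = _
    simp only [lifts_orth]
  set c := √(K * (∑ i, ‖y i‖ ^ 2) / M) with hc
  have hc0 : 0 ≤ c := Real.sqrt_nonneg _
  have hb : ∀ x, φ (T x) ≤ c * ‖e (T x)‖ := fun x => by
    rw [hφ, he, hc, ← Real.sqrt_mul (by positivity)]
    refine Real.le_sqrt_of_sq_le ?_
    have h1 : |∑ i, y i (x i)| ≤ ∑ i, ‖y i‖ * ‖x i‖ :=
      (abs_sum_le_sum_abs _ _).trans (sum_le_sum fun i _ => (y i).le_opNorm _)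
    have h2 := sum_mul_sq_le_sq_mul_sq univ (fun i => ‖y i‖) fun i => ‖x i‖
    have h3 := mul_le_mul_of_nonneg_left (h N x) hS
    rw [← sq_abs]
    refine (pow_le_pow_left₀ (abs_nonneg _) h1 2).trans (h2.trans (h3.trans_eq ?_))
    simp only [av, smul_eq_mul, ← hMd, ← hKd]
    change _ = _ * ∑ w : Fin N → F2, ‖∑ i, sg (w i) • x i‖ ^ 2
    ring
  obtain ⟨g, hg, hg'⟩ := exists_extension_of_le_sublinear
    ⟨LinearMap.range T, φ.domRestrict _⟩ (fun p => c * ‖e p‖)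
    (fun a ha p => by rw [map_smul, norm_smul, Real.norm_of_nonneg ha.le]; ring)
    (fun p p' => by
      rw [map_add, ← mul_add]
      exact mul_le_mul_of_nonneg_left (norm_add_le _ _) hc0)
    (by
      rintro ⟨_, x, rfl⟩
      exact hb x)
  have hg2 : ∀ p, ‖g p‖ ≤ c * ‖e p‖ := fun p => by
    have h1 := hg' (-p)
    rw [map_neg, map_neg, norm_neg] at h1
    exact abs_le.2 ⟨by linarith, hg' p⟩
  let G : (Fin N → F2) → StrongDual ℝ X := fun w =>
    (g.comp (LinearMap.single ℝ (fun _ => X) w)).mkContinuous c fun x => by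
      refine (hg2 _).trans_eq ?_
      rw [he]
      simp [Pi.single_apply, apply_ite]
  have hG : ∀ p : (Fin N → F2) → X, ∑ w, G w (p w) = g p := fun p => by
    conv_rhs => rw [← Finset.univ_sum_single p, map_sum]
    rfl
  have hG2 := sum_sq_dual G hc0 fun p => by
    rw [hG, ← he]
    exact hg' p
  refine ⟨fun w => M • G w, fun i => ?_, ?_⟩
  · ext x
    have h1 := hg ⟨T (Pi.single i x), _, rfl⟩
    have h2 : T (Pi.single i x) = fun w => sg (w i) • x := by
      ext w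
      simp [T, Pi.single_apply, apply_ite]
    have h3 : g (T (Pi.single i x)) = y i x := by
      refine h1.trans ((hφ _).trans ?_)
      simp [Pi.single_apply, apply_ite]
    rw [h2, ← hG] at h3
    rw [← h3]
    simp only [av, ← hMd, _root_.sum_apply, _root_.smul_apply, map_smul, smul_eq_mul, mul_sum]
    refine sum_congr rfl fun w _ => ?_
    field_simp
  · rw [hc, Real.sq_sqrt (by positivity), le_div_iff₀ hM] at hG2
    refine le_trans (le_of_eq ?_) hG2
    simp only [av, smul_eq_mul, ← hMd, norm_smul, mul_pow, ← mul_sum, Real.norm_of_nonneg hM.le]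
    field_simp

end Vale.Agent.P111
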