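import Vale.Agent.P111.Kato
import Vale.Agent.P111.Inv

/-! The projection on the first level is bounded. -/

noncomputable section

namespace Vale.Agent.P111

open Finset MeasureTheory Complex

variable {X : Type*} [NormedAddCommGroup X] [NormedSpace ℝ X] [CompleteSpace X] {V : ℝ}

/-- With `σ = 1 / t`: `k exp (-k t) = e / (π t ^ 2) * ∫ τ, exp (τ t I) * (k / (k + σ + τ I) ^ 3)`;
`inv_cube`, `CMu.integral`, `res_cube`, `inv_arctan`. -/
theorem ana
    (h : ∀ x c : ℝ, 0 ≤ x → x ≤ 1 → 0 ≤ c → c ≤ 1 → Mu X (fun k => 1 / (1 + c * x ^ k)) V) :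
    ∃ M : ℝ, 0 < M ∧ ∀ t : ℝ, 0 < t → Mu X (fun k => k * Real.exp (-(k * t))) (M / t) := by
  obtain ⟨M, hM, hc⟩ := res_cube h
  refine ⟨2 * Real.exp 1 * M + 1, by positivity, fun t ht => ?_⟩
  have hσ : 0 < 1 / t := by positivity
  have h1 : ∀ τ : ℝ, CMu X
      (fun k => cexp (τ * t * I) * (k / ((k : ℂ) + (1 / t : ℝ) + τ * I) ^ 3))
      (2 * M * (1 / ((1 / t) ^ 2 + τ ^ 2))) := by
    intro τ
    refine ((hc (1 / t) τ hσ).smul (cexp (τ * t * I))).mono (le_of_eq ?_)
    have e : ‖cexp (τ * t * I)‖ = 1 := by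
      have := Complex.norm_exp_ofReal_mul_I (τ * t)
      rwa [Complex.ofReal_mul] at this
    rw [e]
    ring
  have h2 : ∀ k : ℕ,
      (fun τ : ℝ => cexp (τ * t * I) * (k / ((k : ℂ) + (1 / t : ℝ) + τ * I) ^ 3)) =
      fun τ : ℝ => (k : ℂ) * (cexp (τ * t * I) / ((((k : ℝ) + 1 / t : ℝ) : ℂ) + τ * I) ^ 3) := by
    intro k
    funext τ
    rw [Complex.ofReal_add, Complex.ofReal_natCast]
    ring
  have hz : ∀ k : ℕ, 0 < (k : ℝ) + 1 / t := fun k => by positivity
  have h3 := CMu.integral (ρ := volume) (Filter.Eventually.of_forall h1)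
    (fun k => by
      rw [h2 k]
      exact (inv_integrable (hz k) t).const_mul _) ((inv_arctan hσ).1.const_mul _)
  rw [integral_const_mul, (inv_arctan hσ).2] at h3
  have h4 := h3.1.smul (Real.exp 1 / (Real.pi * t ^ 2))
  have hp := Real.pi_pos
  refine (h4.congr fun k => ?_).mono ?_
  · beta_reduce
    rw [h2 k, integral_const_mul, inv_cube (hz k) ht, ← Complex.ofReal_natCast,
      ← Complex.ofReal_mul, Complex.ofReal_re]
    have e : Real.exp (-(k * t)) = Real.exp 1 * Real.exp (-(((k : ℝ) + 1 / t) * t)) := by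
      rw [← Real.exp_add]
      congr 1
      field_simp
      ring
    rw [e]
    field_simp
  · rw [abs_of_pos (by positivity)]
    have e : Real.exp 1 / (Real.pi * t ^ 2) * (2 * M * (Real.pi / (1 / t))) =
        2 * Real.exp 1 * M / t := by
      field_simp
    rw [e]
    gcongr
    linarith

/-- `Real.hasSum_sin` at `π (k - 1)` divided by `π (k - 1)` -/
theorem sinc_sum (k : ℕ) : HasSum (fun j : ℕ => (-1) ^ j * (Real.pi * ((k : ℝ) - 1)) ^ (2 * j) /
    ((2 * j + 1).factorial : ℝ)) (if k = 1 then 1 else 0) := by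
  by_cases hk : k = 1
  · subst hk
    rw [if_pos rfl]
    have := hasSum_single (f := fun j : ℕ => (-1) ^ j * (Real.pi * (((1 : ℕ) : ℝ) - 1)) ^ (2 * j) /
      ((2 * j + 1).factorial : ℝ)) 0 (fun j hj => by simp [hj])
    simpa using this
  · rw [if_neg hk]
    have hk' : (k : ℝ) - 1 ≠ 0 := by
      intro e
      apply hk
      have : (k : ℝ) = 1 := by linarith
      exact_mod_cast this
    have hr : Real.pi * ((k : ℝ) - 1) ≠ 0 := mul_ne_zero Real.pi_ne_zero hk'
    have h1 := (Real.hasSum_sin (Real.pi * ((k : ℝ) - 1))).div_const (Real.pi * ((k : ℝ) - 1))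
    have h2 : Real.sin (Real.pi * ((k : ℝ) - 1)) = 0 := by
      have := Real.sin_int_mul_pi ((k : ℤ) - 1)
      rw [← this]
      congr 1
      push_cast
      ring
    rw [h2, zero_div] at h1
    have e : (fun j : ℕ => (-1) ^ j * (Real.pi * ((k : ℝ) - 1)) ^ (2 * j) /
        ((2 * j + 1).factorial : ℝ)) = fun j : ℕ => (-1) ^ j * (Real.pi * ((k : ℝ) - 1)) ^
          (2 * j + 1) / ((2 * j + 1).factorial : ℝ) / (Real.pi * ((k : ℝ) - 1)) := by
      funext j
      generalize Real.pi * ((k : ℝ) - 1) = r at hr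
      rw [pow_succ]
      field_simp
    rw [e]
    exact h1

/-- The bound (a l + 1) ^ l ≤ 2 ^ l ((a l) ^ l + 1) and `l ^ l / l! ≤ exp l` -/
theorem sinc_summable {a : ℝ} (h0 : 0 ≤ a) (ha : a ≤ 1 / 40) : Summable fun j : ℕ =>
    Real.pi ^ (2 * j) / ((2 * j + 1).factorial : ℝ) * (a * (2 * j : ℕ) + 1) ^ (2 * j) := by
  have hp := Real.pi_pos
  have hq0 : 0 ≤ 2 * Real.pi * a * Real.exp 1 := by positivity
  have hq1 : 2 * Real.pi * a * Real.exp 1 < 1 := by
    have h1 : Real.pi ≤ 4 := Real.pi_le_four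
    have h2 : Real.exp 1 ≤ 3 := by
      have := Real.exp_one_lt_d9
      linarith
    calc 2 * Real.pi * a * Real.exp 1 ≤ 2 * 4 * (1 / 40) * 3 := by gcongr
      _ < 1 := by norm_num
  have hg : Summable fun l : ℕ => (2 * Real.pi * a * Real.exp 1) ^ l +
      (2 * Real.pi) ^ l / (l.factorial : ℝ) :=
    (summable_geometric_of_lt_one hq0 hq1).add (Real.summable_pow_div_factorial _)
  have hg2 := hg.comp_injective (i := fun j : ℕ => 2 * j)
    (fun x y e => by simpa using e)
  refine Summable.of_nonneg_of_le (fun j => by positivity) (fun j => ?_) hg2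
  simp only [Function.comp_apply]
  generalize 2 * j = l
  have hf : (0 : ℝ) < l.factorial := by exact_mod_cast l.factorial_pos
  have hf' : (l.factorial : ℝ) ≤ (l + 1).factorial := by
    exact_mod_cast Nat.factorial_le (Nat.le_succ l)
  have h1 : (a * l + 1) ^ l ≤ 2 ^ l * ((a * l) ^ l + 1) := by
    have := add_pow_le (a := a * l) (b := 1) (by positivity) zero_le_one l
    rw [one_pow] at this
    refine this.trans ?_
    gcongr
    · norm_num
    · exact Nat.sub_le _ _
  have h2 : (l : ℝ) ^ l / l.factorial ≤ Real.exp 1 ^ l := by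
    have := Real.pow_div_factorial_le_exp (l : ℝ) (by positivity) l
    rwa [← Real.exp_one_pow] at this
  calc Real.pi ^ l / ((l + 1).factorial : ℝ) * (a * l + 1) ^ l
      ≤ Real.pi ^ l / (l.factorial : ℝ) * (2 ^ l * ((a * l) ^ l + 1)) := by gcongr
    _ = (2 * Real.pi * a) ^ l * ((l : ℝ) ^ l / l.factorial) +
        (2 * Real.pi) ^ l / (l.factorial : ℝ) := by
      simp only [mul_pow]
      field_simp
    _ ≤ (2 * Real.pi * a) ^ l * Real.exp 1 ^ l + (2 * Real.pi) ^ l / (l.factorial : ℝ) := by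
      gcongr
    _ = _ := by rw [← mul_pow]

omit [CompleteSpace X] in
/-- Here (k - 1) ^ l exp (-k t) = ((k - 1) exp (-k t / l)) ^ l is bounded by (M l / t + 1) ^ l;
take `t = 40 M`, sum the series (`Mu.hasSum`) and multiply by `exp t`. -/
theorem proj_one {M : ℝ} (hM : 0 < M)
    (h : ∀ t : ℝ, 0 < t → Mu X (fun k => k * Real.exp (-(k * t))) (M / t)) :
    ∃ K : ℝ, Mu X (fun k => if k = 1 then 1 else 0) K := by
  have ht : 0 < 40 * M := by positivity
  have h1 : ∀ l : ℕ, Mu X (fun k => ((k : ℝ) - 1) ^ l * Real.exp (-(k * (40 * M))))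
      ((1 / 40 * (l : ℝ) + 1) ^ l) := by
    intro l
    rcases Nat.eq_zero_or_pos l with rfl | hl
    · rw [pow_zero]
      exact (mu_exp ht.le).congr fun k => by rw [pow_zero, one_mul]
    · have hl' : (0 : ℝ) < l := by exact_mod_cast hl
      have hs : 0 < 40 * M / l := by positivity
      have h2 := ((h _ hs).sub (mu_exp hs.le)).pow l
      have e : M / (40 * M / l) = 1 / 40 * (l : ℝ) := by field_simp
      rw [e] at h2
      refine h2.congr fun k => ?_
      have e2 : Real.exp (-(k * (40 * M))) = Real.exp (-(k * (40 * M / l))) ^ l := by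
        rw [← Real.exp_nat_mul]
        congr 1
        field_simp
      rw [e2, ← mul_pow]
      congr 1
      ring
  have hB := (sinc_summable (a := 1 / 40) (by norm_num) le_rfl).hasSum
  have h3 := Mu.hasSum (X := X)
    (m := fun j k => (-1) ^ j * (Real.pi * ((k : ℝ) - 1)) ^ (2 * j) /
      ((2 * j + 1).factorial : ℝ) * Real.exp (-(k * (40 * M))))
    (μ := fun k => (if k = 1 then 1 else 0) * Real.exp (-(k * (40 * M)))) (fun j => ?_)
    (fun k => (sinc_sum k).mul_right _) hB
  · refine ⟨_, (h3.smul (Real.exp (40 * M))).congr fun k => ?_⟩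
    by_cases hk : k = 1
    · subst hk
      rw [if_pos rfl, one_mul, ← Real.exp_add]
      simp
    · simp [hk]
  · have h4 := (h1 (2 * j)).smul ((-1) ^ j * Real.pi ^ (2 * j) / ((2 * j + 1).factorial : ℝ))
    refine (h4.congr fun k => ?_).mono (le_of_eq ?_)
    · rw [mul_pow]
      ring
    · have hp := Real.pi_pos
      rw [abs_div, abs_mul, abs_pow, abs_neg, abs_one, one_pow, one_mul,
        abs_of_pos (by positivity), abs_of_nonneg (by positivity)]

end Vale.Agent.P111
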