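import Vale.Agent.P111.Wdec
import Vale.Agent.P111.Proj

/-! The cotype-cotype theorem. -/

namespace Vale.Agent.P111

theorem main {X : Type*} [NormedAddCommGroup X] [NormedSpace ℝ X] [CompleteSpace X] {q r : ℝ}
    (hq : 2 ≤ q) (hr : 2 ≤ r) (hB : HasBAP X) (h1 : HasCotype X q)
    (h2 : HasCotype (StrongDual ℝ X) r) : KConvex X := by
  obtain ⟨m, hm⟩ := wal_id hq hr hB h1 h2
  obtain ⟨M, hM, h⟩ := ana (X := X) (V := 2 * m) fun x c a1 a2 a3 a4 =>
    wdec_inv (fun x b1 b2 => wdec_pow hm b1 b2) a1 a2 a3 a4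
  obtain ⟨K, hK⟩ := proj_one hM h
  exact kconvex_of_mu hK

end Vale.Agent.P111
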