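import Vale.Agent.P111.Basic

/-! Bilinear pairings, lifts and Walsh bounds. -/

noncomputable section

namespace Vale.Agent.P111

open Finset Matrix

variable {X W : Type*} [AddCommGroup X] [Module ℝ X] [AddCommGroup W] [Module ℝ W]

/-- a nonnegative function homogeneous of degree two (a squared norm) -/
structure Qd (q : X → ℝ) : Prop where
  nonneg : ∀ x, 0 ≤ q x
  smul : ∀ (c : ℝ) (x : X), q (c • x) = c ^ 2 * q x

/-- the dual form of cotype `1 / θ` -/
def Lift (q : X → ℝ) (C θ : ℝ) : Prop :=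
  ∀ (N : ℕ) (x : Fin N → X), ∃ p : (Fin N → F2) → X,
    (∀ i, av (fun w => sg (w i) • p w) = x i) ∧
      av (fun w => q (p w)) ≤ C ^ 2 * (N : ℝ) ^ (1 - 2 * θ) * ∑ i, q (x i)

def Base (β : X →ₗ[ℝ] W →ₗ[ℝ] ℝ) (qX : X → ℝ) (qW : W → ℝ) (φ : ℝ) : Prop :=
  ∀ x w, |β x w| ≤ φ * (qX x + qW w) / 2

/-- the Walsh kernel on `ι → F2` tensored with `β` has norm at most `φ` -/
def Wal (β : X →ₗ[ℝ] W →ₗ[ℝ] ℝ) (qX : X → ℝ) (qW : W → ℝ) (ι : Type) [Fintype ι]
    [DecidableEq ι] (φ : ℝ) : Prop :=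
  ∀ (f : (ι → F2) → X) (g : (ι → F2) → W),
    |av fun a => av fun b => sg (a ⬝ᵥ b) * β (f a) (g b)| ≤
      φ * (av (fun a => qX (f a)) + av fun b => qW (g b)) / 2

/-- the mean of `q` -/
def qa {Ω : Type} [Fintype Ω] (q : X → ℝ) (f : Ω → X) : ℝ := av fun ω => q (f ω)

/-- amplification of `β` by a kernel -/
def amp {Ω : Type} [Fintype Ω] (k : Ω → Ω → ℝ) (β : X →ₗ[ℝ] W →ₗ[ℝ] ℝ) :
    (Ω → X) →ₗ[ℝ] (Ω → W) →ₗ[ℝ] ℝ :=
  LinearMap.mk₂ ℝ (fun f g => av fun a => av fun b => k a b * β (f a) (g b))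
    (fun f f' g => by simp only [Pi.add_apply, map_add, LinearMap.add_apply, mul_add, av_add])
    (fun c f g => by
      simp only [Pi.smul_apply, map_smul, LinearMap.smul_apply, smul_eq_mul, mul_left_comm _ c,
        av_mul_left])
    (fun f g g' => by simp only [Pi.add_apply, map_add, mul_add, av_add])
    (fun c f g => by
      simp only [Pi.smul_apply, map_smul, smul_eq_mul, mul_left_comm _ c, av_mul_left])

theorem amp_apply {Ω : Type} [Fintype Ω] (k : Ω → Ω → ℝ) (β : X →ₗ[ℝ] W →ₗ[ℝ] ℝ) (f : Ω → X)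
    (g : Ω → W) : amp k β f g = av fun a => av fun b => k a b * β (f a) (g b) := rfl

/-- diagonal amplification: common randomness -/
def dg (Ω : Type) [Fintype Ω] (β : X →ₗ[ℝ] W →ₗ[ℝ] ℝ) : (Ω → X) →ₗ[ℝ] (Ω → W) →ₗ[ℝ] ℝ :=
  LinearMap.mk₂ ℝ (fun f g => av fun a => β (f a) (g a))
    (fun f f' g => by simp only [Pi.add_apply, map_add, LinearMap.add_apply, av_add])
    (fun c f g => by
      simp only [Pi.smul_apply, map_smul, LinearMap.smul_apply, smul_eq_mul, av_mul_left])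
    (fun f g g' => by simp only [Pi.add_apply, map_add, av_add])
    (fun c f g => by simp only [Pi.smul_apply, map_smul, smul_eq_mul, av_mul_left])

theorem dg_apply (Ω : Type) [Fintype Ω] (β : X →ₗ[ℝ] W →ₗ[ℝ] ℝ) (f : Ω → X) (g : Ω → W) :
    dg Ω β f g = av fun a => β (f a) (g a) := rfl

/-- the Walsh amplification -/
def wamp (ι : Type) [Fintype ι] [DecidableEq ι] (β : X →ₗ[ℝ] W →ₗ[ℝ] ℝ) :
    ((ι → F2) → X) →ₗ[ℝ] ((ι → F2) → W) →ₗ[ℝ] ℝ := amp (fun a b => sg (a ⬝ᵥ b)) β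

variable {β : X →ₗ[ℝ] W →ₗ[ℝ] ℝ} {qX : X → ℝ} {qW : W → ℝ} {φ : ℝ}
  {ι κ : Type} [Fintype ι] [DecidableEq ι] [Fintype κ] [DecidableEq κ]

theorem Qd.qa {Ω : Type} [Fintype Ω] (h : Qd qX) : Qd (qa (Ω := Ω) qX) := by
  refine ⟨fun f => av_nonneg fun ω => h.nonneg _, fun c f => ?_⟩
  simp only [P111.qa, Pi.smul_apply, h.smul, av_mul_left]

theorem Qd.sg (h : Qd qX) (c : F2) (x : X) : qX (sg c • x) = qX x := by
  rw [h.smul, sg_sq, one_mul]

/-- lift pointwise -/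
theorem Lift.qa {Ω : Type} [Fintype Ω] {C θ : ℝ} (h : Lift qX C θ) :
    Lift (qa (Ω := Ω) qX) C θ := by
  intro N x
  choose p hp hp' using fun ω => h N fun i => x i ω
  refine ⟨fun w ω => p ω w, fun i => funext fun ω => ?_, ?_⟩
  · rw [av_apply]
    exact hp ω i
  · simp only [P111.qa]
    rw [av_comm, ← av_sum, ← av_mul_left]
    exact av_mono hp'

theorem Lift.mono {C C' θ θ' : ℝ} (hq : Qd qX) (h : Lift qX C θ) (h0 : 0 ≤ C) (hC : C ≤ C')
    (hθ : θ' ≤ θ) (hθ1 : θ ≤ 1 / 2) : Lift qX C' θ' := by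
  intro N x
  obtain ⟨p, hp, hp'⟩ := h N x
  refine ⟨p, hp, hp'.trans ?_⟩
  rcases Nat.eq_zero_or_pos N with rfl | hN
  · simp
  refine mul_le_mul_of_nonneg_right (mul_le_mul (pow_le_pow_left₀ h0 hC 2)
    (Real.rpow_le_rpow_of_exponent_le (Nat.one_le_cast.2 hN) (by linarith)) (by positivity)
    (sq_nonneg _)) (sum_nonneg fun i _ => hq.nonneg _)

/-- scale `x` by `√t` and `w` by `1 / √t` -/
theorem Base.scale (hX : Qd qX) (hW : Qd qW) (h : Base β qX qW φ) {t : ℝ} (ht : 0 < t) (x : X)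
    (w : W) : |β x w| ≤ φ * (t * qX x + qW w / t) / 2 := by
  have h0 := Real.sqrt_pos.2 ht
  have h1 := h (√t • x) ((√t)⁻¹ • w)
  rw [hX.smul, hW.smul, inv_pow, Real.sq_sqrt ht.le, map_smul, map_smul, LinearMap.smul_apply,
    smul_smul, inv_mul_cancel₀ h0.ne', one_smul, inv_mul_eq_div] at h1
  exact h1

theorem Base.dg {Ω : Type} [Fintype Ω] (h : Base β qX qW φ) :
    Base (dg Ω β) (qa qX) (qa qW) φ := by
  intro f g
  refine (abs_av_le_of fun a => h (f a) (g a)).trans_eq ?_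
  simp only [qa, div_eq_mul_inv, av_mul_right, av_mul_left, av_add]

theorem Wal.dg {Ω : Type} [Fintype Ω] (h : Wal β qX qW ι φ) :
    Wal (dg Ω β) (qa qX) (qa qW) ι φ := by
  intro f g
  have e : (av fun a => av fun b => sg (a ⬝ᵥ b) * P111.dg Ω β (f a) (g b)) =
      av fun ω => av fun a => av fun b => sg (a ⬝ᵥ b) * β (f a ω) (g b ω) := by
    simp only [dg_apply, ← av_mul_left]
    rw [av_comm (Ω := Ω)]
    exact av_congr fun a => av_comm _
  rw [e]
  refine (abs_av_le_of fun ω => h (fun a => f a ω) fun b => g b ω).trans_eq ?_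
  simp only [qa, div_eq_mul_inv, av_mul_right, av_mul_left, av_add]
  rw [av_comm (Ω := Ω), av_comm (Ω := Ω)]

theorem wal_iff_base : Wal β qX qW ι φ ↔ Base (wamp ι β) (qa qX) (qa qW) φ := Iff.rfl

theorem Wal.mono (hX : Qd qX) (hW : Qd qW) (h : Wal β qX qW ι φ) {φ' : ℝ} (hφ : φ ≤ φ') :
    Wal β qX qW ι φ' := by
  intro f g
  refine (h f g).trans (div_le_div_of_nonneg_right (mul_le_mul_of_nonneg_right hφ
    (add_nonneg (av_nonneg fun _ => hX.nonneg _) (av_nonneg fun _ => hW.nonneg _))) zero_le_two)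

theorem Wal.equiv (e : ι ≃ κ) (h : Wal β qX qW ι φ) : Wal β qX qW κ φ := by
  intro f g
  have h1 := h (fun a => f (e.arrowCongr (Equiv.refl F2) a))
    fun b => g (e.arrowCongr (Equiv.refl F2) b)
  rw [av_equiv (e.arrowCongr (Equiv.refl F2)) fun a => qX (f a),
    av_equiv (e.arrowCongr (Equiv.refl F2)) fun b => qW (g b)] at h1
  rw [← av_equiv (e.arrowCongr (Equiv.refl F2))]
  refine le_of_eq_of_le (congrArg _ (av_congr fun a => ?_)) h1
  rw [← av_equiv (e.arrowCongr (Equiv.refl F2))]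
  refine av_congr fun b => ?_
  rw [show e.arrowCongr (Equiv.refl F2) a ⬝ᵥ e.arrowCongr (Equiv.refl F2) b = a ⬝ᵥ b from
    e.symm.sum_comp fun i => a i * b i]

/-- `Equiv.sumArrowEquivProdArrow`, `av_prod`, `av_comm` -/
theorem wal_sum_iff :
    Wal β qX qW (ι ⊕ κ) φ ↔ Wal (wamp ι β) (qa qX) (qa qW) κ φ := by
  have e1 : ∀ F : (ι ⊕ κ → F2) → ℝ, av F = av fun c => av fun a => F (Sum.elim a c) := fun F => by
    rw [← av_equiv (Equiv.sumArrowEquivProdArrow ι κ F2).symm, av_prod, av_comm]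
    rfl
  have e2 : ∀ (f : (ι ⊕ κ → F2) → X) (g : (ι ⊕ κ → F2) → W),
      (av fun a => av fun b => sg (a ⬝ᵥ b) * β (f a) (g b)) = av fun c => av fun d =>
        sg (c ⬝ᵥ d) * wamp ι β (fun a => f (Sum.elim a c)) fun b => g (Sum.elim b d) := by
    intro f g
    simp only [e1, wamp, amp_apply, ← av_mul_left, sumElim_dotProduct_sumElim, sg_add]
    refine av_congr fun c => (av_comm _).trans (av_congr fun d => av_congr fun a =>
      av_congr fun b => by ring)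
  refine ⟨fun h f g => ?_, fun h f g => ?_⟩
  · have h1 := h (fun a => f (a ∘ Sum.inr) (a ∘ Sum.inl)) fun b => g (b ∘ Sum.inr) (b ∘ Sum.inl)
    rw [e2, e1, e1] at h1
    exact h1
  · rw [e2, e1, e1]
    exact h _ _

theorem Base.wal (h : Base β qX qW φ) : Wal β qX qW ι φ := by
  intro f g
  refine (abs_av_le_of fun a => abs_av_le_of fun b => ?_ : _ ≤ av fun a => av fun b =>
    φ * (qX (f a) + qW (g b)) / 2).trans_eq ?_
  · rw [abs_mul, abs_sg, one_mul]
    exact h _ _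
  · simp only [div_eq_mul_inv, av_mul_right, av_mul_left, av_add, av_const]

theorem wal_empty_iff [IsEmpty ι] : Wal β qX qW ι φ ↔ Base β qX qW φ := by
  refine ⟨fun h x w => ?_, Base.wal⟩
  simpa [av_const, dotProduct] using h (fun _ => x) fun _ => w

/-- `κ ≃ ι ⊕ Fin (card κ - card ι)`, `wal_sum_iff`, `Base.wal` -/
theorem Wal.card_le (h : Wal β qX qW ι φ) (hc : Fintype.card ι ≤ Fintype.card κ) :
    Wal β qX qW κ φ := by
  refine Wal.equiv (ι := ι ⊕ Fin (Fintype.card κ - Fintype.card ι))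
    (Fintype.equivOfCardEq ?_) (wal_sum_iff.2 (wal_iff_base.1 h).wal)
  simp [hc]

end Vale.Agent.P111
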