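import Vale.Agent.P111.Rank

/-! Extension of a dual pair of frames by one random pair. -/

noncomputable section

namespace Vale.Agent.P111

open Finset Matrix

variable {N : ℕ}

theorem rankb_entry {m n : Type} (A : Matrix m (Fin N) F2) (S : Mx N) (B : Matrix n (Fin N) F2)
    (a : m) (b : n) : (A * S * Bᵀ) a b = A a ⬝ᵥ S *ᵥ B b := by
  rw [Matrix.mul_assoc]
  rfl

theorem rankb_zero (j : ℕ) :
    av (fun a : Fin j → F2 => if a = 0 then (1 : ℝ) else 0) = ((2 : ℝ) ^ j)⁻¹ := by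
  rw [av_ite_eq, card_vec, Fintype.card_fin, mul_one]

theorem rankb_half {j : ℕ} (A : Matrix (Fin N) (Fin j) F2) (B : Matrix (Fin j) (Fin N) F2)
    (h : B * A = 1) :
    av (fun p : Fin N → F2 => av fun a : Fin j → F2 => sg (p ⬝ᵥ A *ᵥ a)) = ((2 : ℝ) ^ j)⁻¹ := by
  rw [av_comm, ← rankb_zero j]
  refine av_congr fun a => ?_
  rw [av_sg_dot]
  refine if_congr ⟨fun h0 => ?_, fun h0 => by rw [h0, mulVec_zero]⟩ rfl rfl
  rw [← one_mulVec a, ← h, ← mulVec_mulVec, h0, mulVec_zero]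

theorem rankb_cons {j : ℕ} (P P' : Matrix (Fin j) (Fin N) F2) (S : Mx N) (p p' : Fin N → F2) :
    (Matrix.of (Fin.cons p P) : Matrix (Fin (j + 1)) (Fin N) F2) * S *
      (Matrix.of (Fin.cons p' P') : Matrix (Fin (j + 1)) (Fin N) F2)ᵀ = 1 ↔
      P * S * P'ᵀ = 1 ∧ P' *ᵥ (p ᵥ* S) = 0 ∧ P *ᵥ (S *ᵥ p') = 0 ∧ p ⬝ᵥ S *ᵥ p' = 1 := by
  have h1 : ∀ b, (P' *ᵥ (p ᵥ* S)) b = p ⬝ᵥ S *ᵥ P' b := fun b => by
    rw [dotProduct_mulVec, dotProduct_comm]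
    rfl
  have h2 : ∀ a, (P *ᵥ (S *ᵥ p')) a = P a ⬝ᵥ S *ᵥ p' := fun a => rfl
  simp only [← Matrix.ext_iff, funext_iff, rankb_entry, Fin.forall_fin_succ, h1, h2,
    one_apply, Fin.succ_inj, Pi.zero_apply, (Fin.succ_ne_zero _), (Fin.succ_ne_zero _).symm,
    if_true, if_false, forall_and]
  exact ⟨fun h => ⟨h.2.2, h.2.1, h.1.2, h.1.1⟩, fun h => ⟨⟨h.2.2.2, h.2.2.1⟩, h.2.1, h.1⟩⟩

/-- Write the indicator as the mean over `α α' : Fin j → F2` of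
`sg (p ⬝ᵥ S *ᵥ (α' ᵥ* P')) * sg ((α ᵥ* P) ⬝ᵥ S *ᵥ p') * (1 - sg (p ⬝ᵥ S *ᵥ p')) / 2`.
First term: the mean over `p` is the indicator of `S *ᵥ (α' ᵥ* P') = 0`, i.e. of `α' = 0` (apply
`P *ᵥ`). Second term: shift `p` by `α ᵥ* P` and `p'` by `α' ᵥ* P'`; the remaining factor is
`sg (α ⬝ᵥ α')` with mean `2 ^ (-j)`. -/
theorem rank_ext {j : ℕ} (P P' : Matrix (Fin j) (Fin N) F2) (S : Mx N) (h : P * S * P'ᵀ = 1) :
    av (fun p : Fin N → F2 => av fun p' : Fin N → F2 =>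
      if P' *ᵥ (p ᵥ* S) = 0 ∧ P *ᵥ (S *ᵥ p') = 0 ∧ p ⬝ᵥ S *ᵥ p' = 1 then (1 : ℝ) else 0) =
      (1 - 2 ^ j * yy S) / (2 * 4 ^ j) := by
  have h' : P' * Sᵀ * Pᵀ = 1 := by
    have := congrArg transpose h
    rwa [transpose_mul, transpose_mul, transpose_transpose, transpose_one,
      ← Matrix.mul_assoc] at this
  have e1 : ∀ (p : Fin N → F2) (a : Fin j → F2),
      a ⬝ᵥ P' *ᵥ (p ᵥ* S) = p ⬝ᵥ S *ᵥ (P'ᵀ *ᵥ a) := fun p a => by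
    rw [dotProduct_mulVec, dotProduct_mulVec p, mulVec_transpose, dotProduct_comm]
  have e2 : ∀ (p' : Fin N → F2) (a : Fin j → F2),
      a ⬝ᵥ P *ᵥ (S *ᵥ p') = (a ᵥ* P) ⬝ᵥ S *ᵥ p' := fun p a => dotProduct_mulVec _ _ _
  have e3 : ∀ a a' : Fin j → F2, (a ᵥ* P) ⬝ᵥ S *ᵥ (P'ᵀ *ᵥ a') = a ⬝ᵥ a' := fun a a' => by
    rw [← dotProduct_mulVec, mulVec_mulVec, mulVec_mulVec, h, one_mulVec]
  obtain ⟨I₁, hI₁⟩ : ∃ I₁ : (Fin N → F2) → ℝ,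
    ∀ p, I₁ p = av fun a : Fin j → F2 => sg (p ⬝ᵥ S *ᵥ (P'ᵀ *ᵥ a)) := ⟨_, fun _ => rfl⟩
  obtain ⟨I₂, hI₂⟩ : ∃ I₂ : (Fin N → F2) → ℝ,
    ∀ p', I₂ p' = av fun a : Fin j → F2 => sg ((a ᵥ* P) ⬝ᵥ S *ᵥ p') := ⟨_, fun _ => rfl⟩
  have h1 : ∀ p p' : Fin N → F2,
      (if P' *ᵥ (p ᵥ* S) = 0 ∧ P *ᵥ (S *ᵥ p') = 0 ∧ p ⬝ᵥ S *ᵥ p' = 1 then (1 : ℝ) else 0) =
        1 / 2 * (I₁ p * I₂ p') - 1 / 2 * (I₁ p * I₂ p' * sg (p ⬝ᵥ S *ᵥ p')) := by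
    intro p p'
    simp only [hI₁, hI₂, ← e1, ← e2, av_sg_dot]
    by_cases a1 : P' *ᵥ (p ᵥ* S) = 0 <;> by_cases a2 : P *ᵥ (S *ᵥ p') = 0 <;>
      rcases f2_cases (p ⬝ᵥ S *ᵥ p') with a3 | a3 <;>
        simp only [a1, a2, a3, sg_zero, sg_one] <;> norm_num
  have h2 : av I₁ = ((2 : ℝ) ^ j)⁻¹ := by
    rw [← rankb_half (S * P'ᵀ) P (by rw [← Matrix.mul_assoc, h])]
    exact av_congr fun p => by simp only [hI₁, mulVec_mulVec]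
  have h3 : av I₂ = ((2 : ℝ) ^ j)⁻¹ := by
    rw [← rankb_half (Sᵀ * Pᵀ) P' (by rw [← Matrix.mul_assoc, h'])]
    refine av_congr fun p => ?_
    rw [hI₂]
    refine av_congr fun a => ?_
    rw [← mulVec_mulVec, mulVec_transpose, mulVec_transpose, dotProduct_mulVec, dotProduct_comm]
  have h4 : ∀ a a' : Fin j → F2, (av fun p : Fin N → F2 => av fun p' : Fin N → F2 =>
      sg (p ⬝ᵥ S *ᵥ (P'ᵀ *ᵥ a')) * sg ((a ᵥ* P) ⬝ᵥ S *ᵥ p') * sg (p ⬝ᵥ S *ᵥ p')) =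
        yy S * sg (a ⬝ᵥ a') := by
    intro a a'
    rw [yy, ← av_shift (a ᵥ* P) fun p => av fun p' : Fin N → F2 => sg (p ⬝ᵥ S *ᵥ p'),
      ← av_mul_right]
    refine av_congr fun p => ?_
    rw [← av_shift (P'ᵀ *ᵥ a') fun p' => sg ((p + a ᵥ* P) ⬝ᵥ S *ᵥ p'), ← av_mul_right]
    refine av_congr fun p' => ?_
    rw [mulVec_add, add_dotProduct, dotProduct_add, dotProduct_add, e3, sg_add, sg_add, sg_add]
    linear_combination (-(sg (p ⬝ᵥ S *ᵥ (P'ᵀ *ᵥ a')) * sg ((a ᵥ* P) ⬝ᵥ S *ᵥ p') *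
      sg (p ⬝ᵥ S *ᵥ p'))) * sg_mul_self (a ⬝ᵥ a')
  have h5 : (av fun p : Fin N → F2 => av fun p' : Fin N → F2 =>
      I₁ p * I₂ p' * sg (p ⬝ᵥ S *ᵥ p')) = yy S * ((2 : ℝ) ^ j)⁻¹ := by
    have h6 : ∀ p p' : Fin N → F2, I₁ p * I₂ p' * sg (p ⬝ᵥ S *ᵥ p') =
        av fun a' : Fin j → F2 => av fun a : Fin j → F2 =>
          sg (p ⬝ᵥ S *ᵥ (P'ᵀ *ᵥ a')) * sg ((a ᵥ* P) ⬝ᵥ S *ᵥ p') * sg (p ⬝ᵥ S *ᵥ p') := by
      intro p p'
      simp only [av_mul_right, av_mul_left, hI₁, hI₂]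
    simp only [h6]
    rw [← rankb_zero j, ← av_mul_left,
      av_congr fun p => av_comm (Ω := Fin N → F2) (Ω' := Fin j → F2) _, av_comm]
    refine av_congr fun a' => ?_
    rw [av_congr fun p => av_comm (Ω := Fin N → F2) (Ω' := Fin j → F2) _, av_comm, ← av_sg_dot,
      ← av_mul_left]
    exact av_congr fun a => h4 a a'
  simp only [h1, av_sub, av_mul_left]
  rw [h5, av_mul_right, h2, h3, show (4 : ℝ) ^ j = 2 ^ j * 2 ^ j by rw [← mul_pow]; norm_num]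
  field_simp

/-- New index set `Ω × (Fin N → F2) × (Fin N → F2)`, matrices `Matrix.of (Fin.cons p (P ω))`. -/
theorem Good.step {j : ℕ} {μ : Mx N → ℝ} {K : ℝ} (h : Good j μ K) :
    Good (j + 1) (fun S => μ S * (1 - 2 ^ j * yy S)) (K * (2 * 4 ^ j)) := by
  obtain ⟨Ω, _, l, P, P', hl, hμ⟩ := h
  obtain ⟨c, hc⟩ : ∃ c : ℝ, c = (Fintype.card (Fin N → F2) : ℝ)⁻¹ := ⟨_, rfl⟩
  have hc0 : 0 ≤ c := by rw [hc]; positivity
  have hc1 : ∀ x : ℝ, ∑ _p : Fin N → F2, x * c = x := fun x => by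
    have := av_const (Ω := Fin N → F2) x
    rwa [av, ← hc, smul_eq_mul, mul_comm, sum_mul] at this
  refine ⟨Ω × (Fin N → F2) × (Fin N → F2), inferInstance,
    fun z => l z.1 * (2 * 4 ^ j) * c * c, fun z => Matrix.of (Fin.cons z.2.1 (P z.1)),
    fun z => Matrix.of (Fin.cons z.2.2 (P' z.1)), ?_, fun S hS => ?_⟩
  · have h4 : (0 : ℝ) ≤ 2 * 4 ^ j := by positivity
    simp only [Fintype.sum_prod_type, abs_mul _ c, abs_of_nonneg hc0, hc1]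
    simp only [abs_mul _ (2 * 4 ^ j : ℝ), abs_of_nonneg h4, ← sum_mul]
    exact mul_le_mul_of_nonneg_right hl h4
  · show μ S * _ = _
    rw [hμ S hS, sum_mul, Fintype.sum_prod_type]
    refine sum_congr rfl fun ω _ => ?_
    simp only [rankb_cons]
    by_cases hω : P ω * S * (P' ω)ᵀ = 1
    · have h1 := rank_ext _ _ S hω
      rw [eq_div_iff (by positivity)] at h1
      rw [if_pos hω, ← h1, Fintype.sum_prod_type]
      simp only [hω, true_and, av, ← hc, smul_eq_mul, mul_sum, sum_mul]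
      refine sum_congr rfl fun p _ => sum_congr rfl fun p' _ => ?_
      ring
    · simp only [hω, false_and, if_false, mul_zero, zero_mul, sum_const_zero]

end Vale.Agent.P111
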