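import Mathlib

/-! Definitions used in the statement of the cotype-cotype theorem. -/

noncomputable section

namespace Vale.Agent.P111

/-- the sign attached to a bit: `0 ↦ 1`, `1 ↦ -1` -/
def sg (x : ZMod 2) : ℝ := if x = 0 then 1 else -1

/-- the mean value over a finite set with the uniform probability -/
def av {Ω X : Type*} [Fintype Ω] [AddCommGroup X] [Module ℝ X] (f : Ω → X) : X :=
  (Fintype.card Ω : ℝ)⁻¹ • ∑ ω, f ω

/-- bounded approximation property -/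
def HasBAP (X : Type*) [NormedAddCommGroup X] [NormedSpace ℝ X] : Prop :=
  ∃ lam : ℝ, ∀ M : Set X, IsCompact M → ∀ δ : ℝ, 0 < δ → ∃ S : X →L[ℝ] X,
    FiniteDimensional ℝ (LinearMap.range (S : X →ₗ[ℝ] X)) ∧ ‖S‖ ≤ lam ∧ ∀ x ∈ M, ‖S x - x‖ < δ

/-- Rademacher cotype `q` -/
def HasCotype (Y : Type*) [NormedAddCommGroup Y] [NormedSpace ℝ Y] (q : ℝ) : Prop :=
  ∃ C : ℝ, ∀ (s : ℕ) (y : Fin s → Y), (∑ i, ‖y i‖ ^ q) ^ (1 / q) ≤
    C * √(av fun ε : Fin s → ZMod 2 => ‖∑ i, sg (ε i) • y i‖ ^ 2)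

/-- the Rademacher projection -/
def radProj {X : Type*} [NormedAddCommGroup X] [NormedSpace ℝ X] {s : ℕ}
    (f : (Fin s → ZMod 2) → X) (ε : Fin s → ZMod 2) : X :=
  ∑ i, sg (ε i) • av fun η : Fin s → ZMod 2 => sg (η i) • f η

/-- `K`-convexity: the Rademacher projections are uniformly bounded on `L_2(X)` -/
def KConvex (X : Type*) [NormedAddCommGroup X] [NormedSpace ℝ X] : Prop :=
  ∃ K : ℝ, ∀ (s : ℕ) (f : (Fin s → ZMod 2) → X),
    √(av fun ε => ‖radProj f ε‖ ^ 2) ≤ K * √(av fun ε => ‖f ε‖ ^ 2)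

end Vale.Agent.P111
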