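import Vale.Agent.P111.CubeB
import Vale.Agent.P111.Bap

/-! From the decay of the Walsh norm to the invertibility of `1 + c T`. -/

noncomputable section

namespace Vale.Agent.P111

open Finset Matrix

variable {X : Type*} [NormedAddCommGroup X] [NormedSpace ℝ X] {m n : ℕ}

/-- averaging over the coordinates in the support of `A` -/
def pi0 (A S : Fin n → F2) : ℝ := ∏ i, if A i = 0 ∨ S i = 0 then 1 else 0

theorem wdec_univ : (univ : Finset F2) = {0, 1} := by decide

theorem wdec_one : ‖mo X fun _ : Fin n → F2 => 1‖ ≤ 1 := by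
  rw [mo_one]
  exact ContinuousLinearMap.norm_id_le

theorem wdec_pi0 (A : Fin n → F2) : ‖mo X (pi0 A)‖ ≤ 1 := by
  refine norm_mo_prod univ (fun i S => if A i = 0 ∨ S i = 0 then 1 else 0) fun i _ => ?_
  by_cases h : A i = 0
  · simpa [h] using wdec_one (X := X) (n := n)
  · simpa [h] using norm_mo_flip (X := X) i (x := 0) (by simp)

theorem wdec_idem (A S : Fin n → F2) : pi0 A S * pi0 A S = pi0 A S := by
  rw [pi0, ← prod_mul_distrib]
  exact prod_congr rfl fun i _ => by split_ifs <;> simp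

/-- the factors of the Walsh form -/
def wdecU (A : Fin m → Fin n → F2) (a : Fin m → F2) (S : Fin n → F2) : ℝ :=
  ∏ j, if a j = 0 then 1 else -pi0 (A j) S

theorem wdec_u (A : Fin m → Fin n → F2) (a : Fin m → F2) : ‖mo X (wdecU A a)‖ ≤ 1 := by
  refine norm_mo_prod univ (fun j S => if a j = 0 then 1 else -pi0 (A j) S) fun j _ => ?_
  by_cases h : a j = 0
  · simpa [h] using wdec_one (X := X) (n := n)
  · have e := mo_smul (X := X) (-1) (pi0 (A j))
    simp only [neg_mul, one_mul] at e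
    simp only [h, if_false]
    rw [e, norm_smul, norm_neg, norm_one, one_mul]
    exact wdec_pi0 _

theorem wdec_id (A : Fin m → Fin n → F2) (S : Fin n → F2) :
    ∏ j, (1 - 3 * pi0 (A j) S) / 4 =
      av fun a => av fun b => sg (a ⬝ᵥ b) * (wdecU A b S * wdecU A a S) := by
  have e : ∀ a b : Fin m → F2, sg (a ⬝ᵥ b) * (wdecU A b S * wdecU A a S) =
      ∏ j, sg (a j * b j) * ((if b j = 0 then 1 else -pi0 (A j) S) *
        if a j = 0 then 1 else -pi0 (A j) S) := fun a b => by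
    rw [dotProduct, sg_sum, wdecU, wdecU, prod_mul_distrib, prod_mul_distrib]
  simp only [e]
  have e2 : ∀ a : Fin m → F2, (av fun b : Fin m → F2 => ∏ j, sg (a j * b j) *
      ((if b j = 0 then 1 else -pi0 (A j) S) * if a j = 0 then 1 else -pi0 (A j) S)) =
      ∏ j, av fun t : F2 => sg (a j * t) * ((if t = 0 then 1 else -pi0 (A j) S) *
        if a j = 0 then 1 else -pi0 (A j) S) := fun a =>
    av_pi_prod fun j t => sg (a j * t) * ((if t = 0 then 1 else -pi0 (A j) S) *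
      if a j = 0 then 1 else -pi0 (A j) S)
  simp only [e2]
  rw [av_pi_prod fun j s => av fun t : F2 => sg (s * t) * ((if t = 0 then 1 else -pi0 (A j) S) *
    if s = 0 then 1 else -pi0 (A j) S)]
  refine prod_congr rfl fun j _ => ?_
  have h := wdec_idem (A j) S
  simp [av, wdec_univ, ZMod.card]
  linarith

theorem wdec_mo_av {Ω : Type} [Fintype Ω] (ν : Ω → (Fin n → F2) → ℝ) :
    mo X (fun S => av fun ω => ν ω S) = av fun ω => mo X (ν ω) := by
  simp only [av, smul_eq_mul]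
  rw [mo_smul, mo_sum]

theorem wdec_sq {Y : Type*} [NormedAddCommGroup Y] [NormedSpace ℝ Y] (A : Fin m → Fin n → F2)
    (f : LZ n Y) : ∑ w, (av fun a => ‖mo Y (wdecU A a) f w‖ ^ 2) ≤ ‖f‖ ^ 2 := by
  rw [← av_sum]
  refine av_le fun a => ?_
  rw [← PiLp.norm_sq_eq_of_L2]
  exact pow_le_pow_left₀ (norm_nonneg _) (((mo Y (wdecU A a)).le_opNorm f).trans
    (mul_le_of_le_one_left (norm_nonneg _) (wdec_u A a))) 2

theorem wdec_test (h : Wal (dual (ContinuousLinearMap.id ℝ X)) (fun x => ‖x‖ ^ 2)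
    (fun y => ‖y‖ ^ 2) (Fin m) (1 / 2)) (A : Fin m → Fin n → F2) (f : LZ n X)
    (g : LZ n (StrongDual ℝ X)) :
    ∑ w, g w (mo X (fun S => ∏ j, (1 - 3 * pi0 (A j) S) / 4) f w) ≤ (‖f‖ ^ 2 + ‖g‖ ^ 2) / 4 := by
  let L : (LZ n X →L[ℝ] LZ n X) →ₗ[ℝ] ℝ :=
    { toFun := fun T => ∑ w, g w (T f w)
      map_add' := fun T T' => by simp [sum_add_distrib]
      map_smul' := fun c T => by simp [mul_sum] }
  have e : L (mo X fun S => ∏ j, (1 - 3 * pi0 (A j) S) / 4) = ∑ w, av fun a => av fun b =>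
      sg (a ⬝ᵥ b) * dual (ContinuousLinearMap.id ℝ X) (mo X (wdecU A a) f w)
        (mo (StrongDual ℝ X) (wdecU A b) g w) := by
    simp only [wdec_id, wdec_mo_av, map_av, ← av_sum]
    refine av_congr fun a => av_congr fun b => ?_
    rw [mo_smul, map_smul, mo_mul, smul_eq_mul, ← mul_sum]
    congr 1
    exact mo_dual (wdecU A b) (mo X (wdecU A a) f) g
  refine (le_of_eq e).trans ?_
  refine (sum_le_sum fun w _ => (le_abs_self _).trans (h _ _)).trans ?_
  have b1 := wdec_sq A f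
  have b2 := wdec_sq A g
  rw [← sum_div, ← mul_sum, sum_add_distrib]
  linarith

/-- For idempotents `π j ∈ {0, 1}`:
`∏ j, (1 - 3 π j) / 4` is the mean over `a b : Fin m → F2` of `sg (a ⬝ᵥ b) * u a * u b` with
`u a = ∏ j, if a j = 0 then 1 else -π j` (`av_pi_prod`). Test `mo` of it on `f` against the
norming `g` (`exists_norming`, `mo_dual`, `mo_mul`) and apply `Wal` for each point `w` of the
cube to `a ↦ mo (u a) f w`, `b ↦ mo (u b) g w`; finally `‖h‖ ^ 2 ≤ (‖f‖ ^ 2 + ‖h‖ ^ 2) / 4`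
is improved to `‖h‖ ≤ ‖f‖ / 2` by scaling `g`. -/
theorem wdec_proj (h : Wal (dual (ContinuousLinearMap.id ℝ X)) (fun x => ‖x‖ ^ 2)
    (fun y => ‖y‖ ^ 2) (Fin m) (1 / 2)) (A : Fin m → Fin n → F2) :
    ‖mo X fun S => ∏ j, (1 - 3 * pi0 (A j) S) / 4‖ ≤ 1 / 2 := by
  refine ContinuousLinearMap.opNorm_le_bound _ (by norm_num) fun f => ?_
  have h0 := wdec_test h A f
  generalize mo X (fun S => ∏ j, (1 - 3 * pi0 (A j) S) / 4) f = y at h0 ⊢
  obtain ⟨g, hg, e⟩ := exists_norming y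
  have h1 := h0 ((2 : ℝ) • g)
  have e2 : ∑ w, ((2 : ℝ) • g) w (y w) = 2 * ‖y‖ ^ 2 := by
    rw [← e, mul_sum]
    rfl
  rw [e2, norm_smul, Real.norm_ofNat, mul_pow] at h1
  have h2 := pow_le_pow_left₀ (norm_nonneg _) hg 2
  exact (abs_le_of_sq_le_sq' (by nlinarith) (by positivity)).2

theorem wdec_wsum (x : ℝ) : ∑ B : Fin n → F2, ∏ i, (if B i = 0 then x else 1 - x) = 1 := by
  have h := Finset.prod_univ_sum (fun _ : Fin n => (univ : Finset F2))
    (fun _ t => if t = 0 then x else 1 - x)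
  rw [Fintype.piFinset_univ] at h
  rw [← h]
  exact prod_eq_one fun i _ => by simp [wdec_univ]

theorem wdec_wpi (x : ℝ) (S : Fin n → F2) :
    ∑ B : Fin n → F2, (∏ i, if B i = 0 then x else 1 - x) * pi0 B S = x ^ wt S := by
  have h := Finset.prod_univ_sum (fun _ : Fin n => (univ : Finset F2))
    (fun i t => (if t = 0 then x else 1 - x) * if t = 0 ∨ S i = 0 then 1 else 0)
  rw [Fintype.piFinset_univ] at h
  simp only [pi0, ← prod_mul_distrib]
  rw [← h, pow_wt]
  refine prod_congr rfl fun i _ => ?_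
  by_cases hS : S i = 0 <;> simp [wdec_univ, hS]

/-- `x ^ wt S = ∑ A, (∏ i, if A i = 0 then x else 1 - x) * pi0 A S`; expand the power as a sum
over `A : Fin m → Fin n → F2` (`Finset.prod_univ_sum`) with nonnegative weights of sum one. -/
theorem wdec_pow (h : Wal (dual (ContinuousLinearMap.id ℝ X)) (fun x => ‖x‖ ^ 2)
    (fun y => ‖y‖ ^ 2) (Fin m) (1 / 2)) {x : ℝ} (h0 : 0 ≤ x) (h1 : x ≤ 1) :
    Mu X (fun k => ((1 - 3 * x ^ k) / 4) ^ m) (1 / 2) := by
  intro n
  have e : ∀ S : Fin n → F2, ((1 - 3 * x ^ wt S) / 4) ^ m = ∑ A : Fin m → Fin n → F2,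
      (∏ j, ∏ i, if A j i = 0 then x else 1 - x) * ∏ j, (1 - 3 * pi0 (A j) S) / 4 := by
    intro S
    have h2 := Finset.prod_univ_sum (fun _ : Fin m => (univ : Finset (Fin n → F2)))
      (fun _ B => (∏ i, if B i = 0 then x else 1 - x) * ((1 - 3 * pi0 B S) / 4))
    rw [Fintype.piFinset_univ] at h2
    simp only [← prod_mul_distrib]
    rw [← h2, prod_const, card_univ, Fintype.card_fin]
    congr 1
    have h3 : ∀ B : Fin n → F2, (∏ i, if B i = 0 then x else 1 - x) * ((1 - 3 * pi0 B S) / 4) =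
        1 / 4 * (∏ i, if B i = 0 then x else 1 - x) -
          3 / 4 * ((∏ i, if B i = 0 then x else 1 - x) * pi0 B S) := fun B => by ring
    simp only [h3, sum_sub_distrib, ← mul_sum, wdec_wsum, wdec_wpi]
    ring
  have e2 : ∑ A : Fin m → Fin n → F2, (∏ j, ∏ i, if A j i = 0 then x else 1 - x) = 1 := by
    have h2 := Finset.prod_univ_sum (fun _ : Fin m => (univ : Finset (Fin n → F2)))
      (fun _ B => ∏ i, if B i = 0 then x else 1 - x)
    rw [Fintype.piFinset_univ] at h2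
    rw [← h2]
    exact prod_eq_one fun _ _ => wdec_wsum x
  simp only [e]
  rw [mo_sum]
  refine (norm_sum_le _ _).trans ?_
  refine le_trans (sum_le_sum (g := fun A : Fin m → Fin n → F2 =>
    (∏ j, ∏ i, if A j i = 0 then x else 1 - x) * (1 / 2)) fun A _ => ?_)
    (by rw [← sum_mul, e2, one_mul])
  have h2 : 0 ≤ ∏ j, ∏ i, if A j i = 0 then x else 1 - x :=
    prod_nonneg fun j _ => prod_nonneg fun i _ => by split_ifs <;> linarith
  rw [mo_smul, norm_smul, Real.norm_of_nonneg h2]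
  exact mul_le_mul_of_nonneg_left (wdec_proj h A) h2

/-- `1 + c x ^ k = (1 + c / 3) (1 - κ w k)` with `w k = (1 - 3 x ^ k) / 4`,
`κ = 4 c / (3 + c) ≤ 1`, and `v = ∑ j < m, (κ w) ^ j + (κ w) ^ m * v` for `v = 1 / (1 - κ w)`. -/
theorem wdec_inv (h : ∀ x : ℝ, 0 ≤ x → x ≤ 1 → Mu X (fun k => ((1 - 3 * x ^ k) / 4) ^ m) (1 / 2))
    {x c : ℝ} (h0 : 0 ≤ x) (h1 : x ≤ 1) (hc0 : 0 ≤ c) (hc1 : c ≤ 1) :
    Mu X (fun k => 1 / (1 + c * x ^ k)) (2 * m) := by
  have c3 : 0 < 3 + c := by linarith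
  have k0 : 0 ≤ 4 * c / (3 + c) := by positivity
  have k1 : 4 * c / (3 + c) ≤ 1 := by rw [div_le_one c3]; linarith
  have hx : Mu X (fun k => x ^ k) 1 := mu_pow (by rw [abs_of_nonneg h0]; exact h1)
  have ho : Mu X (fun k => (1 : ℝ) ^ k) 1 := mu_pow (by simp)
  have hw : Mu X (fun k => 4 * c / (3 + c) * ((1 - 3 * x ^ k) / 4)) 1 := by
    refine ((((ho.smul (1 / 4)).sub (hx.smul (3 / 4))).smul (4 * c / (3 + c))).congr
      fun k => by rw [one_pow]; ring).mono ?_
    rw [abs_of_nonneg k0, abs_of_pos (by norm_num : (0 : ℝ) < 1 / 4),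
      abs_of_pos (by norm_num : (0 : ℝ) < 3 / 4)]
    linarith
  have hs : ∀ l : ℕ, Mu X (fun k => ∑ j ∈ range l,
      (4 * c / (3 + c) * ((1 - 3 * x ^ k) / 4)) ^ j) l := by
    intro l
    induction l with
    | zero => exact ((ho.smul 0).congr fun k => by simp).mono (by simp)
    | succ l ih => exact ((ih.add (hw.pow l)).congr fun k => by rw [sum_range_succ]).mono (by simp)
  have hs' := ((hs m).smul (3 / (3 + c))).mono (K' := m) (by
    rw [abs_of_pos (by positivity)]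
    exact mul_le_of_le_one_left (Nat.cast_nonneg m) (by rw [div_le_one c3]; linarith))
  have hp := ((h x h0 h1).smul ((4 * c / (3 + c)) ^ m)).mono (K' := 1 / 2) (by
    rw [abs_of_nonneg (pow_nonneg k0 m)]
    exact mul_le_of_le_one_left (by norm_num) (pow_le_one₀ k0 k1))
  intro n
  have e : ∀ k : ℕ, 1 / (1 + c * x ^ k) = 3 / (3 + c) * ∑ j ∈ range m,
      (4 * c / (3 + c) * ((1 - 3 * x ^ k) / 4)) ^ j +
      (4 * c / (3 + c)) ^ m * ((1 - 3 * x ^ k) / 4) ^ m * (1 / (1 + c * x ^ k)) := by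
    intro k
    have d0 : 0 < 1 + c * x ^ k := by positivity
    have g := mul_neg_geom_sum (4 * c / (3 + c) * ((1 - 3 * x ^ k) / 4)) m
    have e1 : 1 - 4 * c / (3 + c) * ((1 - 3 * x ^ k) / 4) = 3 / (3 + c) * (1 + c * x ^ k) := by
      field_simp
      ring
    rw [e1, mul_pow] at g
    rw [div_eq_iff d0.ne', add_mul, mul_assoc _ (1 / _), one_div_mul_cancel d0.ne']
    linarith
  have e2 : mo X (fun S : Fin n → F2 => 1 / (1 + c * x ^ wt S)) =
      mo X (fun S : Fin n → F2 => 3 / (3 + c) * ∑ j ∈ range m,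
        (4 * c / (3 + c) * ((1 - 3 * x ^ wt S) / 4)) ^ j) +
      mo X (fun S : Fin n → F2 => (4 * c / (3 + c)) ^ m * ((1 - 3 * x ^ wt S) / 4) ^ m) *
        mo X (fun S : Fin n → F2 => 1 / (1 + c * x ^ wt S)) := by
    rw [← mo_mul, ← mo_add]
    exact congrArg _ (funext fun S => e (wt S))
  have b1 := hs' n
  have b2 := hp n
  have b3 := (congrArg norm e2).le.trans ((norm_add_le _ _).trans (add_le_add b1
    ((norm_mul_le _ _).trans (mul_le_mul_of_nonneg_right b2 (norm_nonneg _)))))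
  linarith

end Vale.Agent.P111
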